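import Mathlib

/-!
# Scalar inequalities
-/

set_option autoImplicit false

namespace Vale.Agent.P331.H66

/-- the gap in the tangent plane inequality of `b ^ (2k+2) / a ^ k` -/
theorem breg {k : ℕ} {a b : ℝ} (ha : 0 < a) (ha1 : a ≤ 1) (hb : 0 ≤ b) :
    ((k : ℝ) + 1) * (1 - b) ^ 2 + k * (b ^ 2 - a) ^ 2 ≤
      b ^ (2 * k + 2) / a ^ k - 1 + (2 * k + 2) * (1 - b) - k * (1 - a) := by
  have h1 : b ^ (2 * k + 2) / a ^ k = b ^ 2 * (b ^ 2 / a) ^ k := by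
    rw [div_pow, pow_add, pow_mul]
    ring
  have h2 : 1 + (k : ℝ) * (b ^ 2 / a - 1) ≤ (b ^ 2 / a) ^ k := by
    have h := one_add_mul_le_pow (a := b ^ 2 / a - 1) (by
      have : 0 ≤ b ^ 2 / a := by positivity
      linarith) k
    have e : 1 + (b ^ 2 / a - 1) = b ^ 2 / a := by ring
    rw [e] at h
    exact h
  have h3 : 2 * b ^ 2 - a + (b ^ 2 - a) ^ 2 ≤ b ^ 2 * (b ^ 2 / a) := by
    have e : b ^ 2 * (b ^ 2 / a) = 2 * b ^ 2 - a + (b ^ 2 - a) ^ 2 / a := by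
      field_simp
      ring
    rw [e]
    have : (b ^ 2 - a) ^ 2 ≤ (b ^ 2 - a) ^ 2 / a := by
      rw [le_div_iff₀ ha]
      nlinarith [sq_nonneg (b ^ 2 - a)]
    linarith
  have h4 : b ^ 2 * (1 + (k : ℝ) * (b ^ 2 / a - 1)) ≤ b ^ 2 * (b ^ 2 / a) ^ k :=
    mul_le_mul_of_nonneg_left h2 (sq_nonneg b)
  have hk : (0 : ℝ) ≤ k := Nat.cast_nonneg k
  have h5 := mul_le_mul_of_nonneg_left h3 hk
  rw [h1]
  have e2 : b ^ 2 * (1 + (k : ℝ) * (b ^ 2 / a - 1)) =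
      b ^ 2 + k * (b ^ 2 * (b ^ 2 / a)) - k * b ^ 2 := by ring
  rw [e2] at h4
  nlinarith

/-- a quadratic lower bound for the gap -/
theorem breg' {k : ℕ} {a b : ℝ} (ha : 0 < a) (ha1 : a ≤ 1) (hb : 0 ≤ b) (hb1 : b ≤ 1) :
    (k : ℝ) / 2 * (1 - b) ^ 2 + k / 16 * (1 - a) ^ 2 ≤
      b ^ (2 * k + 2) / a ^ k - 1 + (2 * k + 2) * (1 - b) - k * (1 - a) := by
  refine le_trans ?_ (breg (k := k) ha ha1 hb)
  have hk : (0 : ℝ) ≤ k := Nat.cast_nonneg k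
  have h1 : (1 - a) ^ 2 ≤ 2 * (b ^ 2 - a) ^ 2 + 8 * (1 - b) ^ 2 := by
    have e : 1 - a = (b ^ 2 - a) + (1 - b) * (1 + b) := by ring
    have h2 : ((1 - b) * (1 + b)) ^ 2 ≤ 4 * (1 - b) ^ 2 := by
      rw [mul_pow]
      have : (1 + b) ^ 2 ≤ 4 := by nlinarith
      nlinarith [sq_nonneg (1 - b)]
    rw [e]
    nlinarith [sq_nonneg ((b ^ 2 - a) - (1 - b) * (1 + b))]
  have h2 : (k : ℝ) / 16 * (1 - a) ^ 2 ≤ k / 16 * (2 * (b ^ 2 - a) ^ 2 + 8 * (1 - b) ^ 2) :=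
    mul_le_mul_of_nonneg_left h1 (by positivity)
  have h3 : 0 ≤ (k : ℝ) * (b ^ 2 - a) ^ 2 := by positivity
  nlinarith [sq_nonneg (1 - b)]

theorem pow_one_sub_le (m : ℕ) {x : ℝ} (h0 : 0 ≤ x) (h1 : x ≤ 1) :
    (1 - x) ^ m ≤ 1 - m * x + m ^ 2 * x ^ 2 / 2 := by
  induction m with
  | zero => simp
  | succ m ih =>
    have h2 : (1 - x) ^ (m + 1) ≤ (1 - m * x + m ^ 2 * x ^ 2 / 2) * (1 - x) := by
      rw [pow_succ]
      exact mul_le_mul_of_nonneg_right ih (by linarith)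
    refine h2.trans ?_
    push_cast
    have h3 : 0 ≤ (m : ℝ) ^ 2 * x ^ 3 := by positivity
    nlinarith [sq_nonneg x]

theorem inv_one_sub_pow_le (k : ℕ) {y : ℝ} (h0 : 0 ≤ y) (h1 : y ≤ 1 / 2) :
    1 / (1 - y) ^ k ≤ Real.exp (k * (y + 2 * y ^ 2)) := by
  have h2 : 1 / (1 - y) ≤ Real.exp (y + 2 * y ^ 2) := by
    refine le_trans ?_ (Real.add_one_le_exp _)
    rw [div_le_iff₀ (by linarith)]
    nlinarith [sq_nonneg y, mul_nonneg h0 (sq_nonneg y)]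
  rw [← one_div_pow, Real.exp_nat_mul]
  exact pow_le_pow_left₀ (by
    have : 0 < 1 - y := by linarith
    positivity) h2 k

theorem pow_mix_le (m k : ℕ) {x y : ℝ} (hx0 : 0 ≤ x) (hx1 : x ≤ 1) (hy0 : 0 ≤ y)
    (hy1 : y ≤ 1 / 2) (hx : m * x ≤ 1) (hy : k * (y + 2 * y ^ 2) ≤ 1) :
    (1 - x) ^ m / (1 - y) ^ k ≤ 1 + (-(m * x) + k * (y + 2 * y ^ 2)) +
      (-(m * x) + k * (y + 2 * y ^ 2)) ^ 2 := by
  have h1 : (1 - x) ^ m ≤ Real.exp (-(m * x)) := by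
    have : (1 - x) ≤ Real.exp (-x) := by
      have := Real.add_one_le_exp (-x)
      linarith
    have h2 := pow_le_pow_left₀ (by linarith : 0 ≤ 1 - x) this m
    rw [← Real.exp_nat_mul] at h2
    have e : (m : ℝ) * -x = -(m * x) := by ring
    rw [e] at h2
    exact h2
  have h2 := inv_one_sub_pow_le k hy0 hy1
  have hy' : 0 < 1 - y := by linarith
  have h3 : (1 - x) ^ m / (1 - y) ^ k ≤ Real.exp (-(m * x) + k * (y + 2 * y ^ 2)) := by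
    rw [Real.exp_add, div_eq_mul_one_div]
    exact mul_le_mul h1 h2 (by positivity) (Real.exp_nonneg _)
  refine h3.trans ?_
  have hm : 0 ≤ (m : ℝ) * x := by positivity
  have hk : 0 ≤ (k : ℝ) * (y + 2 * y ^ 2) := by positivity
  have h4 := Real.abs_exp_sub_one_sub_id_le (x := -(m * x) + k * (y + 2 * y ^ 2)) (by
    rw [abs_le]
    constructor <;> linarith)
  have h5 := (abs_le.1 h4).2
  linarith

/-- the one-coordinate inequality for the reverse Lipschitz functional, in abstract terms -/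
theorem coordJ_core {ρ θ w β δ K R T : ℝ} (hρ : 0 < ρ) (hθ : 0 < θ) (hθ1 : θ ≤ 1 / 16384)
    (hw0 : 0 ≤ w) (hw1 : w ≤ 1 / 1000) (hβ0 : 0 ≤ β) (hβ1 : β ≤ 1) (hδ0 : 0 ≤ δ) (hδ1 : δ ≤ 1)
    (hQ : 20 * β ^ 2 + 5 / 2 * δ ^ 2 ≤ K - 1 + 82 * β - 40 * δ)
    (hR : R ≤ 1 + (-(82 * (θ * (1 - w) * β)) + 40 * (θ * δ + 2 * (θ * δ) ^ 2)) +
      (-(82 * (θ * (1 - w) * β)) + 40 * (θ * δ + 2 * (θ * δ) ^ 2)) ^ 2)
    (hT : T ≤ 1 - 82 * β + 3362 * β ^ 2 ∨ (T ≤ K ∧ 1 / 2 ≤ δ)) :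
    w * ρ * θ * T + w * ρ * θ * K + ρ * R + (1 - 2 * (w * ρ * θ) - ρ) ≤
      (1 - (w * ρ * θ + ρ * θ)) + (w * ρ * θ + ρ * θ) * K := by
  have hβ2 : 0 ≤ β ^ 2 := sq_nonneg β
  have hδ2 : 0 ≤ δ ^ 2 := sq_nonneg δ
  have hsq : (-(82 * (θ * (1 - w) * β)) + 40 * (θ * δ + 2 * (θ * δ) ^ 2)) ^ 2 ≤
      θ ^ 2 * (6724 * β ^ 2 + 6400 * δ ^ 2) := by
    have hA0 : 0 ≤ 82 * (θ * (1 - w) * β) := by
      have : 0 ≤ 1 - w := by linarith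
      positivity
    have hA1 : 82 * (θ * (1 - w) * β) ≤ 82 * (θ * β) := by
      have : θ * (1 - w) * β ≤ θ * β := by
        have h := mul_nonneg (mul_nonneg hθ.le hw0) hβ0
        have e : θ * (1 - w) * β = θ * β - θ * w * β := by ring
        rw [e]
        linarith
      linarith
    have hB0 : 0 ≤ 40 * (θ * δ + 2 * (θ * δ) ^ 2) := by positivity
    have hB1 : 40 * (θ * δ + 2 * (θ * δ) ^ 2) ≤ 80 * (θ * δ) := by
      have h1 : θ * δ ≤ 1 / 2 := by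
        have := mul_le_mul hθ1 hδ1 hδ0 (by norm_num)
        linarith
      have h2 : (θ * δ) ^ 2 ≤ 1 / 2 * (θ * δ) := by
        rw [sq]
        exact mul_le_mul_of_nonneg_right h1 (by positivity)
      linarith
    have h3 := pow_le_pow_left₀ hA0 hA1 2
    have h4 := pow_le_pow_left₀ hB0 hB1 2
    have h5 := mul_nonneg hA0 hB0
    have e : (-(82 * (θ * (1 - w) * β)) + 40 * (θ * δ + 2 * (θ * δ) ^ 2)) ^ 2 =
        (82 * (θ * (1 - w) * β)) ^ 2 + (40 * (θ * δ + 2 * (θ * δ) ^ 2)) ^ 2 -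
          2 * (82 * (θ * (1 - w) * β) * (40 * (θ * δ + 2 * (θ * δ) ^ 2))) := by ring
    rw [e]
    have e2 : (82 * (θ * β)) ^ 2 = θ ^ 2 * (6724 * β ^ 2) := by ring
    have e3 : (80 * (θ * δ)) ^ 2 = θ ^ 2 * (6400 * δ ^ 2) := by ring
    rw [e2] at h3
    rw [e3] at h4
    have e4 : θ ^ 2 * (6724 * β ^ 2 + 6400 * δ ^ 2) =
        θ ^ 2 * (6724 * β ^ 2) + θ ^ 2 * (6400 * δ ^ 2) := by ring
    rw [e4]
    linarith
  have hR2 : R ≤ 1 + θ * (-(82 * ((1 - w) * β)) + 40 * δ +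
      θ * (6724 * β ^ 2 + 6480 * δ ^ 2)) := by
    have e : θ * (-(82 * ((1 - w) * β)) + 40 * δ + θ * (6724 * β ^ 2 + 6480 * δ ^ 2)) =
        (-(82 * (θ * (1 - w) * β)) + 40 * (θ * δ + 2 * (θ * δ) ^ 2)) +
          θ ^ 2 * (6724 * β ^ 2 + 6400 * δ ^ 2) := by ring
    rw [e]
    linarith
  have hθq : θ * (6724 * β ^ 2 + 6480 * δ ^ 2) ≤ 1 / 16384 * (6724 * β ^ 2 + 6480 * δ ^ 2) :=
    mul_le_mul_of_nonneg_right hθ1 (by positivity)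
  have hmain : w * T + (-(82 * ((1 - w) * β)) + 40 * δ +
      θ * (6724 * β ^ 2 + 6480 * δ ^ 2)) ≤ w - 1 + K := by
    rcases hT with hT | ⟨hT, hδ⟩
    · have h1 := mul_le_mul_of_nonneg_left hT hw0
      have h2 : w * β ^ 2 ≤ 1 / 1000 * β ^ 2 := mul_le_mul_of_nonneg_right hw1 hβ2
      have e1 : w * (1 - 82 * β + 3362 * β ^ 2) = w - 82 * (w * β) + 3362 * (w * β ^ 2) := by
        ring
      have e2 : -(82 * ((1 - w) * β)) = -(82 * β) + 82 * (w * β) := by ring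
      rw [e1] at h1
      rw [e2]
      linarith
    · have h1 := mul_le_mul_of_nonneg_left hT hw0
      have hQ0 : 0 ≤ K - 1 + 82 * β - 40 * δ := le_trans (by positivity) hQ
      have h2 := mul_le_mul_of_nonneg_right hw1 hQ0
      have e1 : w * (K - 1 + 82 * β - 40 * δ) = w * K - w + 82 * (w * β) - 40 * (w * δ) := by
        ring
      have e2 : -(82 * ((1 - w) * β)) = -(82 * β) + 82 * (w * β) := by ring
      have h3 : w * δ ≤ 1 / 1000 * δ := mul_le_mul_of_nonneg_right hw1 hδ0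
      have h4 : δ ≤ 2 * δ ^ 2 := by nlinarith
      rw [e1] at h2
      rw [e2]
      linarith
  have h16 := mul_le_mul_of_nonneg_left hmain (by positivity : 0 ≤ ρ * θ)
  have h17 := mul_le_mul_of_nonneg_left hR2 hρ.le
  linarith

/-- the one-coordinate inequality for the reverse Lipschitz functional, normalised -/
theorem coordJ {v ρ θ θ3 w a b : ℝ} (hρ : 0 < ρ) (hθ : 0 < θ) (hθ1 : θ ≤ 1 / 16384)
    (hw0 : 0 ≤ w) (hw1 : w ≤ 1 / 1000) (hv : v = w * ρ * θ) (h3 : θ3 = θ * (1 - w))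
    (ha : 0 < a) (ha1 : a ≤ 1) (hb : 0 ≤ b) (hb1 : b ≤ 1) :
    v * (b ^ (2 * 40 + 2) / (min 1 (2 * a)) ^ 40) + v * (b ^ (2 * 40 + 2) / a ^ 40) +
      ρ * ((1 - θ3 + θ3 * b) ^ (2 * 40 + 2) / (1 - θ + θ * a) ^ 40) + (1 - 2 * v - ρ) ≤
      (1 - (v + ρ * θ)) + (v + ρ * θ) * (b ^ (2 * 40 + 2) / a ^ 40) := by
  have hQ := breg' (k := 40) ha ha1 hb hb1
  have hx : (1 - θ3 + θ3 * b) = 1 - θ * (1 - w) * (1 - b) := by rw [h3]; ring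
  have hy : (1 - θ + θ * a) = 1 - θ * (1 - a) := by ring
  have hβ0 : 0 ≤ 1 - b := by linarith
  have hδ0 : 0 ≤ 1 - a := by linarith
  have h1w : 0 ≤ 1 - w := by linarith
  have hx0 : 0 ≤ θ * (1 - w) * (1 - b) := by positivity
  have hx1 : θ * (1 - w) * (1 - b) ≤ 1 / 16384 := by
    calc θ * (1 - w) * (1 - b) ≤ 1 / 16384 * 1 * 1 := by
          refine mul_le_mul (mul_le_mul hθ1 (by linarith) h1w (by norm_num)) (by linarith) hβ0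
            (by norm_num)
      _ = 1 / 16384 := by norm_num
  have hy0 : 0 ≤ θ * (1 - a) := mul_nonneg hθ.le hδ0
  have hy1 : θ * (1 - a) ≤ 1 / 16384 := by
    calc θ * (1 - a) ≤ 1 / 16384 * 1 := mul_le_mul hθ1 (by linarith) hδ0 (by norm_num)
      _ = 1 / 16384 := by norm_num
  have hmix := pow_mix_le (2 * 40 + 2) 40 hx0 (by linarith) hy0 (by linarith)
    (by push_cast; linarith) (by
      push_cast
      have : (θ * (1 - a)) ^ 2 ≤ 1 / 16384 * (θ * (1 - a)) := by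
        rw [sq]
        exact mul_le_mul_of_nonneg_right hy1 hy0
      linarith)
  rw [hx, hy, hv]
  have hT : b ^ (2 * 40 + 2) / (min 1 (2 * a)) ^ 40 ≤ 1 - 82 * (1 - b) + 3362 * (1 - b) ^ 2 ∨
      (b ^ (2 * 40 + 2) / (min 1 (2 * a)) ^ 40 ≤ b ^ (2 * 40 + 2) / a ^ 40 ∧ 1 / 2 ≤ 1 - a) := by
    rcases le_total 1 (2 * a) with h2a | h2a
    · left
      rw [min_eq_left h2a, one_pow, div_one]
      have hp := pow_one_sub_le (2 * 40 + 2) hβ0 (by linarith)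
      have eb : 1 - (1 - b) = b := by ring
      rw [eb] at hp
      refine hp.trans (le_of_eq ?_)
      push_cast
      ring
    · right
      rw [min_eq_right h2a]
      refine ⟨?_, by linarith⟩
      refine div_le_div_of_nonneg_left (pow_nonneg hb _) (pow_pos ha _) ?_
      exact pow_le_pow_left₀ ha.le (by linarith) 40
  generalize b ^ (2 * 40 + 2) / (min 1 (2 * a)) ^ 40 = T at hT ⊢
  generalize b ^ (2 * 40 + 2) / a ^ 40 = K at hQ hT ⊢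
  generalize (1 - θ * (1 - w) * (1 - b)) ^ (2 * 40 + 2) / (1 - θ * (1 - a)) ^ 40 = R at hmix ⊢
  push_cast at hmix hQ
  refine coordJ_core hρ hθ hθ1 hw0 hw1 hβ0 (by linarith) hδ0 (by linarith) ?_ ?_ hT
  · refine le_trans (le_of_eq ?_) (hQ.trans (le_of_eq ?_))
    · ring
    · ring
  · refine hmix.trans (le_of_eq ?_)
    ring

/-- the one-coordinate inequality for the change of the region, in abstract terms -/
theorem coordT_core {v ρ s θ θ2 β δ K R S : ℝ} (hρ : 0 < ρ) (hs : 0 < s) (hθ : 0 < θ)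
    (hθ1 : θ ≤ 1 / 16384) (hθ2 : 0 ≤ θ2) (hθ2θ : θ2 ≤ θ) (he : s * θ2 = ρ * θ)
    (hδ0 : 0 ≤ δ) (hδ1 : δ ≤ 1)
    (hQ : 20 * β ^ 2 + 5 / 2 * δ ^ 2 ≤ K - 1 + 82 * β - 40 * δ)
    (hS : S ≤ 1 + 40 * (θ2 * δ + 2 * (θ2 * δ) ^ 2) + (40 * (θ2 * δ + 2 * (θ2 * δ) ^ 2)) ^ 2)
    (hR : R ≤ 1 - 82 * (θ * β) + 3362 * (θ * β) ^ 2) :
    v * K + s * S + ρ * R + (1 - v - s - ρ) ≤ (1 - (v + ρ * θ)) + (v + ρ * θ) * K := by
  have hβ2 : 0 ≤ β ^ 2 := sq_nonneg β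
  have hδ2 : 0 ≤ δ ^ 2 := sq_nonneg δ
  have h1 : S ≤ 1 + 40 * (θ2 * δ) + 6480 * (θ2 * δ) ^ 2 := by
    have hy0 : 0 ≤ θ2 * δ := mul_nonneg hθ2 hδ0
    have hy1 : θ2 * δ ≤ 1 / 2 := by
      have := mul_le_mul (hθ2θ.trans hθ1) hδ1 hδ0 (by norm_num)
      linarith
    have e3 : θ2 * δ + 2 * (θ2 * δ) ^ 2 ≤ 2 * (θ2 * δ) := by
      have : (θ2 * δ) ^ 2 ≤ 1 / 2 * (θ2 * δ) := by
        rw [sq]
        exact mul_le_mul_of_nonneg_right hy1 hy0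
      linarith
    have e4 : 0 ≤ θ2 * δ + 2 * (θ2 * δ) ^ 2 := by positivity
    have e5 := pow_le_pow_left₀ e4 e3 2
    have e6 : (40 * (θ2 * δ + 2 * (θ2 * δ) ^ 2)) ^ 2 =
        1600 * (θ2 * δ + 2 * (θ2 * δ) ^ 2) ^ 2 := by ring
    have e7 : (2 * (θ2 * δ)) ^ 2 = 4 * (θ2 * δ) ^ 2 := by ring
    rw [e6] at hS
    rw [e7] at e5
    linarith
  have h2 := mul_le_mul_of_nonneg_left h1 hs.le
  have h3 := mul_le_mul_of_nonneg_left hR hρ.le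
  have h4 : s * (6480 * (θ2 * δ) ^ 2) ≤ ρ * θ * (6480 * (θ * δ ^ 2)) := by
    have e : s * (6480 * (θ2 * δ) ^ 2) = (s * θ2) * (6480 * (θ2 * δ ^ 2)) := by ring
    rw [e, he]
    refine mul_le_mul_of_nonneg_left ?_ (by positivity)
    have := mul_le_mul_of_nonneg_right hθ2θ hδ2
    linarith
  have h5 : s * (40 * (θ2 * δ)) = ρ * θ * (40 * δ) := by
    have e : s * (40 * (θ2 * δ)) = (s * θ2) * (40 * δ) := by ring
    rw [e, he]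
  have h6 : 40 * δ + 6480 * (θ * δ ^ 2) - 82 * β + 3362 * (θ * β ^ 2) ≤ K - 1 := by
    have e1 : θ * δ ^ 2 ≤ 1 / 16384 * δ ^ 2 := mul_le_mul_of_nonneg_right hθ1 hδ2
    have e2 : θ * β ^ 2 ≤ 1 / 16384 * β ^ 2 := mul_le_mul_of_nonneg_right hθ1 hβ2
    linarith
  have h7 := mul_le_mul_of_nonneg_left h6 (by positivity : 0 ≤ ρ * θ)
  have e8 : s * (1 + 40 * (θ2 * δ) + 6480 * (θ2 * δ) ^ 2) =
      s + s * (40 * (θ2 * δ)) + s * (6480 * (θ2 * δ) ^ 2) := by ring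
  rw [e8, h5] at h2
  linarith

/-- the one-coordinate inequality for the change of the region, normalised -/
theorem coordT {v ρ s θ θ2 a b : ℝ} (hρ : 0 < ρ) (hs : 0 < s) (hθ : 0 < θ)
    (hθ1 : θ ≤ 1 / 16384) (hθ2 : 0 ≤ θ2) (hθ2θ : θ2 ≤ θ) (he : s * θ2 = ρ * θ)
    (ha : 0 < a) (ha1 : a ≤ 1) (hb : 0 ≤ b) (hb1 : b ≤ 1) :
    v * (b ^ (2 * 40 + 2) / a ^ 40) + s * (1 / (1 - θ2 + θ2 * a) ^ 40) +
      ρ * (1 - θ + θ * b) ^ (2 * 40 + 2) + (1 - v - s - ρ) ≤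
      (1 - (v + ρ * θ)) + (v + ρ * θ) * (b ^ (2 * 40 + 2) / a ^ 40) := by
  have hQ := breg' (k := 40) ha ha1 hb hb1
  have hx : (1 - θ + θ * b) = 1 - θ * (1 - b) := by ring
  have hy : (1 - θ2 + θ2 * a) = 1 - θ2 * (1 - a) := by ring
  have hβ0 : 0 ≤ 1 - b := by linarith
  have hδ0 : 0 ≤ 1 - a := by linarith
  have hx0 : 0 ≤ θ * (1 - b) := mul_nonneg hθ.le hβ0
  have hx1 : θ * (1 - b) ≤ 1 := by
    calc θ * (1 - b) ≤ 1 / 16384 * 1 := mul_le_mul hθ1 (by linarith) hβ0 (by norm_num)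
      _ ≤ 1 := by norm_num
  have hy0 : 0 ≤ θ2 * (1 - a) := mul_nonneg hθ2 hδ0
  have hy1 : θ2 * (1 - a) ≤ 1 / 16384 := by
    calc θ2 * (1 - a) ≤ 1 / 16384 * 1 :=
          mul_le_mul (hθ2θ.trans hθ1) (by linarith) hδ0 (by norm_num)
      _ = 1 / 16384 := by norm_num
  have hmix := pow_mix_le 0 40 (le_refl (0 : ℝ)) (by norm_num) hy0 (by linarith) (by norm_num)
    (by
      push_cast
      have : (θ2 * (1 - a)) ^ 2 ≤ 1 / 16384 * (θ2 * (1 - a)) := by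
        rw [sq]
        exact mul_le_mul_of_nonneg_right hy1 hy0
      linarith)
  have hp := pow_one_sub_le (2 * 40 + 2) hx0 hx1
  rw [hx, hy]
  rw [pow_zero] at hmix
  generalize b ^ (2 * 40 + 2) / a ^ 40 = K at hQ ⊢
  generalize 1 / (1 - θ2 * (1 - a)) ^ 40 = S at hmix ⊢
  generalize (1 - θ * (1 - b)) ^ (2 * 40 + 2) = R at hp ⊢
  push_cast at hmix hQ hp
  refine coordT_core (β := 1 - b) hρ hs hθ hθ1 hθ2 hθ2θ he hδ0 (by linarith) ?_ ?_ ?_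
  · refine le_trans (le_of_eq ?_) (hQ.trans (le_of_eq ?_))
    · ring
    · ring
  · refine hmix.trans (le_of_eq ?_)
    ring
  · refine hp.trans (le_of_eq ?_)
    ring

/-- the one-coordinate hypercontractive inequality -/
theorem coordH {p v ρ θ a c : ℝ} (hp : 0 ≤ p) (hv : 0 ≤ v) (hρ : 0 ≤ ρ) (hθ : 0 ≤ θ)
    (hθ1 : θ ≤ 1 / 4) (hB : v + ρ * θ ^ 3 + p ≤ (v + ρ * θ) ^ 2) (ha : 0 ≤ a) (hc : 0 ≤ c) :
    p * (max a (c / 2)) ^ 4 + v * c ^ 4 + ρ * ((1 - θ) * a + θ * c) ^ 4 +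
      (1 - p - v - ρ) * a ^ 4 ≤ ((1 - (v + ρ * θ)) * a ^ 2 + (v + ρ * θ) * c ^ 2) ^ 2 := by
  set Θ := v + ρ * θ with hΘ
  obtain ⟨e, rfl⟩ : ∃ e, c = a + e := ⟨c - a, by ring⟩
  have hθ4 : ρ * θ ^ 4 ≤ ρ * θ ^ 3 := by
    have : θ ^ 4 ≤ θ ^ 3 := by
      have := pow_nonneg hθ 3
      nlinarith
    exact mul_le_mul_of_nonneg_left this hρ
  have key : ((1 - Θ) * a ^ 2 + Θ * (a + e) ^ 2) ^ 2 - (v * (a + e) ^ 4 +
      ρ * ((1 - θ) * a + θ * (a + e)) ^ 4 + (1 - v - ρ) * a ^ 4) =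
      (2 * Θ + 4 * Θ ^ 2 - 6 * v - 6 * (ρ * θ ^ 2)) * (a ^ 2 * e ^ 2) +
      4 * (Θ ^ 2 - v - ρ * θ ^ 3) * (a * e ^ 3) + (Θ ^ 2 - v - ρ * θ ^ 4) * e ^ 4 := by
    rw [hΘ]
    ring
  have hA : 0 ≤ (2 * Θ + 4 * Θ ^ 2 - 6 * v - 6 * (ρ * θ ^ 2)) - 4 * (Θ ^ 2 - v - ρ * θ ^ 3) := by
    have e1 : (2 * Θ + 4 * Θ ^ 2 - 6 * v - 6 * (ρ * θ ^ 2)) - 4 * (Θ ^ 2 - v - ρ * θ ^ 3) =
        2 * (ρ * θ) * ((1 - θ) * (1 - 2 * θ)) := by rw [hΘ]; ring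
    rw [e1]
    have : 0 ≤ (1 - θ) * (1 - 2 * θ) := mul_nonneg (by linarith) (by linarith)
    positivity
  have hB0 : 0 ≤ Θ ^ 2 - v - ρ * θ ^ 3 := by linarith
  have hD0 : p ≤ Θ ^ 2 - v - ρ * θ ^ 4 := by linarith
  have hquad : 0 ≤ (2 * Θ + 4 * Θ ^ 2 - 6 * v - 6 * (ρ * θ ^ 2)) * (a ^ 2 * e ^ 2) +
      4 * (Θ ^ 2 - v - ρ * θ ^ 3) * (a * e ^ 3) := by
    have e1 : (2 * Θ + 4 * Θ ^ 2 - 6 * v - 6 * (ρ * θ ^ 2)) * (a ^ 2 * e ^ 2) +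
      4 * (Θ ^ 2 - v - ρ * θ ^ 3) * (a * e ^ 3) =
      ((2 * Θ + 4 * Θ ^ 2 - 6 * v - 6 * (ρ * θ ^ 2)) - 4 * (Θ ^ 2 - v - ρ * θ ^ 3)) *
        (a ^ 2 * e ^ 2) + 4 * (Θ ^ 2 - v - ρ * θ ^ 3) * (a * (a + e) * e ^ 2) := by ring
    rw [e1]
    have h1 : 0 ≤ a ^ 2 * e ^ 2 := by positivity
    have h2 : 0 ≤ a * (a + e) * e ^ 2 := by positivity
    exact add_nonneg (mul_nonneg hA h1) (mul_nonneg (by linarith) h2)
  have hmax : p * (max a ((a + e) / 2)) ^ 4 ≤ p * a ^ 4 + (Θ ^ 2 - v - ρ * θ ^ 4) * e ^ 4 := by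
    have he4 : 0 ≤ e ^ 4 := by positivity
    rcases le_total ((a + e) / 2) a with h | h
    · rw [max_eq_left h]
      have : 0 ≤ (Θ ^ 2 - v - ρ * θ ^ 4) * e ^ 4 := mul_nonneg (by linarith) he4
      linarith
    · rw [max_eq_right h]
      have h1 : (a + e) / 2 ≤ e := by linarith
      have h2 : ((a + e) / 2) ^ 4 ≤ e ^ 4 := pow_le_pow_left₀ (by linarith) h1 4
      have h3 : 0 ≤ p * a ^ 4 := by positivity
      have h4 := mul_le_mul_of_nonneg_left h2 hp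
      have h5 := mul_le_mul_of_nonneg_right hD0 he4
      linarith
  nlinarith

end Vale.Agent.P331.H66
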