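import Vale.Agent.P331.H66.HC
import Vale.Agent.P331.H66.Sc

/-!
# Constants, labels and the three one-coordinate inequalities
-/

set_option autoImplicit false
set_option linter.unusedSectionVars false

namespace Vale.Agent.P331.H66

open Finset Vale.Agent.P331.H489

/-- thinning of the noise -/
noncomputable def th : ℝ := 1 / 16384
/-- rate of the pools inside a region -/
noncomputable def gam : ℝ := 1 / 2 ^ 34
/-- annealed rate of a pool -/
noncomputable def vv : ℝ := gam / 4
/-- annealed rate of a region without a pool -/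
noncomputable def rh : ℝ := (1 - gam) / 4
/-- total rate -/
noncomputable def Th : ℝ := vv + rh * th
/-- rate of the test set -/
noncomputable def pp : ℝ := vv / 2 ^ 2000
/-- thinning after the pool has been added -/
noncomputable def th3 : ℝ := th - gam / (1 - gam)
/-- thinning of the full region -/
noncomputable def th2 : ℝ := (1 - gam) * th

theorem gam_pos : 0 < gam := by unfold gam; positivity
theorem gam_le : gam ≤ 1 / 2 ^ 34 := le_of_eq rfl
theorem gam_lt_one : gam < 1 := by unfold gam; norm_num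
theorem th_pos : 0 < th := by unfold th; norm_num
theorem th_le : th ≤ 1 / 16384 := le_of_eq rfl
theorem vv_pos : 0 < vv := by unfold vv; linarith [gam_pos]
theorem rh_pos : 0 < rh := by unfold rh; linarith [gam_lt_one]
theorem th2_nonneg : 0 ≤ th2 := mul_nonneg (by linarith [gam_lt_one]) th_pos.le
theorem th2_le : th2 ≤ th := by
  unfold th2
  nlinarith [gam_pos, th_pos]
theorem vr : vv + rh = 1 / 4 := by unfold vv rh; ring

theorem th3_nonneg : 0 ≤ th3 := by
  unfold th3 th gam
  norm_num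
theorem th3_le : th3 ≤ 1 := by
  unfold th3 th gam
  norm_num

theorem mix3 : gam * 1 + (1 - gam) * th3 = th2 := by
  unfold th3 th2
  have : (1 : ℝ) - gam ≠ 0 := by linarith [gam_lt_one]
  field_simp
  ring

theorem s_th2 : 1 / 4 * th2 = rh * th := by unfold th2 rh; ring

/-- the ratio `v / (ρ θ)` -/
noncomputable def ww : ℝ := gam / ((1 - gam) * th)

theorem ww_nonneg : 0 ≤ ww := by
  unfold ww
  have := gam_lt_one
  exact div_nonneg gam_pos.le (mul_nonneg (by linarith) th_pos.le)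
theorem ww_le : ww ≤ 1 / 1000 := by
  unfold ww gam th
  norm_num
theorem vv_eq : vv = ww * rh * th := by
  unfold vv ww rh
  have h1 : (1 : ℝ) - gam ≠ 0 := by linarith [gam_lt_one]
  have h2 : th ≠ 0 := th_pos.ne'
  field_simp
theorem th3_eq : th3 = th * (1 - ww) := by
  unfold th3 ww
  have h1 : (1 : ℝ) - gam ≠ 0 := by linarith [gam_lt_one]
  have h2 : th ≠ 0 := th_pos.ne'
  field_simp

theorem Th_nonneg : 0 ≤ Th := by
  unfold Th
  have := mul_pos rh_pos th_pos
  linarith [vv_pos]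
theorem Th_le : Th ≤ 1 := by
  unfold Th vv rh gam th
  norm_num
theorem Th_ge : 1 / 2 ^ 17 ≤ Th := by
  unfold Th vv rh gam th
  norm_num

theorem pp_pos : 0 < pp := div_pos vv_pos (by positivity)
theorem pp_mul : (2 : ℝ) ^ 2000 * pp = vv := by
  unfold pp
  field_simp
theorem pp_le_vv : pp ≤ vv := by
  unfold pp
  exact div_le_self vv_pos.le (one_le_pow₀ (by norm_num))
theorem vv_le : vv ≤ 1 / 2 ^ 36 := by
  unfold vv gam
  norm_num

/-- labels of the rule: test set, two regions, others -/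
inductive C4 | v | a | b | o
  deriving DecidableEq

instance : Fintype C4 := ⟨{.v, .a, .b, .o}, by intro x; cases x <;> decide⟩

theorem sum_C4 (f : C4 → ℝ) : ∑ l, f l = f .v + f .a + f .b + f .o := by
  have h : (univ : Finset C4) = {.v, .a, .b, .o} := rfl
  rw [h, sum_insert (by decide), sum_insert (by decide), sum_insert (by decide), sum_singleton]
  ring

/-- labels of one step: test set, pool, rest of its region, other region, others -/
inductive C5 | v | h | r | s | o
  deriving DecidableEq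

instance : Fintype C5 := ⟨{.v, .h, .r, .s, .o}, by intro x; cases x <;> decide⟩

theorem sum_C5 (f : C5 → ℝ) : ∑ l, f l = f .v + f .h + f .r + f .s + f .o := by
  have h : (univ : Finset C5) = {.v, .h, .r, .s, .o} := rfl
  rw [h, sum_insert (by decide), sum_insert (by decide), sum_insert (by decide),
    sum_insert (by decide), sum_singleton]
  ring

/-- weights of the rule -/
noncomputable def w4 : C4 → ℝ
  | .v => pp
  | .a => 1 / 4
  | .b => 1 / 4
  | .o => 1 / 2 - pp

/-- weights of one step -/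
noncomputable def w5 : C5 → ℝ
  | .v => pp
  | .h => vv
  | .r => rh
  | .s => 1 / 4
  | .o => 1 / 2 - pp

theorem pp_le_half : pp ≤ 1 / 2 := by
  have h1 := pp_le_vv
  have h2 := vv_le
  have h3 : (1 : ℝ) / 2 ^ 36 ≤ 1 / 2 := by norm_num
  linarith

theorem w4_nonneg (l : C4) : 0 ≤ w4 l := by
  have := pp_pos
  have := pp_le_half
  cases l <;> simp only [w4] <;> linarith

theorem w5_nonneg (l : C5) : 0 ≤ w5 l := by
  have := pp_pos
  have := pp_le_half
  have := vv_pos
  have := rh_pos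
  cases l <;> simp only [w5] <;> linarith

theorem w4_sum : ∑ l, w4 l = 1 := by
  rw [sum_C4]
  simp only [w4]
  ring

theorem w5_sum : ∑ l, w5 l = 1 := by
  rw [sum_C5]
  simp only [w5]
  linarith [vr]

theorem sc (x y B C : ℝ) (m k : ℕ) : (x * B) ^ m / (y * C) ^ k = B ^ m / C ^ k * (x ^ m / y ^ k) := by
  rw [mul_pow, mul_pow, mul_div_mul_comm]
  ring

/-- normalisation of a pair -/
theorem exists_ratio {B0 B1 C A : ℝ} (hB0 : 0 < B0) (hB1 : 0 ≤ B1) (hB : B1 ≤ B0) (hA : 0 < A)
    (hC : A ≤ C) : ∃ b a : ℝ, 0 ≤ b ∧ b ≤ 1 ∧ 0 < a ∧ a ≤ 1 ∧ B1 = b * B0 ∧ A = a * C := by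
  have hC0 : 0 < C := hA.trans_le hC
  refine ⟨B1 / B0, A / C, by positivity, (div_le_one hB0).2 hB, by positivity,
    (div_le_one hC0).2 hC, ?_, ?_⟩ <;> field_simp

/-! ### the reverse Lipschitz functional -/

/-- weights of a step with an additional coin for the pool of the other region -/
noncomputable def w5b (x : C5 × Bool) : ℝ := w5 x.1 * bw gam x.2

def optJ (x : C5 × Bool) : Bool := decide (x.1 = .h)
noncomputable def xiJ (x : C5 × Bool) : ℝ := if x.1 = .s then (if x.2 then 1 else th) else 0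
noncomputable def beJ (x : C5 × Bool) : ℝ :=
  if x.1 = .h then 1 else if x.1 = .s then (if x.2 then 1 else th3) else 0

theorem hcoordJ : ∀ B0 B1 C A : ℝ, 0 ≤ B1 → B1 ≤ B0 → 0 < A → A ≤ C →
    ∑ l, w5b l * (((1 - beJ l) * B0 + beJ l * B1) ^ (2 * 40 + 2) / (gl optJ xiJ l C A) ^ 40) ≤
      (1 - Th) * (B0 ^ (2 * 40 + 2) / C ^ 40) + Th * (B1 ^ (2 * 40 + 2) / A ^ 40) := by
  intro B0 B1 C A hB1 hB hA hC
  rcases (hB1.trans hB).eq_or_lt with h0 | h0
  · have h1 : B1 = 0 := le_antisymm (h0 ▸ hB) hB1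
    subst h1
    rw [← h0]
    simp
  obtain ⟨b, a, hb, hb1, ha, ha1, rfl, rfl⟩ := exists_ratio h0 hB1 hB hA hC
  have hC0 : 0 < C := hA.trans_le hC
  have key := coordJ (v := vv) (ρ := rh) (θ := th) (θ3 := th3) (w := ww) rh_pos th_pos th_le
    ww_nonneg ww_le vv_eq th3_eq ha ha1 hb hb1
  have e1 : (1 * B0) ^ (2 * 40 + 2) / (1 * C) ^ 40 = B0 ^ (2 * 40 + 2) / C ^ 40 := by
    rw [one_mul, one_mul]
  have e2 := sc b a B0 C (2 * 40 + 2) 40
  have e3 := sc b (min 1 (2 * a)) B0 C (2 * 40 + 2) 40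
  have e4 := sc (1 - th3 + th3 * b) (1 - th + th * a) B0 C (2 * 40 + 2) 40
  have m1 : min C (2 * (a * C)) = min 1 (2 * a) * C := by
    rw [min_mul_of_nonneg _ _ hC0.le]
    congr 1
    · ring
    · ring
  have m2 : (1 - th3) * B0 + th3 * (b * B0) = (1 - th3 + th3 * b) * B0 := by ring
  have m3 : (1 - th) * C + th * (a * C) = (1 - th + th * a) * C := by ring
  rw [Fintype.sum_prod_type]
  simp only [Fintype.sum_bool]
  rw [sum_C5]
  simp only [w5b, w5, bw, gl, optJ, xiJ, beJ, reduceCtorEq, decide_false, decide_true, if_true,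
    if_false, Bool.false_eq_true, sub_zero, one_mul, zero_mul, add_zero, sub_self, zero_add]
  rw [m1, m2, m3, e2, e3, e4]
  have hK : 0 ≤ B0 ^ (2 * 40 + 2) / C ^ 40 := by positivity
  have h5 := mul_le_mul_of_nonneg_left key hK
  have hvr := vr
  have hv4 : 1 / 4 * gam = vv := by unfold vv; ring
  have hr4 : 1 / 4 * (1 - gam) = rh := by unfold rh; ring
  unfold Th
  generalize B0 ^ (2 * 40 + 2) / C ^ 40 = X at *
  generalize b ^ (2 * 40 + 2) / min 1 (2 * a) ^ 40 = Y1 at *
  generalize b ^ (2 * 40 + 2) / a ^ 40 = Y2 at *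
  generalize (1 - th3 + th3 * b) ^ (2 * 40 + 2) / (1 - th + th * a) ^ 40 = Y3 at *
  have l1 : 1 / 4 * gam * (X * Y2) + 1 / 4 * (1 - gam) * (X * Y3) =
      vv * (X * Y2) + rh * (X * Y3) := by rw [hv4, hr4]
  have l2 : ∀ z : ℝ, z * gam * X + z * (1 - gam) * X = z * X := fun z => by ring
  have l3 : ∀ z Y : ℝ, z * gam * (X * Y) + z * (1 - gam) * (X * Y) = z * (X * Y) :=
    fun z Y => by ring
  have l4 : pp + rh + (1 / 2 - pp) = 1 - 2 * vv - rh + (vv + rh - (1/4)) + (vv + rh - 1/4) := by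
    ring
  nlinarith [l1, l2 pp, l2 rh, l2 (1 / 2 - pp), l3 vv Y1, h5, hvr]

/-! ### the change of the region -/

def optT (_ : C5) : Bool := false
noncomputable def xiT : C5 → ℝ
  | .h => 1
  | .s => th2
  | _ => 0
noncomputable def beT : C5 → ℝ
  | .h => 1
  | .r => th
  | _ => 0

theorem hcoordT : ∀ B0 B1 C A : ℝ, 0 ≤ B1 → B1 ≤ B0 → 0 < A → A ≤ C →
    ∑ l, w5 l * (((1 - beT l) * B0 + beT l * B1) ^ (2 * 40 + 2) / (gl optT xiT l C A) ^ 40) ≤
      (1 - Th) * (B0 ^ (2 * 40 + 2) / C ^ 40) + Th * (B1 ^ (2 * 40 + 2) / A ^ 40) := by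
  intro B0 B1 C A hB1 hB hA hC
  rcases (hB1.trans hB).eq_or_lt with h0 | h0
  · have h1 : B1 = 0 := le_antisymm (h0 ▸ hB) hB1
    subst h1
    rw [← h0]
    simp
  obtain ⟨b, a, hb, hb1, ha, ha1, rfl, rfl⟩ := exists_ratio h0 hB1 hB hA hC
  have hC0 : 0 < C := hA.trans_le hC
  have key := coordT (v := vv) (ρ := rh) (s := 1 / 4) (θ := th) (θ2 := th2) rh_pos (by norm_num)
    th_pos th_le th2_nonneg th2_le s_th2 ha ha1 hb hb1
  have e2 := sc b a B0 C (2 * 40 + 2) 40
  have e3 := sc 1 (1 - th2 + th2 * a) B0 C (2 * 40 + 2) 40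
  have e4 := sc (1 - th + th * b) 1 B0 C (2 * 40 + 2) 40
  rw [one_pow] at e3 e4
  rw [one_mul] at e3 e4
  rw [div_one] at e4
  have m2 : (1 - th) * B0 + th * (b * B0) = (1 - th + th * b) * B0 := by ring
  have m3 : (1 - th2) * C + th2 * (a * C) = (1 - th2 + th2 * a) * C := by ring
  rw [sum_C5]
  simp only [w5, gl, optT, xiT, beT, if_false, Bool.false_eq_true, sub_zero, one_mul, zero_mul,
    add_zero, sub_self, zero_add]
  rw [m2, m3, e2, e3, e4]
  have hK : 0 ≤ B0 ^ (2 * 40 + 2) / C ^ 40 := by positivity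
  have h5 := mul_le_mul_of_nonneg_left key hK
  have hvr := vr
  unfold Th
  generalize B0 ^ (2 * 40 + 2) / C ^ 40 = X at *
  generalize b ^ (2 * 40 + 2) / a ^ 40 = Y2 at *
  generalize 1 / (1 - th2 + th2 * a) ^ 40 = Y3 at *
  generalize (1 - th + th * b) ^ (2 * 40 + 2) = Y4 at *
  nlinarith [h5, hvr]

/-! ### the hypercontractive inequality -/

/-- weights of the rule with an additional coin -/
noncomputable def w4b (x : C4 × Bool) : ℝ := w4 x.1 * bw gam x.2

def optH (x : C4 × Bool) : Bool := decide (x.1 = .v)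
noncomputable def xiH (s : C4) (x : C4 × Bool) : ℝ :=
  if x.1 = s then (if x.2 then 1 else th) else 0

theorem hcoordH (s : C4) (hs : s = .a ∨ s = .b) : ∀ C A : ℝ, 0 ≤ C → 0 ≤ A →
    ∑ l, w4b l * (hl optH (xiH s) l C A) ^ 4 ≤ ((1 - Th) * C ^ 2 + Th * A ^ 2) ^ 2 := by
  intro C A hC hA
  have hB : vv + rh * th ^ 3 + pp ≤ (vv + rh * th) ^ 2 := by
    have h1 := pp_le_vv
    refine le_trans (add_le_add le_rfl h1) ?_
    unfold vv rh gam th
    norm_num
  have key := coordH (p := pp) (v := vv) (ρ := rh) (θ := th) pp_pos.le vv_pos.le rh_pos.le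
    th_pos.le (by unfold th; norm_num) hB hC hA
  rw [Fintype.sum_prod_type]
  simp only [Fintype.sum_bool]
  rw [sum_C4]
  have hvr := vr
  have hv4 : 1 / 4 * gam = vv := by unfold vv; ring
  have hr4 : 1 / 4 * (1 - gam) = rh := by unfold rh; ring
  rcases hs with rfl | rfl
  all_goals
    simp only [w4b, w4, bw, hl, optH, xiH, reduceCtorEq, decide_false, decide_true, if_true,
      if_false, Bool.false_eq_true, sub_zero, one_mul, zero_mul, add_zero, sub_self, zero_add]
    unfold Th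
    generalize (max C (A / 2)) ^ 4 = Y1 at *
    generalize ((1 - th) * C + th * A) ^ 4 = Y2 at *
    generalize ((1 - (vv + rh * th)) * C ^ 2 + (vv + rh * th) * A ^ 2) ^ 2 = Y3 at *
    rw [hv4, hr4]
    have hc4 : (vv + rh) * C ^ 4 = 1 / 4 * C ^ 4 := by rw [hvr]
    linarith [key, hc4]

end Vale.Agent.P331.H66
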