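import Vale.Agent.P331.H66.Rule

/-!
# Entrance: the total relevance of one element is bounded
-/

set_option autoImplicit false
set_option linter.unusedSectionVars false

namespace Vale.Agent.P331.H66

open Finset Vale.Agent.P331 Vale.Agent.P331.H819 Vale.Agent.P331.H489 Vale.Agent.P331.H379
open scoped Classical

section

variable {E : Type} [Fintype E] {M : Matroid E} {lt : E → E → Prop}

theorem pib_ne {b z : E} {A : E → Bool} (h : pib M lt b z A ≠ 0) :
    z ∉ M.closure {e | lt z e ∧ Function.update A b false e = true} ∧
      z ∈ M.closure {e | lt z e ∧ Function.update A b true e = true} := by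
  unfold pib phm phb phi at h
  by_cases h1 : z ∈ M.closure {e | lt z e ∧ Function.update A b true e = true}
  · by_cases h2 : z ∈ M.closure {e | lt z e ∧ Function.update A b false e = true}
    · rw [if_pos h1, if_pos h2] at h
      exact absurd (sub_self _) h
    · exact ⟨h2, h1⟩
  · have h2 : z ∉ M.closure {e | lt z e ∧ Function.update A b false e = true} := by
      intro h3
      refine h1 (M.closure_subset_closure ?_ h3)
      rintro e ⟨h4, h5⟩
      refine ⟨h4, ?_⟩
      by_cases he : e = b
      · subst he
        rw [Function.update_self]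
      · rw [Function.update_of_ne he] at h5 ⊢
        exact h5
    rw [if_neg h1, if_neg h2] at h
    exact absurd (sub_self _) h

theorem set_sub (A : E → Bool) (b z : E) :
    {e | lt z e ∧ Function.update A b true e = true} ⊆
      insert b {e | lt z e ∧ Function.update A b false e = true} := by
  rintro e ⟨h4, h5⟩
  by_cases he : e = b
  · exact Or.inl he
  · right
    rw [Function.update_of_ne he] at h5
    refine ⟨h4, ?_⟩
    rw [Function.update_of_ne he]
    exact h5

/-- at most one element of the random set is spanned by means of `b` -/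
theorem pib_unique (hlt : IsStrictTotalOrder E lt) {b z₁ z₂ : E} {A : E → Bool}
    (hb1 : z₁ ≠ b) (hb2 : z₂ ≠ b) (h1 : A z₁ = true) (h2 : A z₂ = true)
    (h3 : pib M lt b z₁ A ≠ 0) (h4 : pib M lt b z₂ A ≠ 0) : z₁ = z₂ := by
  have key : ∀ x y : E, y ≠ b → A y = true → pib M lt b x A ≠ 0 →
      pib M lt b y A ≠ 0 → ¬ lt x y := by
    intro x y hyb hy hx' hy' hxy
    obtain ⟨hx2, hx1⟩ := pib_ne hx'
    obtain ⟨hy2, hy1⟩ := pib_ne hy'
    have hx3 := M.closure_subset_closure (set_sub (lt := lt) A b x) hx1
    have hy3 := M.closure_subset_closure (set_sub (lt := lt) A b y) hy1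
    have he : b ∈ M.closure (insert y {e | lt y e ∧ Function.update A b false e = true}) :=
      (Matroid.closure_exchange ⟨hy3, hy2⟩).1
    have hsub : insert y {e | lt y e ∧ Function.update A b false e = true} ⊆
        {e | lt x e ∧ Function.update A b false e = true} := by
      rintro e (rfl | ⟨he1, he2⟩)
      · refine ⟨hxy, ?_⟩
        rw [Function.update_of_ne hyb]
        exact hy
      · exact ⟨trans_of lt hxy he1, he2⟩
    have hb : b ∈ M.closure {e | lt x e ∧ Function.update A b false e = true} :=
      M.closure_subset_closure hsub he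
    apply hx2
    have h5 := M.closure_insert_eq_of_mem_closure hb
    rw [h5] at hx3
    exact hx3
  rcases trichotomous_of lt z₁ z₂ with h | h | h
  · exact absurd h (key z₁ z₂ hb2 h2 h3 h4)
  · exact h
  · exact absurd h (key z₂ z₁ hb1 h1 h4 h3)

/-- **The total relevance is at most `1 / Th`.** -/
theorem entrance (hlt : IsStrictTotalOrder E lt) (b : E) :
    Th * ∑ z ∈ univ.erase b, ML (pib M lt b z) (fun _ => Th) ≤ 1 := by
  have h1 : ∀ z ∈ univ.erase b, Th * ML (pib M lt b z) (fun _ => Th) =
      EX (fun _ : E => bw Th) (fun A => if A z = true then pib M lt b z A else 0) := by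
    intro z hz
    have h2 := EX_indep (fun _ : E => bw Th) (fun _ => sum_bw Th) z true
      (fun A => pib M lt b z A) (fun A x => pib_upd_z M lt hlt (ne_of_mem_erase hz) A x)
    refine Eq.symm (Eq.trans ?_ (h2.trans rfl))
    congr
  rw [mul_sum, sum_congr rfl h1, ← EX_sum]
  have hw : ∀ (e : E) (l : Bool), 0 ≤ bw Th l := fun _ l => bw_nonneg Th_nonneg Th_le l
  refine (EX_mono (G := fun _ => 1) hw fun A => ?_).trans
    (le_of_eq (EX_one _ (fun _ => sum_bw Th) 1))
  by_cases hex : ∃ y ∈ univ.erase b, (if A y = true then pib M lt b y A else 0) ≠ 0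
  · obtain ⟨y, hy, hy0⟩ := hex
    have hyt : A y = true := by
      by_contra h'
      exact hy0 (if_neg h')
    rw [if_pos hyt] at hy0
    rw [sum_eq_single_of_mem y hy]
    · rw [if_pos hyt]
      exact pib_le_one M lt b y A
    · intro z hz hzy
      by_contra h
      have hzt : A z = true := by
        by_contra h'
        exact h (if_neg h')
      rw [if_pos hzt] at h
      exact hzy (pib_unique hlt (ne_of_mem_erase hz) (ne_of_mem_erase hy) hzt hyt h hy0)
  · push Not at hex
    rw [sum_eq_zero hex]
    exact zero_le_one

end

end Vale.Agent.P331.H66
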