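import Vale.Agent.P331.H66.Ent

/-!
# The probability that an element of the greedy basis is not safe
-/

set_option autoImplicit false
set_option linter.unusedSectionVars false

namespace Vale.Agent.P331.H66

open Finset Vale.Agent.P331 Vale.Agent.P331.H819 Vale.Agent.P331.H489 Vale.Agent.P331.H379
open scoped Classical ENNReal

section

variable {E : Type} [Fintype E] {M : Matroid E} {lt : E → E → Prop} {P : Type} [Fintype P]
  {lev : P → ℕ}

/-- the labels of `b` and `z` do not matter for a set without them -/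
theorem all_upd {x : E} {Y : Finset E} (hx : x ∉ Y) (c : E → C4) (l : C4) :
    (∀ e ∈ Y, Function.update c x l e = .v) ↔ ∀ e ∈ Y, c e = .v := by
  refine forall₂_congr fun e he => ?_
  have hne : e ≠ x := by
    rintro rfl
    exact hx he
  rw [Function.update_of_ne hne]

theorem ML_updc {φ : (E → Bool) → ℝ} {x : E} (hφ : ∀ A y, φ (Function.update A x y) = φ A)
    (c : E → C4) (l : C4) (i : ℕ) (G : E → Bool) (Y : Finset E) :
    ML φ (rg (fun e => Function.update c x l e = reg i) G Y) =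
      ML φ (rg (fun e => c e = reg i) G Y) := by
  refine ML_update hφ fun e he => ?_
  unfold rg
  have h : (Function.update c x l e = reg i) ↔ (c e = reg i) := by
    rw [Function.update_of_ne he]
  by_cases h1 : e ∈ Y
  · rw [if_pos h1, if_pos h1]
  · rw [if_neg h1, if_neg h1]
    by_cases h2 : c e = reg i
    · rw [if_pos (h.2 h2), if_pos h2]
    · rw [if_neg (fun h3 => h2 (h.1 h3)), if_neg h2]

theorem good_updc {φ : (E → Bool) → ℝ} {x : E} (hφ : ∀ A y, φ (Function.update A x y) = φ A)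
    (c : E → C4) (l : C4) (i κ : ℕ) (t : ℝ) (G : E → Bool) (K : Finset E) :
    good φ κ t (fun e => Function.update c x l e = reg i) G K ↔
      good φ κ t (fun e => c e = reg i) G K := by
  unfold good
  simp only [ML_updc hφ]

theorem Ch_upd {b z x : E} (hx : x = b ∨ x = z)
    (hp : ∀ A y, pib M lt b z (Function.update A x y) = pib M lt b z A)
    (hb : ∀ A y, phb M lt b z (Function.update A x y) = phb M lt b z A) (i : ℕ)
    (g : P → E → Bool) (c : E → C4) (l : C4) :
    Ch M lt lev b z i g (Function.update c x l) ↔ Ch M lt lev b z i g c := by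
  have hnot : ∀ Y : Finset E, b ∉ Y → z ∉ Y → x ∉ Y := by
    intro Y h1 h2
    rcases hx with rfl | rfl
    · exact h1
    · exact h2
  unfold Ch
  refine and_congr ?_ (forall₂_congr fun j _ => ?_)
  · unfold RelEv
    refine exists_congr fun q => and_congr_right fun _ => exists_congr fun Y =>
      and_congr_right fun h1 => and_congr_right fun h2 => ?_
    rw [all_upd (hnot Y h1 h2), ML_updc hp]
  · unfold LuckEv
    refine exists_congr fun q => and_congr_right fun _ => exists_congr fun K =>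
      and_congr_right fun h1 => and_congr_right fun h2 => ?_
    rw [all_upd (hnot K h1 h2)]
    simp only [good_updc hb, ML_updc hb]

/-- the charge of `z` at level `i` -/
theorem charge (hlt : IsStrictTotalOrder E lt) {b z : E} {n : ℕ}
    (hJ : ∀ i < n, (JJ lev i).card = mm i) {i : ℕ} (hi : i < n) :
    EXX (fun (g : P → E → Bool) (c : E → C4) => if Ch M lt lev b z i g c then (1 : ℝ) else 0) ≤
      2 ^ 52 * (1 / 2) ^ i * ML (pib M lt b z) (fun _ => Th) := by
  set J := ML (pib M lt b z) (fun _ => Th) with hJdef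
  have hJ0 : 0 ≤ J := ML_nonneg (pib_nonneg M lt b z) (fun _ => Th_nonneg) (fun _ => Th_le)
  have hJ1 : J ≤ 1 := ML_le_one (pib_le_one M lt b z) (fun _ => Th_nonneg) (fun _ => Th_le)
  have hκ := kap_pos i
  -- relevance
  have hrel : EXX (fun (g : P → E → Bool) (c : E → C4) =>
      if Ch M lt lev b z i g c then (1 : ℝ) else 0) ≤ 2 ^ (26 * kap i) * J ^ 2 := by
    have h1 : EXX (fun (g : P → E → Bool) (c : E → C4) =>
        if Ch M lt lev b z i g c then (1 : ℝ) else 0) ≤
        EXX (fun (g : P → E → Bool) (c : E → C4) => ∑ q ∈ JJ lev i,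
          if ∃ Y : Finset E, (∀ e ∈ Y, c e = .v) ∧ Y.card ≤ kap i ∧
            (1 / 2) ^ (5 * kap i) ≤ ML (pib M lt b z) (rg (fun e => c e = reg i) (g q) Y)
          then (1 : ℝ) else 0) := by
      refine EXX_mono fun g c => ?_
      by_cases h : Ch M lt lev b z i g c
      · rw [if_pos h]
        obtain ⟨q, hq, Y, -, -, h2, h3, h4⟩ := h.1
        refine le_trans ?_ (single_le_sum (f := fun q => if ∃ Y : Finset E,
          (∀ e ∈ Y, c e = .v) ∧ Y.card ≤ kap i ∧
            (1 / 2) ^ (5 * kap i) ≤ ML (pib M lt b z) (rg (fun e => c e = reg i) (g q) Y)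
          then (1 : ℝ) else 0) (fun _ _ => ind_nn) hq)
        rw [if_pos ⟨Y, h2, h3, h4⟩]
      · rw [if_neg h]
        exact sum_nonneg fun _ _ => ind_nn
    refine h1.trans ?_
    rw [EXX_sum]
    have h2 : ∀ q ∈ JJ lev i, EXX (fun (g : P → E → Bool) (c : E → C4) =>
          if ∃ Y : Finset E, (∀ e ∈ Y, c e = .v) ∧ Y.card ≤ kap i ∧
            (1 / 2) ^ (5 * kap i) ≤ ML (pib M lt b z) (rg (fun e => c e = reg i) (g q) Y)
          then (1 : ℝ) else 0) ≤ 2 ^ (24 * kap i) * J ^ 2 := by
      intro q _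
      have h3 := rel_one (pib M lt b z) (pib_nonneg M lt b z) (pib_le_one M lt b z) i q (kap i)
        (d := (1 / 2) ^ (5 * kap i)) (by positivity)
      refine h3.trans (le_of_eq ?_)
      congr 1
      rw [one_div, inv_pow, div_inv_eq_mul, ← pow_add, ← pow_mul]
      congr 1
      ring
    refine (sum_le_card_nsmul _ _ _ h2).trans (le_of_eq ?_)
    rw [hJ i hi, nsmul_eq_mul]
    unfold mm
    push_cast
    have h4 : (4 : ℝ) ^ kap i = 2 ^ (2 * kap i) := by
      rw [pow_mul]
      norm_num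
    rw [h4, ← mul_assoc, ← pow_add]
    congr 2
    ring
  rcases Nat.eq_zero_or_pos i with h0 | h0
  · subst h0
    refine hrel.trans ?_
    have h1 : 26 * kap 0 = 52 := by
      unfold kap
      norm_num
    rw [h1, pow_zero, mul_one]
    refine mul_le_mul_of_nonneg_left ?_ (by positivity)
    nlinarith
  obtain ⟨j, rfl⟩ : ∃ j, i = j + 1 := ⟨i - 1, by omega⟩
  -- luck
  have hluck : EXX (fun (g : P → E → Bool) (c : E → C4) =>
      if Ch M lt lev b z (j + 1) g c then (1 : ℝ) else 0) ≤ (1 / 2) ^ (28 * kap (j + 1)) := by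
    have h1 : EXX (fun (g : P → E → Bool) (c : E → C4) =>
        if Ch M lt lev b z (j + 1) g c then (1 : ℝ) else 0) ≤
        EXX (fun (g : P → E → Bool) (c : E → C4) => ∑ l' ∈ JJ lev j,
          if EvL (phb M lt b z) j (JJ lev (j + 1)) l' g c then (1 : ℝ) else 0) := by
      refine EXX_mono fun g c => ?_
      by_cases h : Ch M lt lev b z (j + 1) g c
      · rw [if_pos h]
        obtain ⟨l', hl', K, -, -, h2, h3, h4⟩ := h.2 j rfl
        refine le_trans ?_ (single_le_sum (f := fun l' =>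
          if EvL (phb M lt b z) j (JJ lev (j + 1)) l' g c then (1 : ℝ) else 0)
          (fun _ _ => ind_nn) hl')
        rw [if_pos ⟨K, h2, h3, h4⟩]
      · rw [if_neg h]
        exact sum_nonneg fun _ _ => ind_nn
    refine h1.trans ?_
    rw [EXX_sum]
    have hm : (0 : ℝ) < (mm j : ℕ) := by
      unfold mm
      positivity
    have h2 : ∀ l' ∈ JJ lev j, EXX (fun (g : P → E → Bool) (c : E → C4) =>
          if EvL (phb M lt b z) j (JJ lev (j + 1)) l' g c then (1 : ℝ) else 0) ≤
          (1 / 2) ^ (28 * kap (j + 1)) / (mm j : ℕ) := by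
      intro l' hl'
      rw [le_div_iff₀ hm, mul_comm]
      refine luck_one (phb M lt b z) (phb_nonneg M lt b z) (phb_le_one M lt b z)
        (phb_anti M lt b z) j (JJ lev (j + 1)) (hJ _ hi) l' ?_
      intro h
      rw [mem_JJ] at h hl'
      omega
    refine (sum_le_card_nsmul _ _ _ h2).trans (le_of_eq ?_)
    rw [hJ j (by omega), nsmul_eq_mul, mul_div_cancel₀ _ hm.ne']
  set κ := kap (j + 1) with hκdef
  have hki : j + 1 ≤ κ := by
    rw [hκdef]
    unfold kap
    have : j + 1 < 64 ^ (j + 1) := Nat.lt_pow_self (by norm_num)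
    omega
  have hp0 : (0 : ℝ) ≤ (1 / 2) ^ κ := by positivity
  have hfin : (1 / 2 : ℝ) ^ κ * J ≤ 2 ^ 52 * (1 / 2) ^ (j + 1) * J := by
    refine mul_le_mul_of_nonneg_right ?_ hJ0
    have h1 : ((1 : ℝ) / 2) ^ κ ≤ (1 / 2) ^ (j + 1) := half_pow_le hki
    have h2 : (0 : ℝ) ≤ (1 / 2) ^ (j + 1) := by positivity
    linarith
  refine le_trans ?_ hfin
  by_cases hJs : J ≤ (1 / 2) ^ (27 * κ)
  · refine hrel.trans ?_
    have h1 : (2 : ℝ) ^ (26 * κ) * (1 / 2) ^ (27 * κ) = (1 / 2) ^ κ := by
      have h2 := two_mul_half_pow (26 * κ)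
      have h3 : ((1 : ℝ) / 2) ^ (27 * κ) = (1 / 2) ^ (26 * κ) * (1 / 2) ^ κ := by
        rw [← pow_add]
        congr 1
        ring
      rw [h3, ← mul_assoc, h2, one_mul]
    calc (2 : ℝ) ^ (26 * κ) * J ^ 2 = 2 ^ (26 * κ) * J * J := by ring
      _ ≤ 2 ^ (26 * κ) * (1 / 2) ^ (27 * κ) * J :=
          mul_le_mul_of_nonneg_right (mul_le_mul_of_nonneg_left hJs (by positivity)) hJ0
      _ = (1 / 2) ^ κ * J := by rw [h1]
  · push Not at hJs
    refine hluck.trans ?_
    have h3 : ((1 : ℝ) / 2) ^ (28 * κ) = (1 / 2) ^ κ * (1 / 2) ^ (27 * κ) := by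
      rw [← pow_add]
      congr 1
      ring
    rw [h3]
    exact mul_le_mul_of_nonneg_left hJs.le hp0

/-- **An element of the greedy basis is safe with constant probability.** -/
theorem safe_ge (hM : M.E = Set.univ) (hlt : IsStrictTotalOrder E lt) {n : ℕ} (hn : 0 < n)
    (hJ : ∀ i < n, (JJ lev i).card = mm i) (hcard : Fintype.card E ≤ kap (n - 1)) {b : E}
    (hb : b ∉ M.closure {f | lt b f}) :
    pp / 2 ≤ EXX (fun (g : P → E → Bool) (c : E → C4) =>
      if c b = .v ∧ (dat M lev n).Safe (g, c) lt b then (1 : ℝ) else 0) := by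
  have h1 : EXX (fun (g : P → E → Bool) (c : E → C4) => if c b = .v then (1 : ℝ) else 0) ≤
      EXX (fun (g : P → E → Bool) (c : E → C4) =>
        (if c b = .v ∧ (dat M lev n).Safe (g, c) lt b then (1 : ℝ) else 0) +
        ∑ z ∈ univ.erase b, ∑ i ∈ range n, if c b = .v then (if c z = .v then
          (if Ch M lt lev b z i g c then (1 : ℝ) else 0) else 0) else 0) := by
    refine EXX_mono fun g c => ?_
    have hnn : ∀ z i, (0 : ℝ) ≤ if c b = .v then (if c z = .v then
          (if Ch M lt lev b z i g c then (1 : ℝ) else 0) else 0) else 0 := by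
      intro z i
      split_ifs <;> norm_num
    by_cases hcb : c b = .v
    · rw [if_pos hcb]
      by_cases hs : (dat M lev n).Safe (g, c) lt b
      · rw [if_pos ⟨hcb, hs⟩]
        have : (0 : ℝ) ≤ ∑ z ∈ univ.erase b, ∑ i ∈ range n, if c b = .v then (if c z = .v then
          (if Ch M lt lev b z i g c then (1 : ℝ) else 0) else 0) else 0 :=
          sum_nonneg fun z _ => sum_nonneg fun i _ => hnn z i
        linarith
      · obtain ⟨z, hz, hcz, i, hi, hch⟩ := unsafe_ch hM hlt hn hJ hcard hb hcb hs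
        have h2 : (1 : ℝ) ≤ ∑ z ∈ univ.erase b, ∑ i ∈ range n, if c b = .v then
            (if c z = .v then (if Ch M lt lev b z i g c then (1 : ℝ) else 0) else 0) else 0 := by
          refine le_trans ?_ (single_le_sum (f := fun z => ∑ i ∈ range n, if c b = .v then
            (if c z = .v then (if Ch M lt lev b z i g c then (1 : ℝ) else 0) else 0) else 0)
            (fun z _ => sum_nonneg fun i _ => hnn z i) hz)
          refine le_trans ?_ (single_le_sum (f := fun i => if c b = .v then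
            (if c z = .v then (if Ch M lt lev b z i g c then (1 : ℝ) else 0) else 0) else 0)
            (fun i _ => hnn z i) hi)
          rw [if_pos hcb, if_pos hcz, if_pos hch]
        have h3 : (0 : ℝ) ≤ if c b = .v ∧ (dat M lev n).Safe (g, c) lt b then 1 else 0 := ind_nn
        linarith
    · rw [if_neg hcb]
      have h2 : (0 : ℝ) ≤ ∑ z ∈ univ.erase b, ∑ i ∈ range n, if c b = .v then
            (if c z = .v then (if Ch M lt lev b z i g c then (1 : ℝ) else 0) else 0) else 0 :=
        sum_nonneg fun z _ => sum_nonneg fun i _ => hnn z i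
      have h3 : (0 : ℝ) ≤ if c b = .v ∧ (dat M lev n).Safe (g, c) lt b then 1 else 0 := ind_nn
      linarith
  rw [EXX_one, EXX_add, EXX_sum] at h1
  simp only [EXX_sum] at h1
  have h2 : ∀ z ∈ univ.erase b, ∑ i ∈ range n, EXX (fun (g : P → E → Bool) (c : E → C4) =>
      if c b = .v then (if c z = .v then
        (if Ch M lt lev b z i g c then (1 : ℝ) else 0) else 0) else 0) ≤
      pp ^ 2 * 2 ^ 53 * ML (pib M lt b z) (fun _ => Th) := by
    intro z hz
    have hzb : z ≠ b := ne_of_mem_erase hz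
    have hJ0 : 0 ≤ ML (pib M lt b z) (fun _ => Th) :=
      ML_nonneg (pib_nonneg M lt b z) (fun _ => Th_nonneg) (fun _ => Th_le)
    have h3 : ∀ i ∈ range n, EXX (fun (g : P → E → Bool) (c : E → C4) =>
      if c b = .v then (if c z = .v then
        (if Ch M lt lev b z i g c then (1 : ℝ) else 0) else 0) else 0) ≤
        pp ^ 2 * (2 ^ 52 * (1 / 2) ^ i * ML (pib M lt b z) (fun _ => Th)) := by
      intro i hi
      rw [EXX_indep hzb (fun g c => if Ch M lt lev b z i g c then (1 : ℝ) else 0)]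
      · exact mul_le_mul_of_nonneg_left (charge hlt hJ (mem_range.1 hi)) (by positivity)
      · intro g c l
        exact if_congr (Ch_upd (Or.inl rfl) (pib_upd_b M lt b z) (phb_upd_b M lt b z) i g c l)
          rfl rfl
      · intro g c l
        exact if_congr (Ch_upd (Or.inr rfl) (pib_upd_z M lt hlt hzb) (phb_upd_z M lt hlt hzb)
          i g c l) rfl rfl
    refine (sum_le_sum h3).trans ?_
    have h4 : ∑ i ∈ range n, pp ^ 2 * (2 ^ 52 * (1 / 2) ^ i * ML (pib M lt b z) (fun _ => Th)) =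
        pp ^ 2 * 2 ^ 52 * ML (pib M lt b z) (fun _ => Th) * ∑ i ∈ range n, (1 / 2 : ℝ) ^ i := by
      rw [mul_sum]
      exact sum_congr rfl fun i _ => by ring
    rw [h4]
    have h5 : ∑ i ∈ range n, (1 / 2 : ℝ) ^ i ≤ 2 := sum_geometric_two_le n
    have h6 : 0 ≤ pp ^ 2 * 2 ^ 52 * ML (pib M lt b z) (fun _ => Th) := by positivity
    calc pp ^ 2 * 2 ^ 52 * ML (pib M lt b z) (fun _ => Th) * ∑ i ∈ range n, (1 / 2 : ℝ) ^ i
        ≤ pp ^ 2 * 2 ^ 52 * ML (pib M lt b z) (fun _ => Th) * 2 :=
          mul_le_mul_of_nonneg_left h5 h6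
      _ = pp ^ 2 * 2 ^ 53 * ML (pib M lt b z) (fun _ => Th) := by ring
  have h3 := sum_le_sum h2
  rw [← mul_sum] at h3
  have hent := entrance (M := M) hlt b
  set S := ∑ z ∈ univ.erase b, ML (pib M lt b z) (fun _ => Th) with hS
  have hS0 : 0 ≤ S := sum_nonneg fun z _ =>
    ML_nonneg (pib_nonneg M lt b z) (fun _ => Th_nonneg) (fun _ => Th_le)
  have hS1 : S ≤ 2 ^ 17 := by
    have h4 := Th_ge
    have h5 : 1 / 2 ^ 17 * S ≤ 1 := (mul_le_mul_of_nonneg_right h4 hS0).trans hent
    have h6 : (0 : ℝ) < 1 / 2 ^ 17 := by norm_num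
    have h7 : (1 / 2 ^ 17 : ℝ) * 2 ^ 17 = 1 := by norm_num
    nlinarith
  have hpp := pp_pos
  have hp2 : (2 : ℝ) ^ 71 * pp ≤ 1 := by
    have h4 : (2 : ℝ) ^ 71 * pp ≤ 2 ^ 2000 * pp :=
      mul_le_mul_of_nonneg_right (pow_le_pow_right₀ (by norm_num) (by norm_num)) hpp.le
    rw [pp_mul] at h4
    have h5 := vv_le
    have h6 : (1 : ℝ) / 2 ^ 36 ≤ 1 := by norm_num
    linarith
  have h8 : pp ^ 2 * 2 ^ 53 * S ≤ pp / 2 := by
    have h9 : pp ^ 2 * 2 ^ 53 * S ≤ pp ^ 2 * 2 ^ 53 * 2 ^ 17 :=
      mul_le_mul_of_nonneg_left hS1 (by positivity)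
    have h10 : pp ^ 2 * 2 ^ 53 * 2 ^ 17 = pp * (2 ^ 71 * pp) / 2 := by ring
    rw [h10] at h9
    have h11 : pp * (2 ^ 71 * pp) ≤ pp * 1 := mul_le_mul_of_nonneg_left hp2 hpp.le
    linarith
  linarith

/-- the rule is competitive -/
theorem comp (hM : M.E = Set.univ) {n : ℕ} (hn : 0 < n)
    (hJ : ∀ i < n, (JJ lev i).card = mm i) (hcard : Fintype.card E ≤ kap (n - 1)) :
    (dat M lev n).rule.IsCompetitive (ENNReal.ofReal (pp / 2)) := by
  refine Data.competitive _ hM fun lt hlt b hb => ?_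
  refine (ENNReal.ofReal_le_ofReal (safe_ge hM hlt hn hJ hcard hb)).trans (le_of_eq ?_)
  have h1 : ∀ r : (P → E → Bool) × (E → C4), (dat M lev n).w r *
      (if (dat M lev n).T r b ∧ (dat M lev n).Safe r lt b then 1 else 0) =
      ENNReal.ofReal (((∏ q, wG (r.1 q)) * ∏ e, w4 (r.2 e)) *
        if r.2 b = .v ∧ (dat M lev n).Safe (r.1, r.2) lt b then 1 else 0) := by
    intro r
    by_cases h : r.2 b = .v ∧ (dat M lev n).Safe (r.1, r.2) lt b
    · rw [if_pos h, mul_one]
      have h' : (dat M lev n).T r b ∧ (dat M lev n).Safe r lt b := h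
      rw [if_pos h', mul_one]
      rfl
    · rw [if_neg h, mul_zero, ENNReal.ofReal_zero]
      have h' : ¬ ((dat M lev n).T r b ∧ (dat M lev n).Safe r lt b) := h
      rw [if_neg h', mul_zero]
  have h2 : ∑ r : (P → E → Bool) × (E → C4), (dat M lev n).w r *
      (if (dat M lev n).T r b ∧ (dat M lev n).Safe r lt b then 1 else 0) =
      ENNReal.ofReal (EXX (fun (g : P → E → Bool) (c : E → C4) =>
        if c b = .v ∧ (dat M lev n).Safe (g, c) lt b then (1 : ℝ) else 0)) := by
    rw [sum_congr rfl fun r _ => h1 r, ← ENNReal.ofReal_sum_of_nonneg fun r _ => mul_nonneg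
      (mul_nonneg (prod_nonneg fun q _ => wG_nonneg _) (prod_nonneg fun e _ => w4_nonneg _))
      ind_nn, Fintype.sum_prod_type]
    unfold EXX EX
    congr 1
    refine sum_congr rfl fun g _ => ?_
    rw [mul_sum]
    refine sum_congr rfl fun c _ => ?_
    rw [mul_assoc]
  exact h2.symm

end

/-- **Constant ratio.** -/
theorem main : ∃ c : ℝ, 0 < c ∧ ∀ (E : Type) [Fintype E] (M : Matroid E), M.E = Set.univ →
    ∃ R : OnlineRule M, R.IsCompetitive (ENNReal.ofReal c) := by
  refine ⟨pp / 2, by linarith [pp_pos], fun E _ M hM => ?_⟩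
  set n := Fintype.card E + 1 with hn
  let P : Type := Σ i : Fin n, Fin (mm (i : ℕ))
  let _ : Fintype P := inferInstanceAs (Fintype (Σ i : Fin n, Fin (mm (i : ℕ))))
  let lev : P → ℕ := fun q => (q.1 : ℕ)
  have hJ : ∀ i < n, (JJ lev i).card = mm i := by
    intro i hi
    have h : JJ lev i = (univ : Finset (Fin (mm i))).map
        ⟨fun k => (⟨⟨i, hi⟩, k⟩ : Σ i : Fin n, Fin (mm (i : ℕ))), fun a b hab => by
          simpa using hab⟩ := by
      ext q
      rw [mem_JJ, mem_map]
      constructor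
      · rintro h
        obtain ⟨⟨j, hj⟩, k⟩ := q
        change j = i at h
        subst h
        exact ⟨k, mem_univ _, rfl⟩
      · rintro ⟨k, -, rfl⟩
        rfl
    rw [h, card_map, card_univ, Fintype.card_fin]
  have hcard : Fintype.card E ≤ kap (n - 1) := by
    rw [hn, Nat.add_sub_cancel]
    unfold kap
    have : Fintype.card E < 64 ^ Fintype.card E := Nat.lt_pow_self (by norm_num)
    omega
  exact ⟨(dat M lev n).rule, comp hM (by omega) hJ hcard⟩

end Vale.Agent.P331.H66
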