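import Vale.Agent.P331.H66.QJ

/-!
# Hypercontractivity with contexts
-/

set_option autoImplicit false
set_option linter.unusedSectionVars false

namespace Vale.Agent.P331.H66

open Finset Vale.Agent.P331.H489

section

variable {L : Type*} [Fintype L] [DecidableEq L]

/-- one step of the upper functional -/
noncomputable def hl (opt : L → Bool) (ξ : L → ℝ) (l : L) (C A : ℝ) : ℝ :=
  if opt l then max C (A / 2) else (1 - ξ l) * C + ξ l * A

/-- the upper functional -/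
noncomputable def MX (opt : L → Bool) (ξ : L → ℝ) :
    (n : ℕ) → ((Fin n → Bool) → ℝ) → (Fin n → L) → ℝ
  | 0, φ, _ => φ Fin.elim0
  | n + 1, φ, μ => hl opt ξ (μ 0)
      (MX opt ξ n (fun A => φ (Fin.cons false A)) (fun i => μ i.succ))
      (MX opt ξ n (fun A => φ (Fin.cons true A)) (fun i => μ i.succ))

theorem hl_nonneg {opt : L → Bool} {ξ : L → ℝ} (h0 : ∀ l, 0 ≤ ξ l) (h1 : ∀ l, ξ l ≤ 1) (l : L)
    {C A : ℝ} (hC : 0 ≤ C) (hA : 0 ≤ A) : 0 ≤ hl opt ξ l C A := by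
  unfold hl
  split_ifs
  · exact le_max_of_le_left hC
  · have := mul_nonneg (h0 l) hA
    have := mul_nonneg (sub_nonneg.2 (h1 l)) hC
    linarith

theorem MX_nonneg {opt : L → Bool} {ξ : L → ℝ} (h0 : ∀ l, 0 ≤ ξ l) (h1 : ∀ l, ξ l ≤ 1) :
    ∀ (n : ℕ) (φ : (Fin n → Bool) → ℝ) (_ : ∀ A, 0 ≤ φ A) (μ : Fin n → L), 0 ≤ MX opt ξ n φ μ
  | 0, _, h, _ => h _
  | n + 1, φ, h, μ => hl_nonneg h0 h1 _ (MX_nonneg h0 h1 n _ (fun _ => h _) _)
      (MX_nonneg h0 h1 n _ (fun _ => h _) _)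

theorem le_MX {opt : L → Bool} {ξ : L → ℝ} (h0 : ∀ l, 0 ≤ ξ l) (h1 : ∀ l, ξ l ≤ 1) :
    ∀ (n : ℕ) (φ : (Fin n → Bool) → ℝ) (_ : ∀ A, 0 ≤ φ A) (μ : Fin n → L) (Y : Fin n → Bool)
      (_ : ∀ i, Y i = true → opt (μ i) = true),
      (∏ i, if Y i then (1 / 2 : ℝ) else 1) * ML φ (rt opt ξ Y μ) ≤ MX opt ξ n φ μ
  | 0, φ, h, μ, Y, hY => by
    simp only [MX, ML, EX, Fintype.sum_unique, univ_eq_empty, prod_empty, one_mul]
    exact le_of_eq (congrArg φ (Subsingleton.elim _ _))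
  | n + 1, φ, h, μ, Y, hY => by
    have ih0 := le_MX h0 h1 n (fun A => φ (Fin.cons false A)) (fun A => h _)
      (fun i => μ i.succ) (fun i => Y i.succ) (fun i hi => hY _ hi)
    have ih1 := le_MX h0 h1 n (fun A => φ (Fin.cons true A)) (fun A => h _)
      (fun i => μ i.succ) (fun i => Y i.succ) (fun i hi => hY _ hi)
    rw [ML_cons, Fin.prod_univ_succ]
    have e : (fun i : Fin n => rt opt ξ Y μ i.succ) =
        rt opt ξ (fun i : Fin n => Y i.succ) (fun i => μ i.succ) := rfl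
    rw [e]
    set P := ∏ i : Fin n, if Y i.succ then (1 / 2 : ℝ) else 1 with hP
    set M0 := ML (fun A => φ (Fin.cons false A)) (rt opt ξ (fun i : Fin n => Y i.succ)
      (fun i => μ i.succ)) with hM0
    set M1 := ML (fun A => φ (Fin.cons true A)) (rt opt ξ (fun i : Fin n => Y i.succ)
      (fun i => μ i.succ)) with hM1
    change _ ≤ hl opt ξ (μ 0) _ _
    by_cases hy : Y 0 = true
    · have ho := hY 0 hy
      have hr : rt opt ξ Y μ 0 = 1 := by simp [rt, hy]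
      rw [hr, hl, if_pos ho, if_pos hy]
      refine le_trans ?_ (le_max_right _ _)
      linarith
    · have hy' : Y 0 = false := by simpa using hy
      by_cases ho : opt (μ 0) = true
      · have hr : rt opt ξ Y μ 0 = 0 := by simp [rt, hy', ho]
        rw [hr, hl, if_pos ho, if_neg hy]
        refine le_trans ?_ (le_max_left _ _)
        linarith
      · have hr : rt opt ξ Y μ 0 = ξ (μ 0) := by simp [rt, hy', ho]
        rw [hr, hl, if_neg ho, if_neg hy]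
        have := mul_le_mul_of_nonneg_left ih0 (sub_nonneg.2 (h1 (μ 0)))
        have := mul_le_mul_of_nonneg_left ih1 (h0 (μ 0))
        linarith

theorem EX_cs {E : Type*} [Fintype E] [DecidableEq E] {w : E → L → ℝ} (hw : ∀ e l, 0 ≤ w e l)
    (F G : (E → L) → ℝ) :
    (EX w (fun ω => F ω * G ω)) ^ 2 ≤ EX w (fun ω => F ω ^ 2) * EX w (fun ω => G ω ^ 2) := by
  unfold EX
  refine Finset.sum_sq_le_sum_mul_sum_of_sq_eq_mul _ (fun ω _ => ?_) (fun ω _ => ?_)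
    (fun ω _ => ?_)
  · exact mul_nonneg (prod_nonneg fun e _ => hw e _) (sq_nonneg _)
  · exact mul_nonneg (prod_nonneg fun e _ => hw e _) (sq_nonneg _)
  · ring

/-- the hypercontractive inequality on `Fin n` -/
theorem hc_ineq {w : L → ℝ} (hw0 : ∀ l, 0 ≤ w l) {opt : L → Bool} {ξ : L → ℝ}
    (hξ0 : ∀ l, 0 ≤ ξ l) (hξ1 : ∀ l, ξ l ≤ 1) {Θ : ℝ} (hΘ0 : 0 ≤ Θ) (hΘ1 : Θ ≤ 1)
    (hcoord : ∀ C A : ℝ, 0 ≤ C → 0 ≤ A →
      ∑ l, w l * (hl opt ξ l C A) ^ 4 ≤ ((1 - Θ) * C ^ 2 + Θ * A ^ 2) ^ 2) :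
    ∀ (n : ℕ) (φ : (Fin n → Bool) → ℝ) (_ : ∀ A, 0 ≤ φ A),
      EX (fun _ => w) (fun μ => (MX opt ξ n φ μ) ^ 4) ≤
        (EX (fun _ => bw Θ) (fun A => φ A ^ 2)) ^ 2
  | 0, φ, _ => by
    simp only [MX, EX, Fintype.sum_unique, univ_eq_empty, prod_empty, one_mul]
    calc φ Fin.elim0 ^ 4 = (φ Fin.elim0 ^ 2) ^ 2 := by ring
      _ ≤ _ := le_of_eq (congrArg (fun x : ℝ => (x ^ 2) ^ 2)
        (congrArg φ (Subsingleton.elim _ _)))
  | n + 1, φ, hφ => by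
    have ih0 := hc_ineq hw0 hξ0 hξ1 hΘ0 hΘ1 hcoord n
      (fun A => φ (Fin.cons false A)) (fun A => hφ _)
    have ih1 := hc_ineq hw0 hξ0 hξ1 hΘ0 hΘ1 hcoord n
      (fun A => φ (Fin.cons true A)) (fun A => hφ _)
    rw [EX_cons, EX_cons, Fintype.sum_bool]
    have e2 : ∀ (l : L) (μ : Fin n → L), MX opt ξ (n + 1) φ (Fin.cons l μ) =
        hl opt ξ l (MX opt ξ n (fun A => φ (Fin.cons false A)) μ)
          (MX opt ξ n (fun A => φ (Fin.cons true A)) μ) := fun l μ => rfl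
    simp only [e2]
    have e3 : ∀ l : L, w l * EX (fun _ : Fin n => w) (fun μ =>
        (hl opt ξ l (MX opt ξ n (fun A => φ (Fin.cons false A)) μ)
          (MX opt ξ n (fun A => φ (Fin.cons true A)) μ)) ^ 4) =
        EX (fun _ : Fin n => w) (fun μ => w l *
        (hl opt ξ l (MX opt ξ n (fun A => φ (Fin.cons false A)) μ)
          (MX opt ξ n (fun A => φ (Fin.cons true A)) μ)) ^ 4) := fun l => (EX_mul _ _ _).symm
    rw [sum_congr rfl fun l _ => e3 l, ← EX_sum]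
    set F0 : (Fin n → L) → ℝ := fun μ => MX opt ξ n (fun A => φ (Fin.cons false A)) μ with hF0
    set F1 : (Fin n → L) → ℝ := fun μ => MX opt ξ n (fun A => φ (Fin.cons true A)) μ with hF1
    set x := EX (fun _ : Fin n => bw Θ) (fun A => φ (Fin.cons false A) ^ 2) with hx
    set y := EX (fun _ : Fin n => bw Θ) (fun A => φ (Fin.cons true A) ^ 2) with hy
    have hx0 : 0 ≤ x := EX_nonneg (fun _ b => bw_nonneg hΘ0 hΘ1 b) fun A => sq_nonneg _
    have hy0 : 0 ≤ y := EX_nonneg (fun _ b => bw_nonneg hΘ0 hΘ1 b) fun A => sq_nonneg _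
    have step : EX (fun _ : Fin n => w) (fun μ => ∑ l, w l * (hl opt ξ l (F0 μ) (F1 μ)) ^ 4) ≤
        EX (fun _ : Fin n => w) (fun μ => ((1 - Θ) * (F0 μ) ^ 2 + Θ * (F1 μ) ^ 2) ^ 2) :=
      EX_mono (fun _ l => hw0 l) fun μ => hcoord _ _ (MX_nonneg hξ0 hξ1 n _ (fun A => hφ _) μ)
        (MX_nonneg hξ0 hξ1 n _ (fun A => hφ _) μ)
    refine step.trans ?_
    have e4 : (fun μ : Fin n → L => ((1 - Θ) * (F0 μ) ^ 2 + Θ * (F1 μ) ^ 2) ^ 2) =
        fun μ => ((1 - Θ) ^ 2 * (F0 μ) ^ 4 + (2 * (1 - Θ) * Θ) * ((F0 μ) ^ 2 * (F1 μ) ^ 2)) +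
          Θ ^ 2 * (F1 μ) ^ 4 := by
      funext μ
      ring
    rw [e4, EX_add, EX_add, EX_mul, EX_mul, EX_mul]
    set a := EX (fun _ : Fin n => w) (fun μ => (F0 μ) ^ 4) with ha
    set c := EX (fun _ : Fin n => w) (fun μ => (F1 μ) ^ 4) with hc
    set b := EX (fun _ : Fin n => w) (fun μ => (F0 μ) ^ 2 * (F1 μ) ^ 2) with hb
    have hb0 : 0 ≤ b := EX_nonneg (fun _ l => hw0 l) fun μ => by positivity
    have hbb : b ^ 2 ≤ a * c := by
      have h := EX_cs (E := Fin n) (w := fun _ => w) (fun _ l => hw0 l)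
        (fun μ => (F0 μ) ^ 2) (fun μ => (F1 μ) ^ 2)
      have e5 : ∀ F : (Fin n → L) → ℝ, (fun μ => ((F μ) ^ 2) ^ 2) = fun μ => (F μ) ^ 4 := by
        intro F
        funext μ
        ring
      rw [e5 F0, e5 F1] at h
      exact h
    have hc0 : 0 ≤ c := EX_nonneg (fun _ l => hw0 l) fun μ => by positivity
    have hbxy : b ≤ x * y := by
      have h1 : b ^ 2 ≤ (x * y) ^ 2 := by
        refine hbb.trans ?_
        rw [mul_pow]
        exact mul_le_mul ih0 ih1 hc0 (sq_nonneg x)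
      exact le_of_sq_le_sq h1 (mul_nonneg hx0 hy0)
    have b1 : bw Θ true = Θ := rfl
    have b2 : bw Θ false = 1 - Θ := rfl
    rw [b1, b2]
    have h1Θ : 0 ≤ 1 - Θ := sub_nonneg.2 hΘ1
    have q0 := mul_le_mul_of_nonneg_left ih0 (sq_nonneg (1 - Θ))
    have q1 := mul_le_mul_of_nonneg_left ih1 (sq_nonneg Θ)
    have q2 := mul_le_mul_of_nonneg_left hbxy (by positivity : 0 ≤ 2 * (1 - Θ) * Θ)
    have e6 : (Θ * y + (1 - Θ) * x) ^ 2 = (1 - Θ) ^ 2 * x ^ 2 + 2 * (1 - Θ) * Θ * (x * y) +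
        Θ ^ 2 * y ^ 2 := by ring
    rw [e6]
    linarith
where
  le_of_sq_le_sq {u v : ℝ} (h : u ^ 2 ≤ v ^ 2) (hv : 0 ≤ v) : u ≤ v := by
    exact abs_le_of_sq_le_sq' h hv |>.2

end

section

variable {E L : Type*} [Fintype E] [DecidableEq E] [Fintype L] [DecidableEq L]

open Classical in
/-- the event form -/
theorem hc_event {w : L → ℝ} (hw0 : ∀ l, 0 ≤ w l) {opt : L → Bool} {ξ : L → ℝ}
    (hξ0 : ∀ l, 0 ≤ ξ l) (hξ1 : ∀ l, ξ l ≤ 1) {Θ : ℝ} (hΘ0 : 0 ≤ Θ) (hΘ1 : Θ ≤ 1)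
    (hcoord : ∀ C A : ℝ, 0 ≤ C → 0 ≤ A →
      ∑ l, w l * (hl opt ξ l C A) ^ 4 ≤ ((1 - Θ) * C ^ 2 + Θ * A ^ 2) ^ 2)
    (φ : (E → Bool) → ℝ) (hφ : ∀ A, 0 ≤ φ A) (hφ1 : ∀ A, φ A ≤ 1) (κ : ℕ) {d : ℝ} (hd : 0 < d) :
    EX (fun _ => w) (fun μ : E → L => if ∃ Y : Finset E, (∀ e ∈ Y, opt (μ e) = true) ∧
      Y.card ≤ κ ∧ d ≤ ML φ (rt opt ξ (fun e => decide (e ∈ Y)) μ) then 1 else 0) ≤
      (2 ^ κ / d) ^ 4 * (ML φ (fun _ => Θ)) ^ 2 := by
  set n := Fintype.card E with hn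
  set σ : E ≃ Fin n := Fintype.equivFin E with hσ
  set φ' : (Fin n → Bool) → ℝ := fun A => φ (A ∘ σ) with hφ'
  have h := hc_ineq hw0 (opt := opt) hξ0 hξ1 hΘ0 hΘ1 hcoord n φ' (fun A => hφ _)
  have hMX : ∀ μ : E → L, 0 ≤ MX opt ξ n φ' (μ ∘ σ.symm) := fun μ =>
    MX_nonneg hξ0 hξ1 n φ' (fun A => hφ _) _
  refine (EX_mono (fun _ l => hw0 l) (G := fun μ => (2 ^ κ / d) ^ 4 *
    (MX opt ξ n φ' (μ ∘ σ.symm)) ^ 4) fun μ => ?_).trans ?_
  · split_ifs with hev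
    · obtain ⟨Y, hY, hYc, hYd⟩ := hev
      have h4 := le_MX (opt := opt) hξ0 hξ1 n φ' (fun A => hφ _) (μ ∘ σ.symm)
        ((fun e => decide (e ∈ Y)) ∘ σ.symm) (fun i hi => hY _ (by simpa using hi))
      have h5 : (∏ i : Fin n, if ((fun e => decide (e ∈ Y)) ∘ σ.symm) i = true then (1 / 2 : ℝ)
          else 1) = (1 / 2) ^ Y.card := by
        rw [← Equiv.prod_comp σ]
        simp only [Function.comp, Equiv.symm_apply_apply, decide_eq_true_eq]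
        rw [prod_ite_mem, univ_inter, prod_const]
      have h6 : ML φ' (rt opt ξ ((fun e => decide (e ∈ Y)) ∘ σ.symm) (μ ∘ σ.symm)) =
          ML φ (rt opt ξ (fun e => decide (e ∈ Y)) μ) := by
        rw [ML_reindex σ φ (rt opt ξ (fun e => decide (e ∈ Y)) μ)]
        rfl
      rw [h5, h6] at h4
      have h7 : d / 2 ^ κ ≤ MX opt ξ n φ' (μ ∘ σ.symm) := by
        refine le_trans ?_ h4
        have h8 : (1 / 2 : ℝ) ^ κ ≤ (1 / 2) ^ Y.card :=
          pow_le_pow_of_le_one (by norm_num) (by norm_num) hYc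
        calc d / 2 ^ κ = (1 / 2) ^ κ * d := by
              rw [one_div, inv_pow]
              ring
          _ ≤ _ := mul_le_mul h8 hYd hd.le (by positivity)
      have h9 : 1 ≤ 2 ^ κ / d * MX opt ξ n φ' (μ ∘ σ.symm) := by
        calc (1 : ℝ) = 2 ^ κ / d * (d / 2 ^ κ) := by field_simp
          _ ≤ _ := mul_le_mul_of_nonneg_left h7 (by positivity)
      rw [← mul_pow]
      exact one_le_pow₀ h9
    · have := hMX μ
      positivity
  · rw [EX_mul]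
    refine mul_le_mul_of_nonneg_left ?_ (by positivity)
    rw [EX_reindex σ (fun _ : E => w)]
    have e2 : (fun μ : Fin n → L => (MX opt ξ n φ' ((μ ∘ σ) ∘ σ.symm)) ^ 4) =
        fun μ => (MX opt ξ n φ' μ) ^ 4 := by
      funext μ
      have : (μ ∘ σ) ∘ σ.symm = μ := by
        funext i
        simp
      rw [this]
    rw [e2]
    refine h.trans ?_
    have h10 : EX (fun _ : Fin n => bw Θ) (fun A => φ' A ^ 2) ≤ ML φ (fun _ => Θ) := by
      rw [ML_reindex σ φ]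
      refine EX_mono (fun _ b => bw_nonneg hΘ0 hΘ1 b) fun A => ?_
      change φ' A ^ 2 ≤ φ' A
      have h0 : 0 ≤ φ' A := hφ _
      have h1 : φ' A ≤ 1 := hφ1 _
      nlinarith
    have h11 : 0 ≤ EX (fun _ : Fin n => bw Θ) (fun A => φ' A ^ 2) :=
      EX_nonneg (fun _ b => bw_nonneg hΘ0 hΘ1 b) fun A => sq_nonneg _
    exact pow_le_pow_left₀ h11 h10 2

end

end Vale.Agent.P331.H66
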