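import Vale.Agent.P331.H66.Cst
import Vale.Agent.P331.H379.JLabel

/-!
# Luck: one step of the chain
-/

set_option autoImplicit false
set_option linter.unusedSectionVars false

namespace Vale.Agent.P331.H66

open Finset Vale.Agent.P331.H489 Vale.Agent.P331.H379
open scoped Classical

section

variable {E P : Type} [Fintype E] [Fintype P]

/-- rates: `1` on `Y` and on the pool, `th` on the rest of the region -/
noncomputable def rg (S : E → Prop) (G : E → Bool) (Y : Finset E) (e : E) : ℝ :=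
  if e ∈ Y then 1 else if S e then (if G e then 1 else th) else 0

/-- `K` contains a small set which is good with the pool `G` -/
def good (φ : (E → Bool) → ℝ) (κ : ℕ) (t : ℝ) (S : E → Prop) (G : E → Bool) (K : Finset E) :
    Prop :=
  ∃ Y ⊆ K, Y.card ≤ κ ∧ 2 ^ Y.card * ML φ (rg S G Y) ≤ t

theorem good_mono {φ : (E → Bool) → ℝ} {κ : ℕ} {t : ℝ} {S : E → Prop} {G : E → Bool}
    {K K' : Finset E} (h : K ⊆ K') (hK : good φ κ t S G K) : good φ κ t S G K' := by
  obtain ⟨Y, hY, h1, h2⟩ := hK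
  exact ⟨Y, hY.trans h, h1, h2⟩

/-- the weight of a pool -/
noncomputable def wG (G : E → Bool) : ℝ := ∏ e, bw gam (G e)

theorem wG_nonneg (G : E → Bool) : 0 ≤ wG G :=
  prod_nonneg fun e _ => bw_nonneg gam_pos.le gam_lt_one.le _

theorem wG_sum : ∑ G : E → Bool, wG G = 1 := by
  have h := EX_one (fun _ : E => bw gam) (fun _ => sum_bw gam) 1
  unfold EX at h
  simpa [wG] using h

theorem sum_wG (F : (E → Bool) → ℝ) : ∑ G : E → Bool, wG G * F G = EX (fun _ => bw gam) F := rfl

/-- expectation of a product over independent pools -/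
theorem EX_prodJ {X : Type*} [Fintype X] [DecidableEq X] (w : P → X → ℝ)
    (hw : ∀ l, ∑ x, w l x = 1) (J : Finset P) (f : X → ℝ) :
    EX w (fun g => ∏ l ∈ J, f (g l)) = ∏ l ∈ J, ∑ x, w l x * f x := by
  unfold EX
  have h1 : ∀ g : P → X, (∏ l, w l (g l)) * ∏ l ∈ J, f (g l) =
      ∏ l, w l (g l) * (if l ∈ J then f (g l) else 1) := by
    intro g
    rw [prod_mul_distrib, prod_ite_mem, univ_inter]
  simp only [h1]
  have h2 := (Finset.prod_univ_sum (fun _ : P => (univ : Finset X))
    (fun l x => w l x * (if l ∈ J then f x else 1))).symm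
  rw [Fintype.piFinset_univ] at h2
  rw [h2, ← prod_filter_mul_prod_filter_not univ (fun l => l ∈ J)]
  have h3 : ∏ l ∈ univ.filter (fun l => ¬ l ∈ J), ∑ x, w l x * (if l ∈ J then f x else 1) = 1 := by
    refine prod_eq_one fun l hl => ?_
    rw [mem_filter] at hl
    simp only [if_neg hl.2, mul_one, hw l]
  rw [h3, mul_one]
  have h4 : univ.filter (fun l => l ∈ J) = J := by
    ext l
    simp
  rw [h4]
  refine prod_congr rfl fun l hl => ?_
  simp only [if_pos hl]

/-- rates in the step: `1` on `U` and on the pool `h`, `th` on `r` -/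
noncomputable def r5 (ω : E → C5) (U : Finset E) (e : E) : ℝ :=
  if e ∈ U ∨ ω e = .h then 1 else if ω e = .r then th else 0

/-- the bad event for fixed pools of the upper level -/
def Ev (φ : (E → Bool) → ℝ) (κ κ' : ℕ) (t t' : ℝ) (J : Finset P) (g : P → E → Bool)
    (ω : E → C5) : Prop :=
  ∃ K : Finset E, (∀ e ∈ K, ω e = .v) ∧ (∀ l ∈ J, good φ κ t (fun e => ω e = .s) (g l) K) ∧
    ∀ U ⊆ K, U.card < κ' → t' < ML φ (r5 ω U)

theorem ind_le_ind {A B : Prop} {dA : Decidable A} {dB : Decidable B} (h : A → B) :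
    (if A then (1 : ℝ) else 0) ≤ if B then 1 else 0 := by
  by_cases hA : A
  · rw [if_pos hA, if_pos (h hA)]
  · rw [if_neg hA]
    split_ifs <;> norm_num

theorem ind_nn {A : Prop} {dA : Decidable A} : (0 : ℝ) ≤ if A then 1 else 0 := by
  split_ifs <;> norm_num

/-- the `J*` step for fixed pools of the upper level -/
theorem jstep (φ : (E → Bool) → ℝ) (κ κ' : ℕ) (t t' : ℝ) (J : Finset P) (g : P → E → Bool) :
    EX (fun _ => w5) (fun ω : E → C5 => if Ev φ κ κ' t t' J g ω then 1 else 0) ≤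
      (1 / 2) ^ (2000 * κ') + EX (fun _ => w5) (fun ω : E → C5 =>
        if (∀ l ∈ J, good φ κ t (fun e => ω e = .s) (g l) (lab .h ω)) ∧
          t' < ML φ (r5 ω ∅) then 1 else 0) := by
  have hK : ∀ ω : E → C5, ∃ K : Finset E, Ev φ κ κ' t t' J g ω → (∀ e ∈ K, ω e = .v) ∧
      (∀ l ∈ J, good φ κ t (fun e => ω e = .s) (g l) K) ∧
      ∀ U ⊆ K, U.card < κ' → t' < ML φ (r5 ω U) := by
    intro ω
    by_cases h : Ev φ κ κ' t t' J g ω
    · obtain ⟨K, hK⟩ := h
      exact ⟨K, fun _ => hK⟩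
    · exact ⟨∅, fun h' => absurd h' h⟩
  choose K hK using hK
  obtain ⟨U, hU1, hU2, hU3⟩ := jstar_label' C5.v C5.h (by decide) (fun _ : E => w5)
    (fun _ l => w5_nonneg l) ((2 : ℝ) ^ 2000) (one_le_pow₀ (by norm_num))
    (fun _ => le_of_eq pp_mul)
    (fun ω A => ∀ l ∈ J, good φ κ t (fun e => ω e = .s) (g l) A)
    (fun ω A B hAB h l hl => good_mono hAB (h l hl))
    (by
      intro ω ω' hsim A hA l hl
      have hS : (fun e => ω e = C5.s) = fun e => ω' e = C5.s := by
        funext e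
        rcases hsim e with h | ⟨h1, h2⟩
        · rw [h]
        · rcases h1 with h1 | h1 <;> rcases h2 with h2 | h2 <;> rw [h1, h2] <;> simp
      rw [← hS]
      exact hA l hl)
    (Ev φ κ κ' t t' J g) K (fun ω h => ⟨(hK ω h).1, (hK ω h).2.1⟩)
  have hw0 : ∀ (e : E) (l : C5), 0 ≤ (fun _ : E => w5) e l := fun _ l => w5_nonneg l
  have h1 := hU2 (fun ω => if t' < ML φ (r5 ω ∅) then 1 else 0) (fun ω => ind_nn)
  have h2 := hU3 κ' (fun _ => w5_sum)
  have hsplit : ∀ ω : E → C5, (if Ev φ κ κ' t t' J g ω then (1 : ℝ) else 0) ≤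
      (if Ev φ κ κ' t t' J g ω ∧ κ' ≤ (U ω).card then 1 else 0) +
      (if Ev φ κ κ' t t' J g ω then (if t' < ML φ (r5 (flip .h (U ω) ω) ∅) then 1 else 0)
        else 0) := by
    intro ω
    by_cases hE : Ev φ κ κ' t t' J g ω
    · by_cases hc : κ' ≤ (U ω).card
      · rw [if_pos hE, if_pos ⟨hE, hc⟩, if_pos hE]
        exact le_add_of_nonneg_right ind_nn
      · have hr : r5 (flip .h (U ω) ω) ∅ = r5 ω (U ω) := by
          funext e
          unfold r5 H379.flip
          by_cases he : e ∈ U ω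
          · simp [he]
          · simp [he]
        have h3 := (hK ω hE).2.2 (U ω) (hU1 ω hE).1 (not_le.1 hc)
        rw [if_pos hE, if_pos hE, hr, if_pos h3]
        exact le_add_of_nonneg_left ind_nn
    · rw [if_neg hE, if_neg hE, if_neg (fun h => hE h.1)]
      norm_num
  refine (EX_mono hw0 hsplit).trans ?_
  rw [EX_add]
  refine add_le_add ?_ (h1.trans ?_)
  · have e : ((1 : ℝ) / 2) ^ (2000 * κ') = 1 / (2 ^ 2000) ^ κ' := by
      rw [one_div, inv_pow, pow_mul, one_div]
    rw [e, le_div_iff₀ (by positivity)]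
    rw [mul_comm]
    exact h2
  · refine EX_mono hw0 fun ω => ?_
    by_cases hA : ∀ l ∈ J, good φ κ t (fun e => ω e = .s) (g l) (lab .h ω)
    · rw [if_pos hA]
      exact ind_le_ind fun h => ⟨hA, h⟩
    · rw [if_neg hA]
      exact ind_nn

/-! ### the natural event -/

/-- rates after the pool `G` of the other region has been added to the pool `h` -/
noncomputable def rB (ω : E → C5) (G : E → Bool) (e : E) : ℝ :=
  if ω e = .h then 1 else if ω e = .s then (if G e then 1 else th3) else 0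

theorem r5_empty (ω : E → C5) : r5 ω ∅ = fun e => beT (ω e) := by
  funext e
  unfold r5 beT
  cases ω e <;> simp

/-- averaging over the pool -/
theorem avg_rB (φ : (E → Bool) → ℝ) (ω : E → C5) :
    EX (fun _ => bw gam) (fun G : E → Bool => ML φ (rB ω G)) = ML φ (fun e => xiT (ω e)) := by
  have h := ML_mix (fun _ : E => bw gam) (fun _ => sum_bw gam)
    (fun e b => if ω e = .h then 1 else if ω e = .s then (if b then 1 else th3) else 0) φ
  refine (h.trans ?_)
  congr 1
  funext e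
  rw [Fintype.sum_bool]
  simp only [bw]
  cases ω e
  · simp [xiT]
  · simp [xiT]
  · simp [xiT]
  · simp only [xiT, reduceCtorEq, if_false, if_true, Bool.false_eq_true]
    exact mix3
  · simp [xiT]

/-- the reverse Lipschitz estimate: a good pool which stays bad -/
theorem natJ (φ : (E → Bool) → ℝ) (hφ : ∀ A, 0 ≤ φ A) (hφ1 : ∀ A, φ A ≤ 1) (hanti : Antitone φ)
    (κ : ℕ) {t y : ℝ} (ht : 0 < t) (ht1 : t ≤ 1) (hy : 0 < y) :
    EX (fun _ => w5) (fun ω : E → C5 => EX (fun _ => bw gam) (fun G : E → Bool =>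
      if good φ κ t (fun e => ω e = .s) G (lab .h ω) ∧ y ≤ ML φ (rB ω G) then 1 else 0)) ≤
      (2 * t) ^ 40 / y ^ (2 * 40 + 2) := by
  have h := event_ineq (E := E) (w := w5b) (opt := optJ) (ξ := xiJ) (β := beJ) (Θ := Th)
    (m := 2 * 40 + 2) (k := 40)
    (fun l => mul_nonneg (w5_nonneg _) (bw_nonneg gam_pos.le gam_lt_one.le _))
    (fun l => by unfold xiJ; split_ifs <;> [norm_num; exact th_pos.le; norm_num])
    (fun l => by
      unfold xiJ
      split_ifs
      · norm_num
      · exact th_le.trans (by norm_num)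
      · norm_num)
    (fun l => by
      unfold beJ
      split_ifs
      · norm_num
      · norm_num
      · exact th3_nonneg
      · norm_num)
    (fun l => by
      unfold beJ
      split_ifs
      · norm_num
      · norm_num
      · exact th3_le
      · norm_num)
    Th_nonneg Th_le (by norm_num) hcoordJ φ hφ hφ1 hanti κ ht ht1 hy
  refine le_trans (le_of_eq ?_) h
  have h2 := EX_prod (fun _ : E => w5) (fun _ : E => bw gam) (fun ω G =>
    if good φ κ t (fun e => ω e = .s) G (lab .h ω) ∧ y ≤ ML φ (rB ω G) then (1 : ℝ) else 0)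
  rw [← h2]
  have hw : (fun (e : E) (x : C5 × Bool) => w5 x.1 * bw gam x.2) = fun _ => w5b := rfl
  rw [hw]
  congr 1
  funext τ
  have hr : ∀ Y : Finset E, (∀ e ∈ Y, (τ e).1 = .h) →
      rg (fun e => (τ e).1 = .s) (fun e => (τ e).2) Y = rt optJ xiJ (fun e => decide (e ∈ Y)) τ := by
    intro Y hY
    funext e
    unfold rg rt optJ xiJ
    by_cases he : e ∈ Y
    · simp [he]
    · simp only [he, if_false, decide_false, Bool.false_eq_true, decide_eq_true_eq]
      by_cases h3 : (τ e).1 = .h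
      · simp [h3]
      · simp [h3]
  have hB : rB (fun e => (τ e).1) (fun e => (τ e).2) = fun e => beJ (τ e) := rfl
  refine if_congr ?_ rfl rfl
  rw [hB]
  refine and_congr_left fun _ => ?_
  constructor
  · rintro ⟨Y, hY, h3, h4⟩
    have hY' : ∀ e ∈ Y, (τ e).1 = .h := fun e he => by
      have := hY he
      rwa [mem_lab] at this
    refine ⟨Y, fun e he => ?_, h3, ?_⟩
    · unfold optJ
      simpa using hY' e he
    · rw [← hr Y hY']
      exact h4
  · rintro ⟨Y, hY, h3, h4⟩
    have hY' : ∀ e ∈ Y, (τ e).1 = .h := fun e he => by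
      have := hY e he
      unfold optJ at this
      simpa using this
    refine ⟨Y, fun e he => ?_, h3, ?_⟩
    · rw [mem_lab]
      exact hY' e he
    · rw [hr Y hY']
      exact h4

/-- the change of the region -/
theorem natT (φ : (E → Bool) → ℝ) (hφ : ∀ A, 0 ≤ φ A) (hφ1 : ∀ A, φ A ≤ 1) (hanti : Antitone φ)
    {t y : ℝ} (ht : 0 < t) (ht1 : t ≤ 1) (hy : 0 < y) :
    EX (fun _ => w5) (fun ω : E → C5 =>
      if ML φ (fun e => xiT (ω e)) ≤ t ∧ y ≤ ML φ (fun e => beT (ω e)) then 1 else 0) ≤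
      (2 * t) ^ 40 / y ^ (2 * 40 + 2) := by
  have h := event_ineq (E := E) (w := w5) (opt := optT) (ξ := xiT) (β := beT) (Θ := Th)
    (m := 2 * 40 + 2) (k := 40) w5_nonneg
    (fun l => by cases l <;> simp [xiT, th2_nonneg])
    (fun l => by cases l <;> simp [xiT] <;> exact th2_le.trans (th_le.trans (by norm_num)))
    (fun l => by cases l <;> simp [beT, th_pos.le])
    (fun l => by cases l <;> simp [beT] <;> exact th_le.trans (by norm_num))
    Th_nonneg Th_le (by norm_num) hcoordT φ hφ hφ1 hanti 0 ht ht1 hy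
  refine le_trans (EX_mono (fun _ l => w5_nonneg l) fun ω => ind_le_ind fun hω => ?_) h
  refine ⟨⟨∅, by simp, by simp, ?_⟩, hω.2⟩
  have hr : rt optT xiT (fun e => decide (e ∈ (∅ : Finset E))) ω = fun e => xiT (ω e) := by
    funext e
    simp [rt, optT]
  rw [hr]
  simpa using hω.1

/-- pointwise sampling bound -/
theorem sampling (φ : (E → Bool) → ℝ) (hφ : ∀ A, 0 ≤ φ A) (hφ1 : ∀ A, φ A ≤ 1) (κ N : ℕ)
    {t t' τ : ℝ} (hτ : 0 < τ) (hτ1 : τ ≤ 1) (ω : E → C5) :
    (∑ G : E → Bool, wG G * (if good φ κ t (fun e => ω e = .s) G (lab .h ω) then 1 else 0)) ^ N *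
      (if t' < ML φ (r5 ω ∅) then 1 else 0) ≤
      (1 - τ / 4) ^ N + 4 / τ * EX (fun _ => bw gam) (fun G : E → Bool =>
        if good φ κ t (fun e => ω e = .s) G (lab .h ω) ∧ τ / 2 ≤ ML φ (rB ω G) then 1 else 0) +
      (if ML φ (fun e => xiT (ω e)) ≤ τ ∧ t' ≤ ML φ (fun e => beT (ω e)) then 1 else 0) := by
  have hbw : ∀ (e : E) (b : Bool), 0 ≤ (fun _ : E => bw gam) e b :=
    fun _ b => bw_nonneg gam_pos.le gam_lt_one.le b
  have hbs : ∀ e : E, ∑ b, (fun _ : E => bw gam) e b = 1 := fun _ => sum_bw gam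
  rw [sum_wG]
  set q := EX (fun _ => bw gam) (fun G : E → Bool =>
    if good φ κ t (fun e => ω e = .s) G (lab .h ω) then (1 : ℝ) else 0) with hq
  set e1 := EX (fun _ => bw gam) (fun G : E → Bool =>
    if good φ κ t (fun e => ω e = .s) G (lab .h ω) ∧ τ / 2 ≤ ML φ (rB ω G) then (1 : ℝ) else 0)
    with he1
  have hq0 : 0 ≤ q := EX_nonneg hbw fun G => ind_nn
  have hq1 : q ≤ 1 := (EX_mono hbw (G := fun _ => 1) fun G => by split_ifs <;> norm_num).trans
    (le_of_eq (EX_one _ hbs 1))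
  have he0 : 0 ≤ e1 := EX_nonneg hbw fun G => ind_nn
  have hA : 0 ≤ (1 - τ / 4) ^ N := pow_nonneg (by linarith) N
  have hC : (0 : ℝ) ≤ if ML φ (fun e => xiT (ω e)) ≤ τ ∧ t' ≤ ML φ (fun e => beT (ω e)) then 1
      else 0 := ind_nn
  have hB : 0 ≤ 4 / τ * e1 := by positivity
  have hqN0 : 0 ≤ q ^ N := pow_nonneg hq0 N
  have hqN1 : q ^ N ≤ 1 := pow_le_one₀ hq0 hq1
  by_cases hψ : t' < ML φ (r5 ω ∅)
  · rw [if_pos hψ, mul_one]
    by_cases h1 : q ≤ 1 - τ / 4
    · have := pow_le_pow_left₀ hq0 h1 N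
      linarith
    · push Not at h1
      by_cases h2 : τ / 4 ≤ e1
      · have : 1 ≤ 4 / τ * e1 := by
          calc (1 : ℝ) = 4 / τ * (τ / 4) := by field_simp
            _ ≤ _ := mul_le_mul_of_nonneg_left h2 (by positivity)
        linarith
      · push Not at h2
        have h3 : ML φ (fun e => xiT (ω e)) ≤ τ := by
          rw [← avg_rB φ ω]
          have h4 : EX (fun _ => bw gam) (fun G : E → Bool => ML φ (rB ω G)) ≤
              EX (fun _ => bw gam) (fun G : E → Bool => (1 - (if good φ κ t (fun e => ω e = .s) G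
                (lab .h ω) then (1 : ℝ) else 0)) + (if good φ κ t (fun e => ω e = .s) G
                (lab .h ω) ∧ τ / 2 ≤ ML φ (rB ω G) then 1 else 0) + τ / 2) := by
            refine EX_mono hbw fun G => ?_
            have hM1 : ML φ (rB ω G) ≤ 1 := ML_le_one hφ1
              (fun e => by unfold rB; split_ifs <;> first | exact th3_nonneg | norm_num)
              (fun e => by unfold rB; split_ifs <;> first | exact th3_le | norm_num)
            by_cases hg : good φ κ t (fun e => ω e = .s) G (lab .h ω)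
            · by_cases hy : τ / 2 ≤ ML φ (rB ω G)
              · rw [if_pos hg, if_pos ⟨hg, hy⟩]
                linarith
              · rw [if_pos hg, if_neg (fun h => hy h.2)]
                linarith
            · rw [if_neg hg, if_neg (fun h => hg h.1)]
              linarith
          refine h4.trans ?_
          rw [EX_add, EX_add, EX_sub, EX_one _ hbs, EX_one _ hbs]
          linarith
        have h5 : (if ML φ (fun e => xiT (ω e)) ≤ τ ∧ t' ≤ ML φ (fun e => beT (ω e)) then (1 : ℝ)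
            else 0) = 1 := by
          rw [if_pos]
          refine ⟨h3, ?_⟩
          rw [← r5_empty]
          exact hψ.le
        linarith
  · rw [if_neg hψ, mul_zero]
    linarith

/-- the natural event, all pools of the upper level -/
theorem natural (φ : (E → Bool) → ℝ) (hφ : ∀ A, 0 ≤ φ A) (hφ1 : ∀ A, φ A ≤ 1)
    (hanti : Antitone φ) (κ : ℕ) (J : Finset P) (W : P → (E → Bool) → ℝ)
    (hW : ∀ l, ∑ G, W l G = 1) (hWJ : ∀ l ∈ J, W l = wG) {t t' τ : ℝ}
    (ht : 0 < t) (ht1 : t ≤ 1) (ht' : 0 < t') (hτ : 0 < τ) (hτ1 : τ ≤ 1) :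
    EX W (fun g : P → E → Bool => EX (fun _ => w5) (fun ω : E → C5 =>
      if (∀ l ∈ J, good φ κ t (fun e => ω e = .s) (g l) (lab .h ω)) ∧
        t' < ML φ (r5 ω ∅) then 1 else 0)) ≤
      (1 - τ / 4) ^ J.card + 4 / τ * ((2 * t) ^ 40 / (τ / 2) ^ (2 * 40 + 2)) +
        (2 * τ) ^ 40 / t' ^ (2 * 40 + 2) := by
  have hsw : EX W (fun g : P → E → Bool => EX (fun _ => w5) (fun ω : E → C5 =>
      if (∀ l ∈ J, good φ κ t (fun e => ω e = .s) (g l) (lab .h ω)) ∧
        t' < ML φ (r5 ω ∅) then (1 : ℝ) else 0)) =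
      EX (fun _ => w5) (fun ω : E → C5 => EX W (fun g : P → E → Bool =>
      if (∀ l ∈ J, good φ κ t (fun e => ω e = .s) (g l) (lab .h ω)) ∧
        t' < ML φ (r5 ω ∅) then (1 : ℝ) else 0)) := by
    unfold EX
    simp only [mul_sum]
    rw [sum_comm]
    refine sum_congr rfl fun ω _ => sum_congr rfl fun g _ => ?_
    ring
  rw [hsw]
  have hw0 : ∀ (e : E) (l : C5), 0 ≤ (fun _ : E => w5) e l := fun _ l => w5_nonneg l
  have hpt : ∀ ω : E → C5, EX W (fun g : P → E → Bool =>
      if (∀ l ∈ J, good φ κ t (fun e => ω e = .s) (g l) (lab .h ω)) ∧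
        t' < ML φ (r5 ω ∅) then (1 : ℝ) else 0) ≤
      (1 - τ / 4) ^ J.card + 4 / τ * EX (fun _ => bw gam) (fun G : E → Bool =>
        if good φ κ t (fun e => ω e = .s) G (lab .h ω) ∧ τ / 2 ≤ ML φ (rB ω G) then 1 else 0) +
      (if ML φ (fun e => xiT (ω e)) ≤ τ ∧ t' ≤ ML φ (fun e => beT (ω e)) then 1 else 0) := by
    intro ω
    refine le_trans (le_of_eq ?_) (sampling φ hφ hφ1 κ J.card hτ hτ1 ω)
    have h1 : (fun g : P → E → Bool =>
        if (∀ l ∈ J, good φ κ t (fun e => ω e = .s) (g l) (lab .h ω)) ∧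
          t' < ML φ (r5 ω ∅) then (1 : ℝ) else 0) =
        fun g => (if t' < ML φ (r5 ω ∅) then (1 : ℝ) else 0) * ∏ l ∈ J,
          (fun G : E → Bool => if good φ κ t (fun e => ω e = .s) G (lab .h ω) then (1 : ℝ) else 0)
            (g l) := by
      funext g
      rw [prod_ite_zero]
      by_cases hA : ∀ l ∈ J, good φ κ t (fun e => ω e = .s) (g l) (lab .h ω)
      · by_cases hB : t' < ML φ (r5 ω ∅)
        · simp [hB, hA]
        · simp [hB]
      · rw [if_neg (fun h => hA h.1), if_neg hA, mul_zero]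
    have h6 := EX_prodJ W hW J (fun G : E → Bool =>
      if good φ κ t (fun e => ω e = .s) G (lab .h ω) then (1 : ℝ) else 0)
    have h7 : ∏ l ∈ J, ∑ G, W l G * (if good φ κ t (fun e => ω e = .s) G (lab .h ω) then (1 : ℝ)
        else 0) = (∑ G : E → Bool, wG G * (if good φ κ t (fun e => ω e = .s) G (lab .h ω) then 1
        else 0)) ^ J.card := by
      rw [← prod_const]
      exact prod_congr rfl fun l hl => by rw [hWJ l hl]
    rw [h1, EX_mul, mul_comm]
    refine congrArg (fun x : ℝ => x * _) ?_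
    refine Eq.trans ?_ (h6.trans h7)
    congr
  refine (EX_mono hw0 hpt).trans ?_
  rw [EX_add, EX_add, EX_mul, EX_one _ (fun _ => w5_sum)]
  have h2 := natJ φ hφ hφ1 hanti κ (t := t) (y := τ / 2) ht ht1 (by positivity)
  have h3 := natT φ hφ hφ1 hanti (t := τ) (y := t') hτ hτ1 ht'
  have h4 := mul_le_mul_of_nonneg_left h2 (by positivity : 0 ≤ 4 / τ)
  linarith

end

end Vale.Agent.P331.H66
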