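import Vale.Agent.P331.H489.Ex

/-!
# Multilinear extensions of set functions
-/

set_option autoImplicit false
set_option linter.unusedSectionVars false

namespace Vale.Agent.P331.H66

open Finset Vale.Agent.P331.H489

/-- weights of a coin -/
def bw (x : ℝ) : Bool → ℝ
  | true => x
  | false => 1 - x

theorem sum_bw (x : ℝ) : ∑ b, bw x b = 1 := by
  rw [Fintype.sum_bool]
  simp [bw]

theorem bw_nonneg {x : ℝ} (h0 : 0 ≤ x) (h1 : x ≤ 1) (b : Bool) : 0 ≤ bw x b := by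
  cases b
  · exact sub_nonneg.2 h1
  · exact h0

section

variable {E E' L : Type*} [Fintype E] [DecidableEq E] [Fintype E'] [DecidableEq E']
  [Fintype L] [DecidableEq L]

/-- the multilinear extension of `φ` : the expectation of `φ` at the random set in which the
element `e` occurs with probability `r e` -/
def ML (φ : (E → Bool) → ℝ) (r : E → ℝ) : ℝ := EX (fun e => bw (r e)) φ

theorem ML_nonneg {φ : (E → Bool) → ℝ} {r : E → ℝ} (h : ∀ A, 0 ≤ φ A) (h0 : ∀ e, 0 ≤ r e)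
    (h1 : ∀ e, r e ≤ 1) : 0 ≤ ML φ r :=
  EX_nonneg (fun e l => bw_nonneg (h0 e) (h1 e) l) h

theorem ML_mono {φ ψ : (E → Bool) → ℝ} {r : E → ℝ} (h : ∀ A, φ A ≤ ψ A) (h0 : ∀ e, 0 ≤ r e)
    (h1 : ∀ e, r e ≤ 1) : ML φ r ≤ ML ψ r :=
  EX_mono (fun e l => bw_nonneg (h0 e) (h1 e) l) h

theorem ML_const (c : ℝ) (r : E → ℝ) : ML (fun _ => c) r = c :=
  EX_one _ (fun e => sum_bw (r e)) c

theorem ML_add (φ ψ : (E → Bool) → ℝ) (r : E → ℝ) :
    ML (fun A => φ A + ψ A) r = ML φ r + ML ψ r := EX_add _ _ _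

theorem ML_sub (φ ψ : (E → Bool) → ℝ) (r : E → ℝ) :
    ML (fun A => φ A - ψ A) r = ML φ r - ML ψ r := EX_sub _ _ _

theorem ML_le_one {φ : (E → Bool) → ℝ} {r : E → ℝ} (h : ∀ A, φ A ≤ 1) (h0 : ∀ e, 0 ≤ r e)
    (h1 : ∀ e, r e ≤ 1) : ML φ r ≤ 1 :=
  (ML_mono h h0 h1).trans (le_of_eq (ML_const 1 r))

/-- mixing the rates -/
theorem ML_mix (w : E → L → ℝ) (hw : ∀ e, ∑ l, w e l = 1) (ρ : E → L → ℝ)
    (φ : (E → Bool) → ℝ) :
    EX w (fun ω => ML φ (fun e => ρ e (ω e))) = ML φ (fun e => ∑ l, w e l * ρ e l) := by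
  unfold ML EX
  simp only [mul_sum]
  rw [sum_comm]
  refine sum_congr rfl fun A _ => ?_
  have h1 : ∀ ω : E → L, (∏ e, w e (ω e)) * ((∏ e, bw (ρ e (ω e)) (A e)) * φ A) =
      (∏ e, (w e (ω e) * bw (ρ e (ω e)) (A e))) * φ A := by
    intro ω
    rw [prod_mul_distrib]
    ring
  simp only [h1]
  rw [← sum_mul]
  congr 1
  have h2 : ∀ e, bw (∑ l, w e l * ρ e l) (A e) = ∑ l, w e l * bw (ρ e l) (A e) := by
    intro e
    cases A e
    · simp only [bw, mul_sub, mul_one, sum_sub_distrib, hw e]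
    · simp only [bw]
  rw [prod_congr rfl fun e _ => h2 e, Finset.prod_univ_sum, Fintype.piFinset_univ]

/-- changing an irrelevant rate -/
theorem ML_congr_supp {φ ψ : (E → Bool) → ℝ} {r : E → ℝ}
    (h : ∀ A : E → Bool, (∀ e, A e = true → r e ≠ 0) → φ A = ψ A) : ML φ r = ML ψ r := by
  unfold ML EX
  refine sum_congr rfl fun A _ => ?_
  by_cases hA : ∀ e, A e = true → r e ≠ 0
  · rw [h A hA]
  · push Not at hA
    obtain ⟨e, he, hr⟩ := hA
    rw [prod_eq_zero (mem_univ e), zero_mul, zero_mul]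
    change bw (r e) (A e) = 0
    rw [he, hr]
    rfl

/-- renaming -/
theorem ML_reindex (σ : E ≃ E') (φ : (E → Bool) → ℝ) (r : E → ℝ) :
    ML φ r = ML (fun A : E' → Bool => φ (A ∘ σ)) (fun e' => r (σ.symm e')) :=
  EX_reindex σ _ _

theorem ML_cons {n : ℕ} (φ : (Fin (n + 1) → Bool) → ℝ) (r : Fin (n + 1) → ℝ) :
    ML φ r = (1 - r 0) * ML (fun A => φ (Fin.cons false A)) (fun i => r i.succ) +
      r 0 * ML (fun A => φ (Fin.cons true A)) (fun i => r i.succ) := by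
  unfold ML
  rw [EX_cons, Fintype.sum_bool, add_comm]
  rfl

/-- independence of one coordinate -/
theorem EX_indep (w : E → L → ℝ) (hw : ∀ e, ∑ l, w e l = 1) (e : E) (l₀ : L)
    (F : (E → L) → ℝ) (hF : ∀ ω l, F (Function.update ω e l) = F ω) :
    EX w (fun ω => if ω e = l₀ then F ω else 0) = w e l₀ * EX w F := by
  rw [EX_cond e l₀ l₀]
  congr 1
  rw [EX_split e l₀ w F]
  simp only [hF]
  rw [← sum_mul, hw e, one_mul]

end

end Vale.Agent.P331.H66
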