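import Vale.Agent.P331.H66.ML

/-!
# Functional inequalities on independent labels
-/

set_option autoImplicit false
set_option linter.unusedSectionVars false

namespace Vale.Agent.P331.H66

open Finset Vale.Agent.P331.H489

section

variable {L : Type*} [Fintype L] [DecidableEq L]

/-- one step of the lower functional -/
noncomputable def gl (opt : L → Bool) (ξ : L → ℝ) (l : L) (C A : ℝ) : ℝ :=
  if opt l then min C (2 * A) else (1 - ξ l) * C + ξ l * A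

/-- the lower functional -/
noncomputable def XI (opt : L → Bool) (ξ : L → ℝ) :
    (n : ℕ) → ((Fin n → Bool) → ℝ) → (Fin n → L) → ℝ
  | 0, φ, _ => φ Fin.elim0
  | n + 1, φ, μ => gl opt ξ (μ 0)
      (XI opt ξ n (fun A => φ (Fin.cons false A)) (fun i => μ i.succ))
      (XI opt ξ n (fun A => φ (Fin.cons true A)) (fun i => μ i.succ))

theorem gl_pos {opt : L → Bool} {ξ : L → ℝ} (h0 : ∀ l, 0 ≤ ξ l) (h1 : ∀ l, ξ l ≤ 1) (l : L)
    {C A : ℝ} (hC : 0 < C) (hA : 0 < A) : 0 < gl opt ξ l C A := by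
  unfold gl
  split_ifs
  · exact lt_min hC (by linarith)
  · rcases (h0 l).eq_or_lt with h | h
    · rw [← h]
      linarith
    · have := mul_pos h hA
      have := mul_nonneg (sub_nonneg.2 (h1 l)) hC.le
      linarith

theorem gl_mono {opt : L → Bool} {ξ : L → ℝ} (h0 : ∀ l, 0 ≤ ξ l) (h1 : ∀ l, ξ l ≤ 1) (l : L)
    {C A C' A' : ℝ} (hC : C ≤ C') (hA : A ≤ A') : gl opt ξ l C A ≤ gl opt ξ l C' A' := by
  unfold gl
  split_ifs
  · exact min_le_min hC (by linarith)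
  · exact add_le_add (mul_le_mul_of_nonneg_left hC (sub_nonneg.2 (h1 l)))
      (mul_le_mul_of_nonneg_left hA (h0 l))

theorem XI_pos {opt : L → Bool} {ξ : L → ℝ} (h0 : ∀ l, 0 ≤ ξ l) (h1 : ∀ l, ξ l ≤ 1) :
    ∀ (n : ℕ) (φ : (Fin n → Bool) → ℝ) (_ : ∀ A, 0 < φ A) (μ : Fin n → L), 0 < XI opt ξ n φ μ
  | 0, _, h, _ => h _
  | n + 1, φ, h, μ => gl_pos h0 h1 _ (XI_pos h0 h1 n _ (fun _ => h _) _)
      (XI_pos h0 h1 n _ (fun _ => h _) _)

theorem XI_mono {opt : L → Bool} {ξ : L → ℝ} (h0 : ∀ l, 0 ≤ ξ l) (h1 : ∀ l, ξ l ≤ 1) :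
    ∀ (n : ℕ) (φ ψ : (Fin n → Bool) → ℝ) (_ : ∀ A, φ A ≤ ψ A) (μ : Fin n → L),
      XI opt ξ n φ μ ≤ XI opt ξ n ψ μ
  | 0, _, _, h, _ => h _
  | n + 1, _, _, h, μ => gl_mono h0 h1 _ (XI_mono h0 h1 n _ _ (fun _ => h _) _)
      (XI_mono h0 h1 n _ _ (fun _ => h _) _)

/-- the rates of a set `Y` of optional elements -/
noncomputable def rt {ι : Type*} (opt : L → Bool) (ξ : L → ℝ) (Y : ι → Bool) (μ : ι → L)
    (i : ι) : ℝ :=
  if Y i then 1 else if opt (μ i) then 0 else ξ (μ i)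

theorem XI_le {opt : L → Bool} {ξ : L → ℝ} (h0 : ∀ l, 0 ≤ ξ l) (h1 : ∀ l, ξ l ≤ 1) :
    ∀ (n : ℕ) (φ : (Fin n → Bool) → ℝ) (_ : ∀ A, 0 ≤ φ A) (μ : Fin n → L) (Y : Fin n → Bool)
      (_ : ∀ i, Y i = true → opt (μ i) = true),
      XI opt ξ n φ μ ≤ (∏ i, if Y i then (2 : ℝ) else 1) * ML φ (rt opt ξ Y μ)
  | 0, φ, h, μ, Y, hY => by
    simp only [XI, ML, EX, Fintype.sum_unique, univ_eq_empty, prod_empty, one_mul]
    exact le_of_eq (congrArg φ (Subsingleton.elim _ _))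
  | n + 1, φ, h, μ, Y, hY => by
    have ih0 := XI_le h0 h1 n (fun A => φ (Fin.cons false A)) (fun A => h _)
      (fun i => μ i.succ) (fun i => Y i.succ) (fun i hi => hY _ hi)
    have ih1 := XI_le h0 h1 n (fun A => φ (Fin.cons true A)) (fun A => h _)
      (fun i => μ i.succ) (fun i => Y i.succ) (fun i hi => hY _ hi)
    rw [ML_cons, Fin.prod_univ_succ]
    have e : (fun i : Fin n => rt opt ξ Y μ i.succ) =
        rt opt ξ (fun i : Fin n => Y i.succ) (fun i => μ i.succ) := rfl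
    rw [e]
    set P := ∏ i : Fin n, if Y i.succ then (2 : ℝ) else 1 with hP
    set M0 := ML (fun A => φ (Fin.cons false A)) (rt opt ξ (fun i : Fin n => Y i.succ)
      (fun i => μ i.succ)) with hM0
    set M1 := ML (fun A => φ (Fin.cons true A)) (rt opt ξ (fun i : Fin n => Y i.succ)
      (fun i => μ i.succ)) with hM1
    change gl opt ξ (μ 0) _ _ ≤ _
    by_cases hy : Y 0 = true
    · have ho := hY 0 hy
      have hr : rt opt ξ Y μ 0 = 1 := by simp [rt, hy]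
      rw [hr, gl, if_pos ho, if_pos hy]
      refine (min_le_right _ _).trans ?_
      linarith
    · have hy' : Y 0 = false := by simpa using hy
      by_cases ho : opt (μ 0) = true
      · have hr : rt opt ξ Y μ 0 = 0 := by simp [rt, hy', ho]
        rw [hr, gl, if_pos ho, if_neg hy]
        refine (min_le_left _ _).trans ?_
        linarith
      · have hr : rt opt ξ Y μ 0 = ξ (μ 0) := by simp [rt, hy', ho]
        rw [hr, gl, if_neg ho, if_neg hy]
        have := mul_le_mul_of_nonneg_left ih0 (sub_nonneg.2 (h1 (μ 0)))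
        have := mul_le_mul_of_nonneg_left ih1 (h0 (μ 0))
        linarith

theorem cons_le_cons {n : ℕ} (A : Fin n → Bool) :
    (Fin.cons false A : Fin (n + 1) → Bool) ≤ Fin.cons true A := by
  intro i
  refine Fin.cases ?_ (fun j => ?_) i
  · simp
  · simp

theorem cons_mono {n : ℕ} (b : Bool) {A A' : Fin n → Bool} (h : A ≤ A') :
    (Fin.cons b A : Fin (n + 1) → Bool) ≤ Fin.cons b A' := by
  intro i
  refine Fin.cases ?_ (fun j => ?_) i
  · simp
  · simpa using h j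

/-- the functional inequality on `Fin n` -/
theorem func_ineq {w : L → ℝ} (hw0 : ∀ l, 0 ≤ w l) {opt : L → Bool} {ξ β : L → ℝ}
    (hξ0 : ∀ l, 0 ≤ ξ l) (hξ1 : ∀ l, ξ l ≤ 1) (hβ0 : ∀ l, 0 ≤ β l) (hβ1 : ∀ l, β l ≤ 1)
    {Θ : ℝ} (hΘ0 : 0 ≤ Θ) (hΘ1 : Θ ≤ 1) {m k : ℕ}
    (hcoord : ∀ B0 B1 C A : ℝ, 0 ≤ B1 → B1 ≤ B0 → 0 < A → A ≤ C →
      ∑ l, w l * (((1 - β l) * B0 + β l * B1) ^ m / (gl opt ξ l C A) ^ k) ≤
        (1 - Θ) * (B0 ^ m / C ^ k) + Θ * (B1 ^ m / A ^ k)) :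
    ∀ (n : ℕ) (φ : (Fin n → Bool) → ℝ) (_ : ∀ A, 0 < φ A) (_ : Antitone φ),
      EX (fun _ => w) (fun μ => (ML φ (fun i => β (μ i))) ^ m / (XI opt ξ n φ μ) ^ k) ≤
        EX (fun _ => bw Θ) (fun A => φ A ^ m / φ A ^ k)
  | 0, φ, _, _ => by
    simp only [XI, ML, EX, Fintype.sum_unique, univ_eq_empty, prod_empty, one_mul]
    refine le_of_eq (congrArg₂ (fun x y : ℝ => x ^ m / y ^ k) ?_ ?_) <;>
      exact congrArg φ (Subsingleton.elim _ _)
  | n + 1, φ, hφ, hanti => by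
    have ih0 := func_ineq hw0 hξ0 hξ1 hβ0 hβ1 hΘ0 hΘ1 hcoord n
      (fun A => φ (Fin.cons false A)) (fun A => hφ _) (fun A A' h => hanti (cons_mono _ h))
    have ih1 := func_ineq hw0 hξ0 hξ1 hβ0 hβ1 hΘ0 hΘ1 hcoord n
      (fun A => φ (Fin.cons true A)) (fun A => hφ _) (fun A A' h => hanti (cons_mono _ h))
    rw [EX_cons, EX_cons, Fintype.sum_bool]
    have e1 : ∀ (l : L) (μ : Fin n → L), (ML φ (fun i => β ((Fin.cons l μ : Fin (n + 1) → L) i))) =
        (1 - β l) * ML (fun A => φ (Fin.cons false A)) (fun i => β (μ i)) +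
          β l * ML (fun A => φ (Fin.cons true A)) (fun i => β (μ i)) := by
      intro l μ
      rw [ML_cons]
      rfl
    have e2 : ∀ (l : L) (μ : Fin n → L), XI opt ξ (n + 1) φ (Fin.cons l μ) =
        gl opt ξ l (XI opt ξ n (fun A => φ (Fin.cons false A)) μ)
          (XI opt ξ n (fun A => φ (Fin.cons true A)) μ) := fun l μ => rfl
    simp only [e1, e2]
    simp only [← EX_mul]
    rw [← EX_sum]
    have hle : ∀ A : Fin n → Bool, φ (Fin.cons true A) ≤ φ (Fin.cons false A) :=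
      fun A => hanti (cons_le_cons A)
    have step : EX (fun _ => w) (fun μ : Fin n → L => ∑ l, w l *
        (((1 - β l) * ML (fun A => φ (Fin.cons false A)) (fun i => β (μ i)) +
          β l * ML (fun A => φ (Fin.cons true A)) (fun i => β (μ i))) ^ m /
        (gl opt ξ l (XI opt ξ n (fun A => φ (Fin.cons false A)) μ)
          (XI opt ξ n (fun A => φ (Fin.cons true A)) μ)) ^ k)) ≤
        EX (fun _ => w) (fun μ : Fin n → L =>
          (1 - Θ) * ((ML (fun A => φ (Fin.cons false A)) (fun i => β (μ i))) ^ m /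
            (XI opt ξ n (fun A => φ (Fin.cons false A)) μ) ^ k) +
          Θ * ((ML (fun A => φ (Fin.cons true A)) (fun i => β (μ i))) ^ m /
            (XI opt ξ n (fun A => φ (Fin.cons true A)) μ) ^ k)) := by
      refine EX_mono (fun _ l => hw0 l) fun μ => hcoord _ _ _ _ ?_ ?_ ?_ ?_
      · exact ML_nonneg (fun A => (hφ _).le) (fun i => hβ0 _) (fun i => hβ1 _)
      · exact ML_mono hle (fun i => hβ0 _) (fun i => hβ1 _)
      · exact XI_pos hξ0 hξ1 n _ (fun A => hφ _) μ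
      · exact XI_mono hξ0 hξ1 n _ _ hle μ
    refine step.trans ?_
    rw [EX_add, EX_mul, EX_mul]
    have a0 := mul_le_mul_of_nonneg_left ih0 (sub_nonneg.2 hΘ1)
    have a1 := mul_le_mul_of_nonneg_left ih1 hΘ0
    have b1 : bw Θ true = Θ := rfl
    have b2 : bw Θ false = 1 - Θ := rfl
    rw [EX_mul, EX_mul, b1, b2]
    linarith

end

section

variable {E L : Type*} [Fintype E] [DecidableEq E] [Fintype L] [DecidableEq L]

/-- the functional inequality on a finite set -/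
theorem func_ineq_E {w : L → ℝ} (hw0 : ∀ l, 0 ≤ w l) {opt : L → Bool} {ξ β : L → ℝ}
    (hξ0 : ∀ l, 0 ≤ ξ l) (hξ1 : ∀ l, ξ l ≤ 1) (hβ0 : ∀ l, 0 ≤ β l) (hβ1 : ∀ l, β l ≤ 1)
    {Θ : ℝ} (hΘ0 : 0 ≤ Θ) (hΘ1 : Θ ≤ 1) {m k : ℕ} (hkm : k ≤ m)
    (hcoord : ∀ B0 B1 C A : ℝ, 0 ≤ B1 → B1 ≤ B0 → 0 < A → A ≤ C →
      ∑ l, w l * (((1 - β l) * B0 + β l * B1) ^ m / (gl opt ξ l C A) ^ k) ≤
        (1 - Θ) * (B0 ^ m / C ^ k) + Θ * (B1 ^ m / A ^ k))
    (φ : (E → Bool) → ℝ) (hφ : ∀ A, 0 < φ A) (hφ1 : ∀ A, φ A ≤ 1) (hanti : Antitone φ) :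
    ∃ Ξ : (E → L) → ℝ, (∀ μ, 0 < Ξ μ) ∧
      (∀ (μ : E → L) (Y : E → Bool), (∀ e, Y e = true → opt (μ e) = true) →
        Ξ μ ≤ (∏ e, if Y e then (2 : ℝ) else 1) * ML φ (rt opt ξ Y μ)) ∧
      EX (fun _ => w) (fun μ : E → L => (ML φ (fun e => β (μ e))) ^ m / (Ξ μ) ^ k) ≤ 1 := by
  set n := Fintype.card E with hn
  set σ : E ≃ Fin n := Fintype.equivFin E with hσ
  set φ' : (Fin n → Bool) → ℝ := fun A => φ (A ∘ σ) with hφ'
  have hφ'0 : ∀ A, 0 < φ' A := fun A => hφ _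
  have hanti' : Antitone φ' := fun A A' h => hanti fun e => h (σ e)
  refine ⟨fun μ => XI opt ξ n φ' (μ ∘ σ.symm), fun μ => XI_pos hξ0 hξ1 n φ' hφ'0 _, ?_, ?_⟩
  · intro μ Y hY
    have h := XI_le (opt := opt) hξ0 hξ1 n φ' (fun A => (hφ'0 A).le) (μ ∘ σ.symm) (Y ∘ σ.symm)
      (fun i hi => hY _ hi)
    refine h.trans (le_of_eq ?_)
    rw [ML_reindex σ φ (rt opt ξ Y μ)]
    congr 1
    rw [← Equiv.prod_comp σ]
    refine prod_congr rfl fun e _ => ?_
    simp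
  · have h := func_ineq hw0 (opt := opt) hξ0 hξ1 hβ0 hβ1 hΘ0 hΘ1 hcoord n φ' hφ'0 hanti'
    rw [EX_reindex σ (fun _ : E => w)]
    refine le_trans (le_of_eq ?_) (h.trans ?_)
    · congr 1
      funext μ
      have e1 : ML φ (fun e => β ((μ ∘ σ) e)) = ML φ' (fun i => β (μ i)) := by
        rw [ML_reindex σ φ]
        congr 1
        funext i
        simp
      have e2 : (μ ∘ σ) ∘ σ.symm = μ := by
        funext i
        simp
      change _ / (XI opt ξ n φ' ((μ ∘ σ) ∘ σ.symm)) ^ k = _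
      rw [e1, e2]
    · refine (EX_mono (fun _ b => bw_nonneg hΘ0 hΘ1 b) (G := fun _ => 1) fun A => ?_).trans
        (le_of_eq (EX_one _ (fun _ => sum_bw Θ) 1))
      rw [div_le_one (pow_pos (hφ'0 A) _)]
      exact pow_le_pow_of_le_one (hφ'0 A).le (hφ1 _) hkm

open Classical in
/-- the event form of the functional inequality -/
theorem event_ineq {w : L → ℝ} (hw0 : ∀ l, 0 ≤ w l) {opt : L → Bool} {ξ β : L → ℝ}
    (hξ0 : ∀ l, 0 ≤ ξ l) (hξ1 : ∀ l, ξ l ≤ 1) (hβ0 : ∀ l, 0 ≤ β l) (hβ1 : ∀ l, β l ≤ 1)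
    {Θ : ℝ} (hΘ0 : 0 ≤ Θ) (hΘ1 : Θ ≤ 1) {m k : ℕ} (hkm : k ≤ m)
    (hcoord : ∀ B0 B1 C A : ℝ, 0 ≤ B1 → B1 ≤ B0 → 0 < A → A ≤ C →
      ∑ l, w l * (((1 - β l) * B0 + β l * B1) ^ m / (gl opt ξ l C A) ^ k) ≤
        (1 - Θ) * (B0 ^ m / C ^ k) + Θ * (B1 ^ m / A ^ k))
    (φ : (E → Bool) → ℝ) (hφ : ∀ A, 0 ≤ φ A) (hφ1 : ∀ A, φ A ≤ 1) (hanti : Antitone φ)
    (κ : ℕ) {t y : ℝ} (ht : 0 < t) (ht1 : t ≤ 1) (hy : 0 < y) :
    EX (fun _ => w) (fun μ : E → L => if (∃ Y : Finset E, (∀ e ∈ Y, opt (μ e) = true) ∧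
      Y.card ≤ κ ∧ 2 ^ Y.card * ML φ (rt opt ξ (fun e => decide (e ∈ Y)) μ) ≤ t) ∧
      y ≤ ML φ (fun e => β (μ e)) then 1 else 0) ≤ (2 * t) ^ k / y ^ m := by
  set ε : ℝ := t / 2 ^ κ with hε
  have hε0 : 0 < ε := by positivity
  have hε1 : ε ≤ 1 := by
    rw [hε, div_le_one (by positivity)]
    exact ht1.trans (one_le_pow₀ (by norm_num))
  obtain ⟨Ξ, h1, h2, h3⟩ := func_ineq_E hw0 (opt := opt) hξ0 hξ1 hβ0 hβ1 hΘ0 hΘ1 hkm hcoord
    (fun A => max (φ A) ε) (fun A => lt_max_of_lt_right hε0) (fun A => max_le (hφ1 A) hε1)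
    (fun A A' h => max_le_max (hanti h) le_rfl)
  have hc : 0 ≤ (2 * t) ^ k / y ^ m := by positivity
  refine (EX_mono (fun _ l => hw0 l) (G := fun μ => (2 * t) ^ k / y ^ m *
    ((ML (fun A => max (φ A) ε) (fun e => β (μ e))) ^ m / (Ξ μ) ^ k)) fun μ => ?_).trans ?_
  · have hB0 : 0 ≤ ML (fun A => max (φ A) ε) (fun e => β (μ e)) :=
      ML_nonneg (fun A => le_max_of_le_left (hφ A)) (fun e => hβ0 _) (fun e => hβ1 _)
    split_ifs with hev
    · obtain ⟨⟨Y, hY, hYc, hYt⟩, hyB⟩ := hev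
      have hB : y ≤ ML (fun A => max (φ A) ε) (fun e => β (μ e)) :=
        hyB.trans (ML_mono (fun A => le_max_left _ _) (fun e => hβ0 _) (fun e => hβ1 _))
      have hr0 : ∀ e, 0 ≤ rt opt ξ (fun e => decide (e ∈ Y)) μ e := by
        intro e
        unfold rt
        split_ifs
        · norm_num
        · norm_num
        · exact hξ0 _
      have hr1 : ∀ e, rt opt ξ (fun e => decide (e ∈ Y)) μ e ≤ 1 := by
        intro e
        unfold rt
        split_ifs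
        · norm_num
        · norm_num
        · exact hξ1 _
      have hX : Ξ μ ≤ 2 * t := by
        have h4 := h2 μ (fun e => decide (e ∈ Y)) (fun e he => hY e (by simpa using he))
        have h5 : (∏ e, if (decide (e ∈ Y)) = true then (2 : ℝ) else 1) = 2 ^ Y.card := by
          simp only [decide_eq_true_eq]
          rw [prod_ite_mem, univ_inter, prod_const]
        rw [h5] at h4
        have h6 : ML (fun A => max (φ A) ε) (rt opt ξ (fun e => decide (e ∈ Y)) μ) ≤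
            ML φ (rt opt ξ (fun e => decide (e ∈ Y)) μ) + ε := by
          refine (ML_mono (ψ := fun A => φ A + ε) (fun A => ?_) hr0 hr1).trans (le_of_eq ?_)
          · exact max_le (by linarith) (by linarith [hφ A])
          · rw [ML_add, ML_const]
        have h7 : (2 : ℝ) ^ Y.card * ε ≤ t := by
          have : (2 : ℝ) ^ Y.card ≤ 2 ^ κ := pow_le_pow_right₀ (by norm_num) hYc
          calc (2 : ℝ) ^ Y.card * ε ≤ 2 ^ κ * ε := mul_le_mul_of_nonneg_right this hε0.le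
            _ = t := by rw [hε]; field_simp
        have h8 := mul_le_mul_of_nonneg_left h6 (by positivity : (0 : ℝ) ≤ 2 ^ Y.card)
        linarith
      have h9 : y ^ m / (2 * t) ^ k ≤
          (ML (fun A => max (φ A) ε) (fun e => β (μ e))) ^ m / (Ξ μ) ^ k :=
        div_le_div₀ (by positivity) (pow_le_pow_left₀ hy.le hB m) (pow_pos (h1 μ) k)
          (pow_le_pow_left₀ (h1 μ).le hX k)
      calc (1 : ℝ) = (2 * t) ^ k / y ^ m * (y ^ m / (2 * t) ^ k) := by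
            field_simp
        _ ≤ _ := mul_le_mul_of_nonneg_left h9 hc
    · have := pow_pos (h1 μ) k
      positivity
  · rw [EX_mul]
    exact mul_le_of_le_one_right hc h3

end

end Vale.Agent.P331.H66
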