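import Vale.Agent.P331.H66.Step

/-!
# Relevance of one element, and independence of the labels
-/

set_option autoImplicit false
set_option linter.unusedSectionVars false

namespace Vale.Agent.P331.H66

open Finset Vale.Agent.P331.H489 Vale.Agent.P331.H379
open scoped Classical

section

variable {E P : Type} [Fintype E] [Fintype P]

/-- relevance for one pool -/
theorem rel_one (π : (E → Bool) → ℝ) (hπ : ∀ A, 0 ≤ π A) (hπ1 : ∀ A, π A ≤ 1) (i : ℕ) (q : P)
    (κ : ℕ) {d : ℝ} (hd : 0 < d) :
    EX (fun _ : P => (wG : (E → Bool) → ℝ)) (fun g => EX (fun _ => w4) (fun c : E → C4 =>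
      if ∃ Y : Finset E, (∀ e ∈ Y, c e = .v) ∧ Y.card ≤ κ ∧
        d ≤ ML π (rg (fun e => c e = reg i) (g q) Y) then 1 else 0)) ≤
      (2 ^ κ / d) ^ 4 * (ML π (fun _ => Th)) ^ 2 := by
  have h := hc_event (E := E) (w := w4b) (opt := optH) (ξ := xiH (reg i)) (Θ := Th)
    (fun l => mul_nonneg (w4_nonneg _) (bw_nonneg gam_pos.le gam_lt_one.le _))
    (fun l => by unfold xiH; split_ifs <;> [norm_num; exact th_pos.le; norm_num])
    (fun l => by
      unfold xiH
      split_ifs
      · norm_num
      · exact th_le.trans (by norm_num)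
      · norm_num)
    Th_nonneg Th_le (hcoordH (reg i) (reg_cases i)) π hπ hπ1 κ hd
  refine le_trans (le_of_eq ?_) h
  have h1 : EX (fun _ : P => (wG : (E → Bool) → ℝ)) (fun g => EX (fun _ => w4) (fun c : E → C4 =>
      if ∃ Y : Finset E, (∀ e ∈ Y, c e = .v) ∧ Y.card ≤ κ ∧
        d ≤ ML π (rg (fun e => c e = reg i) (g q) Y) then (1 : ℝ) else 0)) =
      EX (fun _ => w4) (fun c : E → C4 => EX (fun _ : P => (wG : (E → Bool) → ℝ)) (fun g =>
      ∏ l ∈ ({q} : Finset P), (fun G : E → Bool => if ∃ Y : Finset E, (∀ e ∈ Y, c e = .v) ∧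
        Y.card ≤ κ ∧ d ≤ ML π (rg (fun e => c e = reg i) G Y) then (1 : ℝ) else 0) (g l))) := by
    simp only [prod_singleton]
    unfold EX
    simp only [mul_sum]
    rw [sum_comm]
    refine sum_congr rfl fun ω _ => sum_congr rfl fun g _ => ?_
    ring
  have h2 : ∀ c : E → C4, EX (fun _ : P => (wG : (E → Bool) → ℝ)) (fun g =>
      ∏ l ∈ ({q} : Finset P), (fun G : E → Bool => if ∃ Y : Finset E, (∀ e ∈ Y, c e = .v) ∧
        Y.card ≤ κ ∧ d ≤ ML π (rg (fun e => c e = reg i) G Y) then (1 : ℝ) else 0) (g l)) =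
      EX (fun _ => bw gam) (fun G : E → Bool => if ∃ Y : Finset E, (∀ e ∈ Y, c e = .v) ∧
        Y.card ≤ κ ∧ d ≤ ML π (rg (fun e => c e = reg i) G Y) then (1 : ℝ) else 0) := by
    intro c
    have h3 := EX_prodJ (fun _ : P => (wG : (E → Bool) → ℝ)) (fun _ => wG_sum) {q}
      (fun G : E → Bool => if ∃ Y : Finset E, (∀ e ∈ Y, c e = .v) ∧
        Y.card ≤ κ ∧ d ≤ ML π (rg (fun e => c e = reg i) G Y) then (1 : ℝ) else 0)
    rw [← sum_wG]
    refine Eq.trans ?_ (h3.trans (prod_singleton _ _))
    congr
  rw [h1]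
  simp only [h2]
  have h4 := EX_prod (fun _ : E => w4) (fun _ : E => bw gam) (fun c G =>
    if ∃ Y : Finset E, (∀ e ∈ Y, c e = .v) ∧
        Y.card ≤ κ ∧ d ≤ ML π (rg (fun e => c e = reg i) G Y) then (1 : ℝ) else 0)
  rw [← h4]
  have hw : (fun (e : E) (x : C4 × Bool) => w4 x.1 * bw gam x.2) = fun _ => w4b := rfl
  rw [hw]
  congr 1
  funext τ
  have hr : ∀ Y : Finset E, (∀ e ∈ Y, (τ e).1 = .v) →
      rg (fun e => (τ e).1 = reg i) (fun e => (τ e).2) Y =
        rt optH (xiH (reg i)) (fun e => decide (e ∈ Y)) τ := by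
    intro Y hY
    funext e
    unfold rg rt optH xiH
    by_cases he : e ∈ Y
    · simp [he]
    · simp only [he, if_false, decide_false, Bool.false_eq_true, decide_eq_true_eq]
      by_cases h3 : (τ e).1 = .v
      · have : (τ e).1 ≠ reg i := by
          rw [h3]
          rcases reg_cases i with h' | h' <;> rw [h'] <;> decide
        rw [if_neg this, if_pos h3]
      · rw [if_neg h3]
  refine if_congr ?_ rfl rfl
  refine exists_congr fun Y => ?_
  constructor
  · rintro ⟨hY, h3, h5⟩
    refine ⟨fun e he => ?_, h3, ?_⟩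
    · unfold optH
      simpa using hY e he
    · rw [← hr Y hY]
      exact h5
  · rintro ⟨hY, h3, h5⟩
    have hY' : ∀ e ∈ Y, (τ e).1 = .v := fun e he => by
      have := hY e he
      unfold optH at this
      simpa using this
    refine ⟨hY', h3, ?_⟩
    rw [hr Y hY']
    exact h5

/-- the expectation over pools and labels -/
noncomputable def EXX (F : (P → E → Bool) → (E → C4) → ℝ) : ℝ :=
  EX (fun _ : P => (wG : (E → Bool) → ℝ)) (fun g => EX (fun _ => w4) (fun c : E → C4 => F g c))

theorem EXX_mono {F G : (P → E → Bool) → (E → C4) → ℝ} (h : ∀ g c, F g c ≤ G g c) :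
    EXX F ≤ EXX G :=
  EX_mono (fun _ G => wG_nonneg G) fun g => EX_mono (fun _ l => w4_nonneg l) fun c => h g c

theorem EXX_nonneg {F : (P → E → Bool) → (E → C4) → ℝ} (h : ∀ g c, 0 ≤ F g c) : 0 ≤ EXX F :=
  EX_nonneg (fun _ G => wG_nonneg G) fun g => EX_nonneg (fun _ l => w4_nonneg l) fun c => h g c

theorem EXX_add (F G : (P → E → Bool) → (E → C4) → ℝ) :
    EXX (fun g c => F g c + G g c) = EXX F + EXX G := by
  unfold EXX
  simp only [EX_add]

theorem EXX_sum {ι : Type*} (s : Finset ι) (F : ι → (P → E → Bool) → (E → C4) → ℝ) :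
    EXX (fun g c => ∑ x ∈ s, F x g c) = ∑ x ∈ s, EXX (F x) := by
  unfold EXX
  simp only [EX_sum]

theorem EXX_mul (a : ℝ) (F : (P → E → Bool) → (E → C4) → ℝ) :
    EXX (fun g c => a * F g c) = a * EXX F := by
  unfold EXX
  simp only [EX_mul]

theorem EXX_const (a : ℝ) : EXX (fun (_ : P → E → Bool) (_ : E → C4) => a) = a := by
  unfold EXX
  rw [EX_one _ (fun _ => wG_sum), EX_one _ (fun _ => w4_sum)]

/-- the labels of two elements are independent of the rest -/
theorem EXX_indep {b z : E} (hbz : z ≠ b) (F : (P → E → Bool) → (E → C4) → ℝ)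
    (hb : ∀ g c l, F g (Function.update c b l) = F g c)
    (hz : ∀ g c l, F g (Function.update c z l) = F g c) :
    EXX (fun g c => if c b = .v then (if c z = .v then F g c else 0) else 0) =
      pp ^ 2 * EXX F := by
  unfold EXX
  have h1 : ∀ g : P → E → Bool, EX (fun _ : E => w4) (fun c => if c b = .v then
      (if c z = .v then F g c else 0) else 0) = pp ^ 2 * EX (fun _ : E => w4) (fun c => F g c) := by
    intro g
    have h2 := EX_indep (fun _ : E => w4) (fun _ => w4_sum) b .v
      (fun c => if c z = .v then F g c else 0) (by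
        intro c l
        rw [Function.update_of_ne hbz, hb])
    have h3 := EX_indep (fun _ : E => w4) (fun _ => w4_sum) z .v (fun c => F g c) (hz g)
    have h2' : EX (fun _ : E => w4) (fun c => if c b = .v then
      (if c z = .v then F g c else 0) else 0) = w4 .v * EX (fun _ : E => w4)
        (fun c => if c z = .v then F g c else 0) := by
      refine Eq.trans ?_ h2
      congr
    have h3' : EX (fun _ : E => w4) (fun c => if c z = .v then F g c else 0) =
        w4 .v * EX (fun _ : E => w4) (fun c => F g c) := by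
      refine Eq.trans ?_ h3
      congr
    rw [h2', h3']
    have : w4 .v = pp := rfl
    rw [this]
    ring
  simp only [h1, EX_mul]

theorem EXX_one {b : E} :
    EXX (fun (_ : P → E → Bool) (c : E → C4) => if c b = .v then (1 : ℝ) else 0) = pp := by
  unfold EXX
  have h1 := EX_indep (fun _ : E => w4) (fun _ => w4_sum) b .v (fun _ => (1 : ℝ))
    (fun _ _ => rfl)
  have h2 : EX (fun _ : E => w4) (fun c => if c b = .v then (1 : ℝ) else 0) = pp := by
    refine Eq.trans ?_ (h1.trans ?_)
    · congr
    · rw [EX_one _ (fun _ => w4_sum), mul_one]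
      rfl
  change EX _ (fun _ : P → E → Bool => EX _ (fun c : E → C4 =>
    if c b = .v then (1 : ℝ) else 0)) = pp
  rw [h2, EX_one _ (fun _ => wG_sum)]

end

section

variable {E : Type} [Fintype E]

/-- an irrelevant coordinate -/
theorem ML_update {φ : (E → Bool) → ℝ} {b : E} (hφ : ∀ A x, φ (Function.update A b x) = φ A)
    {r r' : E → ℝ} (h : ∀ e, e ≠ b → r e = r' e) : ML φ r = ML φ r' := by
  have key : ∀ r : E → ℝ, ML φ r = EX (Function.update (fun e => bw (r e)) b
      (Pi.single true 1)) φ := by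
    intro r
    unfold ML
    rw [EX_split b true]
    simp only [hφ]
    rw [← sum_mul, sum_bw, one_mul]
  rw [key r, key r']
  have h1 : Function.update (fun e => bw (r e)) b (Pi.single true 1) =
      Function.update (fun e => bw (r' e)) b (Pi.single true 1) := by
    funext e
    by_cases he : e = b
    · subst he
      rw [Function.update_self, Function.update_self]
    · rw [Function.update_of_ne he, Function.update_of_ne he, h e he]
  rw [h1]

/-- only the sets between the sure and the possible elements matter -/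
theorem ML_congr' {φ ψ : (E → Bool) → ℝ} {r : E → ℝ}
    (h : ∀ A : E → Bool, (∀ e, A e = true → r e ≠ 0) → (∀ e, A e = false → r e ≠ 1) →
      φ A = ψ A) : ML φ r = ML ψ r := by
  unfold ML EX
  refine sum_congr rfl fun A _ => ?_
  by_cases hA : ∀ e, A e = true → r e ≠ 0
  · by_cases hB : ∀ e, A e = false → r e ≠ 1
    · rw [h A hA hB]
    · push Not at hB
      obtain ⟨e, he, hr⟩ := hB
      rw [prod_eq_zero (mem_univ e), zero_mul, zero_mul]
      change bw (r e) (A e) = 0
      rw [he, hr]
      exact sub_self 1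
  · push Not at hA
    obtain ⟨e, he, hr⟩ := hA
    rw [prod_eq_zero (mem_univ e), zero_mul, zero_mul]
    change bw (r e) (A e) = 0
    rw [he, hr]
    rfl

theorem rg_nonneg (S : E → Prop) (G : E → Bool) (Y : Finset E) (e : E) : 0 ≤ rg S G Y e := by
  unfold rg
  split_ifs <;> first | exact th_pos.le | norm_num

theorem rg_le_one (S : E → Prop) (G : E → Bool) (Y : Finset E) (e : E) : rg S G Y e ≤ 1 := by
  unfold rg
  split_ifs <;> first | exact th_le.trans (by norm_num) | norm_num

end

end Vale.Agent.P331.H66
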