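import Vale.Agent.P331.H66.Rel
import Vale.Agent.P331.H819.Static

/-!
# The rule, and what happens when an element of the greedy basis is not safe
-/

set_option autoImplicit false
set_option linter.unusedSectionVars false

namespace Vale.Agent.P331.H66

open Finset Vale.Agent.P331 Vale.Agent.P331.H819 Vale.Agent.P331.H489 Vale.Agent.P331.H379
open scoped Classical

section

variable {E : Type} [Fintype E] (M : Matroid E) (lt : E → E → Prop)

/-- `z` is not spanned by the heavier elements of the set -/
noncomputable def phi (z : E) (A : E → Bool) : ℝ :=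
  if z ∈ M.closure {e | lt z e ∧ A e = true} then 0 else 1

/-- the same without `b` -/
noncomputable def phm (b z : E) (A : E → Bool) : ℝ := phi M lt z (Function.update A b false)
/-- the same with `b` -/
noncomputable def phb (b z : E) (A : E → Bool) : ℝ := phi M lt z (Function.update A b true)
/-- relevance of `b` for `z` -/
noncomputable def pib (b z : E) (A : E → Bool) : ℝ := phm M lt b z A - phb M lt b z A

theorem phi_nonneg (z : E) (A : E → Bool) : 0 ≤ phi M lt z A := by
  unfold phi
  split_ifs <;> norm_num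

theorem phi_le_one (z : E) (A : E → Bool) : phi M lt z A ≤ 1 := by
  unfold phi
  split_ifs <;> norm_num

theorem phi_anti (z : E) : Antitone (phi M lt z) := by
  intro A B hAB
  unfold phi
  by_cases h : z ∈ M.closure {e | lt z e ∧ A e = true}
  · have h2 : z ∈ M.closure {e | lt z e ∧ B e = true} := by
      refine M.closure_subset_closure ?_ h
      rintro e ⟨h3, h4⟩
      refine ⟨h3, ?_⟩
      have h5 := hAB e
      rw [h4] at h5
      exact top_le_iff.1 h5
    rw [if_pos h, if_pos h2]
  · rw [if_neg h]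
    split_ifs <;> norm_num

theorem phb_nonneg (b z : E) (A : E → Bool) : 0 ≤ phb M lt b z A := phi_nonneg M lt z _
theorem phb_le_one (b z : E) (A : E → Bool) : phb M lt b z A ≤ 1 := phi_le_one M lt z _

theorem upd_le (b : E) {A B : E → Bool} (h : A ≤ B) {x y : Bool} (hxy : x ≤ y) :
    Function.update A b x ≤ Function.update B b y := by
  intro e
  by_cases he : e = b
  · subst he
    rw [Function.update_self, Function.update_self]
    exact hxy
  · rw [Function.update_of_ne he, Function.update_of_ne he]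
    exact h e

theorem phb_anti (b z : E) : Antitone (phb M lt b z) := fun _ _ h =>
  phi_anti M lt z (upd_le b h le_rfl)

theorem phb_le_phi (b z : E) (A : E → Bool) : phb M lt b z A ≤ phi M lt z A := by
  refine phi_anti M lt z ?_
  intro e
  by_cases he : e = b
  · subst he
    rw [Function.update_self]
    exact le_top
  · rw [Function.update_of_ne he]

theorem pib_nonneg (b z : E) (A : E → Bool) : 0 ≤ pib M lt b z A :=
  sub_nonneg.2 (phi_anti M lt z (upd_le b le_rfl (by decide)))

theorem pib_le_one (b z : E) (A : E → Bool) : pib M lt b z A ≤ 1 := by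
  unfold pib
  have h1 : phm M lt b z A ≤ 1 := phi_le_one M lt z _
  have h2 := phb_nonneg M lt b z A
  linarith

/-- the element `z` itself does not matter -/
theorem phi_upd_z (hlt : IsStrictTotalOrder E lt) (z : E) (A : E → Bool) (x : Bool) :
    phi M lt z (Function.update A z x) = phi M lt z A := by
  unfold phi
  have h : {e | lt z e ∧ Function.update A z x e = true} = {e | lt z e ∧ A e = true} := by
    ext e
    simp only [Set.mem_setOf_eq]
    refine and_congr_right fun he => ?_
    have hne : e ≠ z := by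
      rintro rfl
      exact irrefl_of lt e he
    rw [Function.update_of_ne hne]
  rw [h]

theorem phm_upd_b (b z : E) (A : E → Bool) (x : Bool) :
    phm M lt b z (Function.update A b x) = phm M lt b z A := by
  unfold phm
  rw [Function.update_idem]

theorem phb_upd_b (b z : E) (A : E → Bool) (x : Bool) :
    phb M lt b z (Function.update A b x) = phb M lt b z A := by
  unfold phb
  rw [Function.update_idem]

theorem pib_upd_b (b z : E) (A : E → Bool) (x : Bool) :
    pib M lt b z (Function.update A b x) = pib M lt b z A := by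
  unfold pib
  rw [phm_upd_b, phb_upd_b]

theorem phm_upd_z (hlt : IsStrictTotalOrder E lt) {b z : E} (hbz : z ≠ b) (A : E → Bool)
    (x : Bool) : phm M lt b z (Function.update A z x) = phm M lt b z A := by
  unfold phm
  rw [Function.update_comm hbz, phi_upd_z M lt hlt]

theorem phb_upd_z (hlt : IsStrictTotalOrder E lt) {b z : E} (hbz : z ≠ b) (A : E → Bool)
    (x : Bool) : phb M lt b z (Function.update A z x) = phb M lt b z A := by
  unfold phb
  rw [Function.update_comm hbz, phi_upd_z M lt hlt]

theorem pib_upd_z (hlt : IsStrictTotalOrder E lt) {b z : E} (hbz : z ≠ b) (A : E → Bool)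
    (x : Bool) : pib M lt b z (Function.update A z x) = pib M lt b z A := by
  unfold pib
  rw [phm_upd_z M lt hlt hbz, phb_upd_z M lt hlt hbz]

/-- the pools of level `i` -/
def JJ {P : Type} [Fintype P] (lev : P → ℕ) (i : ℕ) : Finset P := univ.filter fun q => lev q = i

theorem mem_JJ {P : Type} [Fintype P] {lev : P → ℕ} {i : ℕ} {q : P} :
    q ∈ JJ lev i ↔ lev q = i := by
  unfold JJ
  simp

variable {P : Type} [Fintype P] (lev : P → ℕ)

/-- the set `B` violates the bound of level `i` for the target `z` -/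
def vioS (z : E) (i : ℕ) (g : P → E → Bool) (c : E → C4) (B : Set E) : Prop :=
  ∀ q ∈ JJ lev i, ∃ Y : Finset E, (∀ e ∈ Y, e ∈ B) ∧ Y.card ≤ kap i ∧
    2 ^ Y.card * ML (phi M lt z) (rg (fun e => c e = reg i) (g q) Y) ≤ tt i

/-- the event of relevance at level `i` -/
def RelEv (b z : E) (i : ℕ) (g : P → E → Bool) (c : E → C4) : Prop :=
  ∃ q ∈ JJ lev i, ∃ Y : Finset E, b ∉ Y ∧ z ∉ Y ∧ (∀ e ∈ Y, c e = .v) ∧ Y.card ≤ kap i ∧
    (1 / 2) ^ (5 * kap i) ≤ ML (pib M lt b z) (rg (fun e => c e = reg i) (g q) Y)

/-- the event of luck between the levels `j` and `j + 1` -/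
def LuckEv (b z : E) (j : ℕ) (g : P → E → Bool) (c : E → C4) : Prop :=
  ∃ l' ∈ JJ lev j, ∃ K : Finset E, b ∉ K ∧ z ∉ K ∧ (∀ e ∈ K, c e = .v) ∧
    (∀ l ∈ JJ lev (j + 1), good (phb M lt b z) (kap (j + 1)) (tt (j + 1))
      (fun e => c e = reg (j + 1)) (g l) K) ∧
    ∀ U ⊆ K, U.card < kap j →
      (1 / 2) ^ (5 * kap j) < ML (phb M lt b z) (rg (fun e => c e = reg j) (g l') U)

/-- the event charged to `z` at level `i` -/
def Ch (b z : E) (i : ℕ) (g : P → E → Bool) (c : E → C4) : Prop :=
  RelEv M lt lev b z i g c ∧ ∀ j, i = j + 1 → LuckEv M lt lev b z j g c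

end

section

variable {E : Type} [Fintype E] {M : Matroid E} {lt : E → E → Prop} {P : Type} [Fintype P]
  {lev : P → ℕ}

theorem ML_phb_b {b z : E} (S : E → Prop) (G : E → Bool) (Y : Finset E) :
    ML (phb M lt b z) (rg S G (Y.erase b)) = ML (phb M lt b z) (rg S G Y) := by
  refine ML_update (b := b) (phb_upd_b M lt b z) fun e he => ?_
  unfold rg
  simp [he]

theorem ML_phb_z (hlt : IsStrictTotalOrder E lt) {b z : E} (hbz : z ≠ b) (S : E → Prop)
    (G : E → Bool) (Y : Finset E) :
    ML (phb M lt b z) (rg S G (Y.erase z)) = ML (phb M lt b z) (rg S G Y) := by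
  refine ML_update (b := z) (phb_upd_z M lt hlt hbz) fun e he => ?_
  unfold rg
  simp [he]

theorem ML_phm_z (hlt : IsStrictTotalOrder E lt) {b z : E} (hbz : z ≠ b) (S : E → Prop)
    (G : E → Bool) (Y : Finset E) :
    ML (phm M lt b z) (rg S G (Y.erase z)) = ML (phm M lt b z) (rg S G Y) := by
  refine ML_update (b := z) (phm_upd_z M lt hlt hbz) fun e he => ?_
  unfold rg
  simp [he]

/-- with `b` in the set -/
theorem ML_phi_mem {b z : E} (S : E → Prop) (G : E → Bool) {Y : Finset E} (hb : b ∈ Y) :
    ML (phi M lt z) (rg S G Y) = ML (phb M lt b z) (rg S G Y) := by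
  refine ML_congr' fun A _ h => ?_
  have h1 : A b = true := by
    by_contra h2
    rw [Bool.not_eq_true] at h2
    refine h b h2 ?_
    unfold rg
    rw [if_pos hb]
  unfold phb
  rw [← h1, Function.update_eq_self]

/-- without `b` in the set -/
theorem ML_phi_not {b z : E} {S : E → Prop} (G : E → Bool) {Y : Finset E} (hb : b ∉ Y)
    (hS : ¬ S b) : ML (phi M lt z) (rg S G Y) = ML (phm M lt b z) (rg S G Y) := by
  refine ML_congr' fun A h _ => ?_
  have h1 : A b = false := by
    by_contra h2
    rw [Bool.not_eq_false] at h2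
    refine h b h2 ?_
    unfold rg
    rw [if_neg hb, if_neg hS]
  unfold phm
  rw [← h1, Function.update_eq_self]

theorem v_ne_reg (i : ℕ) : C4.v ≠ reg i := by
  rcases reg_cases i with h' | h' <;> rw [h'] <;> decide

theorem half_mul (κ y : ℕ) (h : y ≤ κ) : ((1 : ℝ) / 2) ^ (5 * κ) ≤ (1 / 2) ^ (4 * κ) / 2 ^ y := by
  rw [le_div_iff₀ (by positivity)]
  have h1 : (2 : ℝ) ^ y ≤ 2 ^ κ := pow_le_pow_right₀ (by norm_num) h
  have h2 : ((1 : ℝ) / 2) ^ (5 * κ) = (1 / 2) ^ (4 * κ) * (1 / 2) ^ κ := by
    rw [← pow_add]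
    congr 1
    ring
  have h3 := two_mul_half_pow κ
  have h4 : (0 : ℝ) ≤ (1 / 2) ^ (4 * κ) := by positivity
  calc ((1 : ℝ) / 2) ^ (5 * κ) * 2 ^ y ≤ (1 / 2) ^ (5 * κ) * 2 ^ κ :=
        mul_le_mul_of_nonneg_left h1 (by positivity)
    _ = (1 / 2) ^ (4 * κ) * (2 ^ κ * (1 / 2) ^ κ) := by rw [h2]; ring
    _ = (1 / 2) ^ (4 * κ) := by rw [h3, mul_one]

/-- the relevance -/
theorem relEv_of (hlt : IsStrictTotalOrder E lt) {b z : E} (hbz : z ≠ b) {i : ℕ}
    {g : P → E → Bool} {c : E → C4} {B : Set E} (hbB : b ∉ B) (hcb : c b = .v)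
    (hB : ∀ e ∈ B, c e = .v) (h1 : vioS M lt lev z i g c (insert b B))
    (h2 : ¬ vioS M lt lev z i g c B) : RelEv M lt lev b z i g c := by
  unfold vioS at h2
  push Not at h2
  obtain ⟨q, hq, h2⟩ := h2
  obtain ⟨Y, hY, hc, h3⟩ := h1 q hq
  have hbY : b ∈ Y := by
    by_contra hb
    have h4 := h2 Y (fun e he => by
      rcases hY e he with rfl | h
      · exact absurd he hb
      · exact h) hc
    exact absurd h3 (not_le.2 h4)
  have hcard : (Y.erase b).card + 1 = Y.card := card_erase_add_one hbY
  have h4 := h2 (Y.erase b) (fun e he => by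
    rcases hY e (mem_of_mem_erase he) with rfl | h
    · exact absurd rfl (ne_of_mem_erase he)
    · exact h) (by omega)
  have hS : ¬ (c b = reg i) := by
    rw [hcb]
    exact v_ne_reg i
  rw [ML_phi_mem _ _ hbY, ← ML_phb_b, ← ML_phb_z hlt hbz] at h3
  rw [ML_phi_not _ (notMem_erase b Y) hS, ← ML_phm_z hlt hbz] at h4
  refine ⟨q, hq, (Y.erase b).erase z, ?_, notMem_erase _ _, ?_, ?_, ?_⟩
  · intro h
    exact notMem_erase b Y (mem_of_mem_erase h)
  · intro e he
    have h5 := mem_of_mem_erase he
    rcases hY e (mem_of_mem_erase h5) with rfl | h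
    · exact hcb
    · exact hB e h
  · exact ((card_erase_le).trans card_erase_le).trans hc
  · unfold pib
    rw [ML_sub]
    set a := ML (phm M lt b z) (rg (fun e => c e = reg i) (g q) ((Y.erase b).erase z)) with ha
    set d := ML (phb M lt b z) (rg (fun e => c e = reg i) (g q) ((Y.erase b).erase z)) with hd
    have h5 := half_mul (kap i) Y.card hc
    have h6 : tt i = (1 / 2) ^ (4 * kap i) := rfl
    rw [← h6] at h5
    have h7 : (0 : ℝ) < 2 ^ Y.card := by positivity
    have h8 : (2 : ℝ) ^ Y.card = 2 * 2 ^ (Y.erase b).card := by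
      rw [← hcard, pow_succ]
      ring
    have h9 : d ≤ tt i / 2 ^ Y.card := by
      rw [le_div_iff₀ h7]
      linarith
    have h10 : 2 * (tt i / 2 ^ Y.card) ≤ a := by
      rw [h8]
      have h11 : (0 : ℝ) < 2 ^ (Y.erase b).card := by positivity
      rw [mul_div_assoc', mul_div_mul_left _ _ (by norm_num : (2 : ℝ) ≠ 0), div_le_iff₀ h11]
      linarith
    linarith

/-- the luck -/
theorem luckEv_of (hlt : IsStrictTotalOrder E lt) {b z : E} (hbz : z ≠ b) {j : ℕ}
    {g : P → E → Bool} {c : E → C4} {B : Set E} (hbB : b ∉ B)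
    (hB : ∀ e ∈ B, c e = .v) (h1 : vioS M lt lev z (j + 1) g c (insert b B))
    (h2 : ¬ vioS M lt lev z j g c (insert b B)) : LuckEv M lt lev b z j g c := by
  unfold vioS at h2
  push Not at h2
  obtain ⟨l', hl', h2⟩ := h2
  refine ⟨l', hl', (Set.toFinset B).erase z, ?_, notMem_erase _ _, ?_, ?_, ?_⟩
  · intro h
    exact hbB (Set.mem_toFinset.1 (mem_of_mem_erase h))
  · intro e he
    exact hB e (Set.mem_toFinset.1 (mem_of_mem_erase he))
  · intro l hl
    obtain ⟨Y, hY, hc, h3⟩ := h1 l hl
    refine ⟨(Y.erase b).erase z, ?_, ((card_erase_le).trans card_erase_le).trans hc, ?_⟩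
    · refine erase_subset_erase z fun e he => ?_
      rcases hY e (mem_of_mem_erase he) with rfl | h
      · exact absurd rfl (ne_of_mem_erase he)
      · exact Set.mem_toFinset.2 h
    · rw [ML_phb_z hlt hbz, ML_phb_b]
      refine le_trans (mul_le_mul (pow_le_pow_right₀ (by norm_num)
        ((card_erase_le).trans card_erase_le)) (ML_mono (phb_le_phi M lt b z) (rg_nonneg _ _ _)
          (rg_le_one _ _ _)) (ML_nonneg (phb_nonneg M lt b z) (rg_nonneg _ _ _)
          (rg_le_one _ _ _)) (by positivity)) h3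
  · intro U hU hUc
    have hbU : b ∉ U := fun h => hbB (Set.mem_toFinset.1 (mem_of_mem_erase (hU h)))
    have hc : (insert b U).card ≤ kap j := by
      rw [card_insert_of_notMem hbU]
      omega
    have h3 := h2 (insert b U) (fun e he => by
      rcases mem_insert.1 he with rfl | h
      · exact Set.mem_insert _ _
      · exact Set.mem_insert_of_mem _ (Set.mem_toFinset.1 (mem_of_mem_erase (hU h)))) hc
    rw [ML_phi_mem _ _ (mem_insert_self b U), ← ML_phb_b, erase_insert hbU] at h3
    have h5 := half_mul (kap j) (insert b U).card hc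
    have h6 : tt j = (1 / 2) ^ (4 * kap j) := rfl
    rw [← h6] at h5
    refine lt_of_le_of_lt h5 ?_
    rw [div_lt_iff₀ (by positivity)]
    linarith

end

section

variable {E : Type} [Fintype E] {P : Type} [Fintype P]

/-- The rule. -/
noncomputable def dat (M : Matroid E) (lev : P → ℕ) (n : ℕ) : Data M where
  Sd := (P → E → Bool) × (E → C4)
  w := fun r => ENNReal.ofReal ((∏ q, wG (r.1 q)) * ∏ e, w4 (r.2 e))
  w_sum := by
    rw [← ENNReal.ofReal_sum_of_nonneg fun r _ => mul_nonneg
      (prod_nonneg fun q _ => wG_nonneg _) (prod_nonneg fun e _ => w4_nonneg _)]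
    rw [Fintype.sum_prod_type]
    have h := EXX_const (E := E) (P := P) 1
    unfold EXX EX at h
    simp only [mul_one, mul_sum] at h
    refine (congrArg ENNReal.ofReal ?_).trans ENNReal.ofReal_one
    exact h
  T := fun r e => r.2 e = .v
  Leg := fun r lt B => M.Indep B ∧ ∀ z ∈ B, ∀ i < n, ¬ vioS M lt lev z i r.1 r.2 B
  empty := fun r lt => ⟨M.empty_indep, fun z hz => absurd hz (Set.notMem_empty z)⟩
  loc := by
    intro r lt lt' B hBT h hB
    refine ⟨hB.1, fun z hz i hi h1 => hB.2 z hz i hi ?_⟩
    intro q hq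
    obtain ⟨Y, hY, hc, h2⟩ := h1 q hq
    refine ⟨Y, hY, hc, ?_⟩
    have h3 : ML (phi M lt z) (rg (fun e => r.2 e = reg i) (r.1 q) Y) =
        ML (phi M lt' z) (rg (fun e => r.2 e = reg i) (r.1 q) Y) := by
      refine ML_congr_supp fun A hA => ?_
      unfold phi
      have h4 : {e | lt z e ∧ A e = true} = {e | lt' z e ∧ A e = true} := by
        ext e
        simp only [Set.mem_setOf_eq]
        refine and_congr_left fun he => ?_
        refine h z e (Or.inl hz) ?_
        by_cases heY : e ∈ Y
        · exact Or.inl (hY e heY)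
        · right
          intro hv
          refine hA e he ?_
          unfold rg
          rw [if_neg heY, if_neg]
          change ¬ (r.2 e = reg i)
          rw [hv]
          exact v_ne_reg i
      rw [h4]
    rw [h3]
    exact h2
  indep := fun _ _ _ B _ h => h.1

/-- **If the element `b` of the greedy basis is not safe, some element is charged.** -/
theorem unsafe_ch {M : Matroid E} (hM : M.E = Set.univ) {lt : E → E → Prop}
    (hlt : IsStrictTotalOrder E lt) {lev : P → ℕ} {n : ℕ} (hn : 0 < n)
    (hJ : ∀ i < n, (JJ lev i).card = mm i) (hcard : Fintype.card E ≤ kap (n - 1))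
    {b : E} (hb : b ∉ M.closure {f | lt b f}) {g : P → E → Bool} {c : E → C4}
    (hcb : c b = .v) (hs : ¬ (dat M lev n).Safe (g, c) lt b) :
    ∃ z ∈ univ.erase b, c z = .v ∧ ∃ i ∈ range n, Ch M lt lev b z i g c := by
  unfold Data.Safe at hs
  push Not at hs
  obtain ⟨B, hB, hLB, hnot⟩ := hs
  have hB' : ∀ f ∈ B, f ≠ b ∧ c f = .v := hB
  have hLB' : M.Indep B ∧ ∀ z ∈ B, ∀ i < n, ¬ vioS M lt lev z i g c B := hLB
  have hn' : ¬ (M.Indep (insert b B) ∧ ∀ z ∈ insert b B, ∀ i < n,
    ¬ vioS M lt lev z i g c (insert b B)) := hnot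
  have hbB : b ∉ B := fun h => (hB' b h).1 rfl
  have hBv : ∀ e ∈ B, c e = .v := fun e he => (hB' e he).2
  -- some element is violated
  have hvio : ∃ z ∈ insert b B, ∃ i < n, vioS M lt lev z i g c (insert b B) := by
    by_cases hdep : M.Indep (insert b B)
    · push Not at hn'
      obtain ⟨z, hz, i, hi, h⟩ := hn' hdep
      exact ⟨z, hz, i, hi, h⟩
    · have hdep' : M.Dep (insert b B) :=
        (Matroid.not_indep_iff (by rw [hM]; exact Set.subset_univ _)).1 hdep
      obtain ⟨C, hCs, hC⟩ := hdep'.exists_isCircuit_subset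
      obtain ⟨z, hzC, hz⟩ : ∃ z ∈ C, ∀ e ∈ C, e ≠ z → lt z e := by
        have hwf : WellFounded lt := Finite.wellFounded_of_trans_of_irrefl lt
        obtain ⟨z, hzC, hz⟩ := hwf.has_min C hC.nonempty
        refine ⟨z, hzC, fun e he hne => ?_⟩
        rcases trichotomous_of lt z e with h | h | h
        · exact h
        · exact absurd h.symm hne
        · exact absurd h (hz e he)
      have hcl : z ∈ M.closure (C \ {z}) := hC.mem_closure_sdiff_singleton_of_mem hzC
      refine ⟨z, hCs hzC, n - 1, by omega, fun q _ => ?_⟩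
      refine ⟨(C \ {z}).toFinset, fun e he => hCs (Set.mem_toFinset.1 he).1,
        (card_le_univ _).trans hcard, ?_⟩
      have h0 : ML (phi M lt z) (rg (fun e => c e = reg (n - 1)) (g q) (C \ {z}).toFinset) =
          ML (fun _ => 0) (rg (fun e => c e = reg (n - 1)) (g q) (C \ {z}).toFinset) := by
        refine ML_congr' fun A _ h => ?_
        unfold phi
        rw [if_pos]
        refine M.closure_subset_closure ?_ hcl
        intro e he
        refine ⟨hz e he.1 he.2, ?_⟩
        by_contra h2
        rw [Bool.not_eq_true] at h2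
        refine h e h2 ?_
        unfold rg
        rw [if_pos (Set.mem_toFinset.2 he)]
      rw [h0, ML_const, mul_zero]
      unfold tt
      positivity
  obtain ⟨z, hz, hi⟩ := hvio
  have hzb : z ≠ b := by
    rintro rfl
    obtain ⟨i, hi, h⟩ := hi
    obtain ⟨q, hq⟩ : (JJ lev i).Nonempty := by
      rw [← card_pos, hJ i hi]
      unfold mm
      positivity
    obtain ⟨Y, -, -, h1⟩ := h q hq
    have h0 : ML (phi M lt z) (rg (fun e => c e = reg i) (g q) Y) =
        ML (fun _ => 1) (rg (fun e => c e = reg i) (g q) Y) := by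
      refine ML_congr' fun A _ _ => ?_
      unfold phi
      rw [if_neg]
      intro h2
      refine hb (M.closure_subset_closure ?_ h2)
      rintro e ⟨h3, -⟩
      exact h3
    rw [h0, ML_const, mul_one] at h1
    have h2 : (1 : ℝ) ≤ 2 ^ Y.card := one_le_pow₀ (by norm_num)
    have h3 : tt i < 1 := by
      unfold tt
      refine pow_lt_one₀ (by norm_num) (by norm_num) ?_
      have := kap_pos i
      omega
    linarith
  have hzB : z ∈ B := by
    rcases hz with h | h
    · exact absurd h hzb
    · exact h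
  set i := Nat.find hi with hidef
  obtain ⟨hin, hvi⟩ : i < n ∧ vioS M lt lev z i g c (insert b B) := Nat.find_spec hi
  refine ⟨z, mem_erase.2 ⟨hzb, mem_univ z⟩, (hB' z hzB).2, i, mem_range.2 hin, ?_, ?_⟩
  · exact relEv_of hlt hzb hbB hcb hBv hvi (hLB'.2 z hzB i hin)
  · intro j hj
    have h1 : ¬ (j < n ∧ vioS M lt lev z j g c (insert b B)) :=
      Nat.find_min hi (by rw [← hidef]; omega)
    have h2 : ¬ vioS M lt lev z j g c (insert b B) := fun h => h1 ⟨by omega, h⟩
    rw [hj] at hvi
    exact luckEv_of hlt hzb hbB hBv hvi h2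

end

end Vale.Agent.P331.H66
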