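import Vale.Agent.P331.H66.Luck

/-!
# The two estimates on the labels of the rule
-/

set_option autoImplicit false
set_option linter.unusedSectionVars false

namespace Vale.Agent.P331.H66

open Finset Vale.Agent.P331.H489 Vale.Agent.P331.H379
open scoped Classical

/-- sizes -/
def kap (i : ℕ) : ℕ := 2 * 64 ^ i
/-- thresholds -/
noncomputable def tt (i : ℕ) : ℝ := (1 / 2) ^ (4 * kap i)
/-- numbers of pools -/
def mm (i : ℕ) : ℕ := 4 ^ kap i
/-- regions -/
def reg (i : ℕ) : C4 := if i % 2 = 0 then .a else .b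

theorem reg_ne (i : ℕ) : reg (i + 1) ≠ reg i := by
  rcases Nat.mod_two_eq_zero_or_one i with h | h
  · have h' : (i + 1) % 2 = 1 := by omega
    simp [reg, h, h']
  · have h' : (i + 1) % 2 = 0 := by omega
    simp [reg, h, h']

theorem reg_cases (i : ℕ) : reg i = .a ∨ reg i = .b := by
  unfold reg
  split_ifs
  · exact Or.inl rfl
  · exact Or.inr rfl

theorem kap_succ (i : ℕ) : kap (i + 1) = 64 * kap i := by
  unfold kap
  rw [pow_succ]
  ring

theorem kap_pos (i : ℕ) : 2 ≤ kap i := by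
  unfold kap
  have := Nat.one_le_pow i 64 (by norm_num)
  omega

/-! ### numbers -/

theorem half_pow_le {a b : ℕ} (h : b ≤ a) : ((1 : ℝ) / 2) ^ a ≤ (1 / 2) ^ b :=
  pow_le_pow_of_le_one (by norm_num) (by norm_num) h

theorem one_sub_pow_le_half {N : ℕ} (hN : 1 ≤ N) : (1 - 1 / (N : ℝ)) ^ N ≤ 1 / 2 := by
  have hN0 : (0 : ℝ) < N := by exact_mod_cast hN
  have h1 : (1 : ℝ) + N * (1 / N) ≤ (1 + 1 / (N : ℝ)) ^ N :=
    one_add_mul_le_pow (by
      have : (0 : ℝ) ≤ 1 / N := by positivity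
      linarith) N
  have h2 : (N : ℝ) * (1 / N) = 1 := by field_simp
  rw [h2] at h1
  have h3 : (1 - 1 / (N : ℝ)) ^ N * (1 + 1 / (N : ℝ)) ^ N ≤ 1 := by
    rw [← mul_pow]
    have h4 : (1 - 1 / (N : ℝ)) * (1 + 1 / (N : ℝ)) = 1 - (1 / (N : ℝ)) ^ 2 := by ring
    rw [h4]
    have h5 : (1 : ℝ) / N ≤ 1 := by
      rw [div_le_one hN0]
      exact_mod_cast hN
    have h6 : (0 : ℝ) ≤ 1 / N := by positivity
    refine pow_le_one₀ ?_ ?_
    · nlinarith
    · nlinarith
  have h5 : (0 : ℝ) ≤ (1 - 1 / (N : ℝ)) ^ N := by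
    refine pow_nonneg ?_ N
    rw [sub_nonneg, div_le_one hN0]
    exact_mod_cast hN
  nlinarith

theorem num_ii {x : ℕ} (hx : 1 ≤ x) :
    (1 - (1 / 2 : ℝ) ^ (64 * x) / 4) ^ (4 ^ (64 * x)) ≤ (1 / 2) ^ (1794 * x + 2) := by
  have h1 := one_sub_pow_le_half (N := 2 ^ (64 * x + 2)) (Nat.one_le_pow _ _ (by norm_num))
  have e1 : (1 : ℝ) / ((2 ^ (64 * x + 2) : ℕ) : ℝ) = (1 / 2 : ℝ) ^ (64 * x) / 4 := by
    push_cast
    rw [pow_add, one_div, one_div, inv_pow, mul_inv]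
    norm_num
    ring
  rw [e1] at h1
  have e2 : 4 ^ (64 * x) = 2 ^ (64 * x + 2) * 2 ^ (64 * x - 2) := by
    rw [← pow_add]
    have : (4 : ℕ) = 2 ^ 2 := by norm_num
    rw [this, ← pow_mul]
    congr 1
    omega
  rw [e2, pow_mul]
  have h0 : (0 : ℝ) ≤ (1 - (1 / 2 : ℝ) ^ (64 * x) / 4) ^ (2 ^ (64 * x + 2)) := by
    refine pow_nonneg ?_ _
    have : (1 / 2 : ℝ) ^ (64 * x) ≤ 1 := pow_le_one₀ (by norm_num) (by norm_num)
    linarith
  refine (pow_le_pow_left₀ h0 h1 _).trans (half_pow_le ?_)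
  have h2 : x < 2 ^ x := Nat.lt_two_pow_self
  have h3 : 1794 * x + 2 ≤ 2 ^ 11 * 2 ^ x := by
    have : (2 : ℕ) ^ 11 = 2048 := by norm_num
    rw [this]
    omega
  refine h3.trans ?_
  rw [← pow_add]
  exact Nat.pow_le_pow_right (by norm_num) (by omega)

theorem two_mul_half_pow (a : ℕ) : (2 : ℝ) ^ a * (1 / 2) ^ a = 1 := by
  rw [← mul_pow]
  norm_num

theorem num_iii {x : ℕ} (hx : 1 ≤ x) :
    4 / (1 / 2 : ℝ) ^ (64 * x) * ((2 * (1 / 2) ^ (4 * (64 * x))) ^ 40 /
      ((1 / 2 : ℝ) ^ (64 * x) / 2) ^ (2 * 40 + 2)) ≤ (1 / 2) ^ (1794 * x + 2) := by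
  have h1 : 4 / (1 / 2 : ℝ) ^ (64 * x) * ((2 * (1 / 2) ^ (4 * (64 * x))) ^ 40 /
      ((1 / 2 : ℝ) ^ (64 * x) / 2) ^ (2 * 40 + 2)) = 2 ^ 124 * (1 / 2) ^ (4928 * x) := by
    have e1 : (1 / 2 : ℝ) ^ (4 * (64 * x)) = ((1 / 2 : ℝ) ^ (64 * x)) ^ 4 := by
      rw [← pow_mul]
      congr 1
      ring
    have e2 : (1 / 2 : ℝ) ^ (4928 * x) = ((1 / 2 : ℝ) ^ (64 * x)) ^ 77 := by
      rw [← pow_mul]
      congr 1
      ring
    rw [e1, e2]
    have hu : (1 / 2 : ℝ) ^ (64 * x) ≠ 0 := by positivity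
    generalize (1 / 2 : ℝ) ^ (64 * x) = u at hu ⊢
    rw [mul_pow, div_pow, ← pow_mul]
    field_simp
    norm_num
    ring
  rw [h1]
  have h2 : ((1 : ℝ) / 2) ^ (4928 * x) ≤ (1 / 2) ^ (124 + (1794 * x + 2)) := half_pow_le (by omega)
  calc (2 : ℝ) ^ 124 * (1 / 2) ^ (4928 * x) ≤ 2 ^ 124 * (1 / 2) ^ (124 + (1794 * x + 2)) :=
        mul_le_mul_of_nonneg_left h2 (by positivity)
    _ = (1 / 2) ^ (1794 * x + 2) := by
        rw [pow_add _ 124, ← mul_assoc, two_mul_half_pow, one_mul]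

theorem num_iv {x : ℕ} (hx : 1 ≤ x) :
    (2 * (1 / 2 : ℝ) ^ (64 * x)) ^ 40 / ((1 / 2 : ℝ) ^ (5 * x)) ^ (2 * 40 + 2) ≤
      (1 / 2) ^ (1794 * x + 2) := by
  have e : (2 * (1 / 2 : ℝ) ^ (64 * x)) ^ 40 / ((1 / 2 : ℝ) ^ (5 * x)) ^ (2 * 40 + 2) =
      2 ^ 40 * (1 / 2) ^ (2150 * x) := by
    rw [mul_pow, ← pow_mul, ← pow_mul, div_eq_iff (by positivity), mul_assoc ((2 : ℝ) ^ 40),
      ← pow_add]
    congr 2
    ring
  rw [e]
  have h2 : ((1 : ℝ) / 2) ^ (2150 * x) ≤ (1 / 2) ^ (40 + (1794 * x + 2)) := half_pow_le (by omega)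
  calc (2 : ℝ) ^ 40 * (1 / 2) ^ (2150 * x) ≤ 2 ^ 40 * (1 / 2) ^ (40 + (1794 * x + 2)) :=
        mul_le_mul_of_nonneg_left h2 (by positivity)
    _ = (1 / 2) ^ (1794 * x + 2) := by
        rw [pow_add _ 40, ← mul_assoc, two_mul_half_pow, one_mul]

theorem num_all {x : ℕ} (hx : 1 ≤ x) : ((4 ^ x : ℕ) : ℝ) * ((1 / 2) ^ (2000 * x) +
    ((1 - (1 / 2 : ℝ) ^ (64 * x) / 4) ^ (4 ^ (64 * x)) +
    4 / (1 / 2 : ℝ) ^ (64 * x) * ((2 * (1 / 2) ^ (4 * (64 * x))) ^ 40 /
      ((1 / 2 : ℝ) ^ (64 * x) / 2) ^ (2 * 40 + 2)) +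
    (2 * (1 / 2 : ℝ) ^ (64 * x)) ^ 40 / ((1 / 2 : ℝ) ^ (5 * x)) ^ (2 * 40 + 2))) ≤
      (1 / 2) ^ (28 * (64 * x)) := by
  have h1 := num_ii hx
  have h2 := num_iii hx
  have h3 := num_iv hx
  have h0 : ((1 : ℝ) / 2) ^ (2000 * x) ≤ (1 / 2) ^ (1794 * x + 2) := half_pow_le (by omega)
  have h4 : (0 : ℝ) ≤ ((4 ^ x : ℕ) : ℝ) := Nat.cast_nonneg _
  refine (mul_le_mul_of_nonneg_left (add_le_add h0 (add_le_add (add_le_add h1 h2) h3)) h4).trans
    (le_of_eq ?_)
  have e1 : ((4 ^ x : ℕ) : ℝ) = 2 ^ (2 * x) := by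
    push_cast
    rw [pow_mul]
    norm_num
  have e2 : (28 * (64 * x)) = 1792 * x := by ring
  have e3 : (1 / 2 : ℝ) ^ (1794 * x + 2) = (1 / 2) ^ (2 * x) * (1 / 2) ^ (1792 * x) * (1 / 4) := by
    rw [← pow_add, pow_add _ (1794 * x) 2]
    congr 2
    · ring
    · norm_num
  rw [e1, e2, e3]
  have h5 := two_mul_half_pow (2 * x)
  calc (2 : ℝ) ^ (2 * x) * ((1 / 2) ^ (2 * x) * (1 / 2) ^ (1792 * x) * (1 / 4) +
        ((1 / 2) ^ (2 * x) * (1 / 2) ^ (1792 * x) * (1 / 4) +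
        (1 / 2) ^ (2 * x) * (1 / 2) ^ (1792 * x) * (1 / 4) +
        (1 / 2) ^ (2 * x) * (1 / 2) ^ (1792 * x) * (1 / 4))) =
        ((2 : ℝ) ^ (2 * x) * (1 / 2) ^ (2 * x)) * (1 / 2) ^ (1792 * x) := by ring
    _ = _ := by rw [h5, one_mul]

/-! ### labels -/

/-- the labels of one step, the lower region is the first argument -/
def fm : C4 → C4 × Bool → C5
  | _, (.v, _) => .v
  | _, (.o, _) => .o
  | .a, (.a, true) => .h
  | .a, (.a, false) => .r
  | .a, (.b, _) => .s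
  | .b, (.b, true) => .h
  | .b, (.b, false) => .r
  | .b, (.a, _) => .s
  | _, _ => .o

theorem fm_v {x : C4} (hx : x = .a ∨ x = .b) (c : C4) (b : Bool) : fm x (c, b) = .v ↔ c = .v := by
  rcases hx with rfl | rfl <;> cases c <;> cases b <;> simp [fm]

theorem fm_h {x : C4} (hx : x = .a ∨ x = .b) (c : C4) (b : Bool) :
    fm x (c, b) = .h ↔ c = x ∧ b = true := by
  rcases hx with rfl | rfl <;> cases c <;> cases b <;> simp [fm]

theorem fm_r {x : C4} (hx : x = .a ∨ x = .b) (c : C4) (b : Bool) :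
    fm x (c, b) = .r ↔ c = x ∧ b = false := by
  rcases hx with rfl | rfl <;> cases c <;> cases b <;> simp [fm]

theorem fm_s {x y : C4} (hx : x = .a ∨ x = .b) (hy : y = .a ∨ y = .b) (hxy : y ≠ x) (c : C4)
    (b : Bool) : fm x (c, b) = .s ↔ c = y := by
  rcases hx with rfl | rfl <;> rcases hy with rfl | rfl <;> cases c <;> cases b <;>
    simp [fm] at hxy ⊢

theorem push_fm {x : C4} (hx : x = .a ∨ x = .b) (c : C5) :
    ∑ l with fm x l = c, w4b l = w5 c := by
  have hv4 : 1 / 4 * gam = vv := by unfold vv; ring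
  have hr4 : 1 / 4 * (1 - gam) = rh := by unfold rh; ring
  rw [sum_filter, Fintype.sum_prod_type]
  simp only [Fintype.sum_bool]
  rw [sum_C4]
  rcases hx with rfl | rfl <;> cases c <;>
    simp [fm, w4b, w4, w5, bw] <;> linarith

section

variable {E P : Type} [Fintype E] [Fintype P]

theorem rg_eq_r5 {x : C4} (hx : x = .a ∨ x = .b) (τ : E → C4 × Bool) (U : Finset E) :
    rg (fun e => (τ e).1 = x) (fun e => (τ e).2) U = r5 (fm x ∘ τ) U := by
  funext e
  unfold rg r5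
  simp only [Function.comp]
  by_cases he : e ∈ U
  · simp [he]
  · by_cases hc : (τ e).1 = x
    · by_cases hb : (τ e).2 = true
      · have h1 : fm x (τ e) = .h := (fm_h hx (τ e).1 (τ e).2).2 ⟨hc, hb⟩
        simp [he, hc, hb, h1]
      · have h1 : fm x (τ e) = .r := (fm_r hx (τ e).1 (τ e).2).2 ⟨hc, by simpa using hb⟩
        simp [he, hc, hb, h1]
    · have h1 : fm x (τ e) ≠ .h := fun h => hc ((fm_h hx (τ e).1 (τ e).2).1 h).1
      have h2 : fm x (τ e) ≠ .r := fun h => hc ((fm_r hx (τ e).1 (τ e).2).1 h).1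
      simp [he, hc, h1, h2]

/-- the bad event of the rule, one pool `l'` of the lower level -/
def EvL (φ : (E → Bool) → ℝ) (i : ℕ) (J : Finset P) (l' : P) (g : P → E → Bool) (c : E → C4) :
    Prop :=
  ∃ K : Finset E, (∀ e ∈ K, c e = .v) ∧
    (∀ l ∈ J, good φ (kap (i + 1)) (tt (i + 1)) (fun e => c e = reg (i + 1)) (g l) K) ∧
    ∀ U ⊆ K, U.card < kap i → (1 / 2) ^ (5 * kap i) < ML φ (rg (fun e => c e = reg i) (g l') U)

theorem luck_one (φ : (E → Bool) → ℝ) (hφ : ∀ A, 0 ≤ φ A) (hφ1 : ∀ A, φ A ≤ 1)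
    (hanti : Antitone φ) (i : ℕ) (J : Finset P) (hJ : J.card = mm (i + 1)) (l' : P)
    (hl' : l' ∉ J) :
    ((mm i : ℕ) : ℝ) * EX (fun _ : P => (wG : (E → Bool) → ℝ)) (fun g => EX (fun _ => w4)
      (fun c : E → C4 => if EvL φ i J l' g c then 1 else 0)) ≤ (1 / 2) ^ (28 * kap (i + 1)) := by
  have hx := reg_cases i
  set G0 : E → Bool := fun _ => false with hG0
  set W : P → (E → Bool) → ℝ := Function.update (fun _ : P => wG) l' (Pi.single G0 1) with hW
  have hWs : ∀ l, ∑ G, W l G = 1 := by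
    intro l
    by_cases h : l = l'
    · subst h
      rw [hW, Function.update_self]
      simp
    · rw [hW, Function.update_of_ne h]
      exact wG_sum
  have hW0 : ∀ l G, 0 ≤ W l G := by
    intro l G
    by_cases h : l = l'
    · subst h
      rw [hW, Function.update_self]
      by_cases hG : G = G0
      · subst hG
        simp
      · rw [Pi.single_eq_of_ne hG]
    · rw [hW, Function.update_of_ne h]
      exact wG_nonneg G
  have hWJ : ∀ l ∈ J, W l = wG := by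
    intro l hl
    have h : l ≠ l' := fun h => hl' (h ▸ hl)
    rw [hW, Function.update_of_ne h]
  have step1 : EX (fun _ : P => (wG : (E → Bool) → ℝ)) (fun g => EX (fun _ => w4)
      (fun c : E → C4 => if EvL φ i J l' g c then 1 else 0)) =
      EX W (fun g => EX (fun _ => w5) (fun ω : E → C5 =>
        if Ev φ (kap (i + 1)) (kap i) (tt (i + 1)) ((1 / 2) ^ (5 * kap i)) J g ω then 1 else 0)) := by
    rw [EX_split l' G0]
    simp only [← EX_mul]
    rw [← EX_sum]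
    congr 1
    funext g
    have h1 : ∀ G' : E → Bool, ∀ c : E → C4,
        (EvL φ i J l' (Function.update g l' G') c ↔
          Ev φ (kap (i + 1)) (kap i) (tt (i + 1)) ((1 / 2) ^ (5 * kap i)) J g
            (fm (reg i) ∘ fun e => (c e, G' e))) := by
      intro G' c
      have hv : ∀ e, c e = .v ↔ (fm (reg i) ∘ fun e => (c e, G' e)) e = .v := by
        intro e
        exact (fm_v hx (c e) (G' e)).symm
      have hs : (fun e => c e = reg (i + 1)) =
          fun e => (fm (reg i) ∘ fun e => (c e, G' e)) e = .s := by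
        funext e
        exact propext (fm_s hx (reg_cases (i + 1)) (reg_ne i) (c e) (G' e)).symm
      have hr : ∀ U : Finset E, rg (fun e => c e = reg i) (Function.update g l' G' l') U =
          r5 (fm (reg i) ∘ fun e => (c e, G' e)) U := by
        intro U
        rw [Function.update_self]
        exact rg_eq_r5 hx (fun e => (c e, G' e)) U
      have hg : ∀ l ∈ J, Function.update g l' G' l = g l := by
        intro l hl
        exact Function.update_of_ne (fun h : l = l' => hl' (h ▸ hl)) _ _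
      unfold EvL Ev
      refine exists_congr fun K => and_congr ?_ (and_congr ?_ ?_)
      · exact forall_congr' fun e => forall_congr' fun _ => hv e
      · refine forall_congr' fun l => forall_congr' fun hl => ?_
        rw [hg l hl, hs]
      · refine forall_congr' fun U => forall_congr' fun _ => forall_congr' fun _ => ?_
        rw [hr U]
    have h2 := EX_prod (fun _ : E => w4) (fun _ : E => bw gam) (fun c G' =>
      if Ev φ (kap (i + 1)) (kap i) (tt (i + 1)) ((1 / 2) ^ (5 * kap i)) J g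
            (fm (reg i) ∘ fun e => (c e, G' e)) then (1 : ℝ) else 0)
    have h3 := EX_push (fm (reg i)) (fun _ : E => w4b) (fun ω : E → C5 =>
      if Ev φ (kap (i + 1)) (kap i) (tt (i + 1)) ((1 / 2) ^ (5 * kap i)) J g ω then (1 : ℝ) else 0)
    have h4 : (fun (e : E) (c : C5) => ∑ l with fm (reg i) l = c, (fun _ : E => w4b) e l) =
        fun _ => w5 := by
      funext e c
      exact push_fm hx c
    rw [h4] at h3
    rw [← h3]
    have h5 : EX (fun _ : E => w4b) (fun ω : E → C4 × Bool =>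
        if Ev φ (kap (i + 1)) (kap i) (tt (i + 1)) ((1 / 2) ^ (5 * kap i)) J g
          (fm (reg i) ∘ ω) then (1 : ℝ) else 0) =
        EX (fun _ : E => w4) (fun c => EX (fun _ : E => bw gam) (fun G' =>
        if Ev φ (kap (i + 1)) (kap i) (tt (i + 1)) ((1 / 2) ^ (5 * kap i)) J g
            (fm (reg i) ∘ fun e => (c e, G' e)) then (1 : ℝ) else 0)) := h2
    rw [h5]
    have h6 : ∀ (G' : E → Bool) (c : E → C4), (if EvL φ i J l' (Function.update g l' G') c
        then (1 : ℝ) else 0) = if Ev φ (kap (i + 1)) (kap i) (tt (i + 1))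
          ((1 / 2) ^ (5 * kap i)) J g (fm (reg i) ∘ fun e => (c e, G' e)) then 1 else 0 :=
      fun G' c => if_congr (h1 G' c) rfl rfl
    simp only [h6]
    unfold EX
    simp only [mul_sum]
    rw [sum_comm]
    refine sum_congr rfl fun c _ => sum_congr rfl fun G' _ => ?_
    unfold wG
    ring
  rw [step1]
  have hstep2 := EX_mono hW0 fun g => jstep φ (kap (i + 1)) (kap i) (tt (i + 1))
    ((1 / 2) ^ (5 * kap i)) J g
  rw [EX_add, EX_one _ hWs] at hstep2
  have ht1 : tt (i + 1) ≤ 1 := pow_le_one₀ (by norm_num) (by norm_num)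
  have ht0 : 0 < tt (i + 1) := by unfold tt; positivity
  have hnat := natural (t' := (1 / 2) ^ (5 * kap i)) (τ := (1 / 2) ^ (kap (i + 1))) φ hφ hφ1 hanti
    (kap (i + 1)) J W hWs hWJ ht0 ht1 (by positivity) (by positivity)
    (pow_le_one₀ (by norm_num) (by norm_num))
  have hnum := num_all (x := kap i) (by have := kap_pos i; omega)
  refine le_trans ?_ (hnum.trans (le_of_eq ?_))
  · unfold mm
    refine mul_le_mul_of_nonneg_left ?_ (Nat.cast_nonneg _)
    refine hstep2.trans ?_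
    refine add_le_add le_rfl (hnat.trans (le_of_eq ?_))
    rw [hJ]
    unfold mm tt
    rw [kap_succ]
  · rw [kap_succ]

end

end Vale.Agent.P331.H66
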